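import Mathlib

/-!
Orthogonal projections onto closures of submodules, as total functions of the submodule.
-/

namespace Vale.Agent.Lib.P143

open scoped RealInnerProductSpace

variable {H : Type*} [NormedAddCommGroup H] [InnerProductSpace ℝ H] [CompleteSpace H]

/-- The orthogonal projection onto the closure of `K`. -/
noncomputable def pr (K : Submodule ℝ H) : H →L[ℝ] H := K.topologicalClosure.starProjection

theorem pr_mem (K : Submodule ℝ H) (x : H) : pr K x ∈ K.topologicalClosure :=
  Submodule.starProjection_apply_mem _ x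

theorem sub_pr_inner (K : Submodule ℝ H) (x y : H) (hy : y ∈ K) : ⟪x - pr K x, y⟫ = 0 :=
  Submodule.starProjection_inner_eq_zero x y (K.le_topologicalClosure hy)

theorem sub_pr_inner_closure (K : Submodule ℝ H) (x y : H) (hy : y ∈ K.topologicalClosure) :
    ⟪x - pr K x, y⟫ = 0 :=
  Submodule.starProjection_inner_eq_zero x y hy

theorem sub_pr_mem_orthogonal (K : Submodule ℝ H) (x : H) : x - pr K x ∈ Kᗮ := by
  rw [Submodule.mem_orthogonal']
  intro u hu
  exact sub_pr_inner K x u hu

/-- Characterization of the projection. -/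
theorem pr_eq_of (K : Submodule ℝ H) {x y : H} (hy : y ∈ K.topologicalClosure)
    (h : ∀ z ∈ K, ⟪x - y, z⟫ = 0) : pr K x = y := by
  apply Submodule.eq_starProjection_of_mem_of_inner_eq_zero hy
  intro w hw
  have hcl : (K.topologicalClosure : Set H) = closure (K : Set H) := rfl
  have hw' : w ∈ closure (K : Set H) := by rw [← hcl]; exact hw
  have hclosed : IsClosed {z : H | ⟪x - y, z⟫ = 0} :=
    isClosed_eq (by fun_prop) continuous_const
  have hsub : (K : Set H) ⊆ {z : H | ⟪x - y, z⟫ = 0} := fun z hz => h z hz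
  exact closure_minimal hsub hclosed hw'

theorem pr_eq_self_of_mem_closure (K : Submodule ℝ H) {x : H} (hx : x ∈ K.topologicalClosure) :
    pr K x = x :=
  Submodule.starProjection_eq_self_iff.2 hx

theorem pr_eq_self (K : Submodule ℝ H) {x : H} (hx : x ∈ K) : pr K x = x :=
  pr_eq_self_of_mem_closure K (K.le_topologicalClosure hx)

theorem pr_idem (K : Submodule ℝ H) (x : H) : pr K (pr K x) = pr K x :=
  pr_eq_self_of_mem_closure K (pr_mem K x)

theorem inner_pr_left (K : Submodule ℝ H) (x y : H) : ⟪pr K x, y⟫ = ⟪x, pr K y⟫ :=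
  Submodule.inner_starProjection_left_eq_right _ x y

theorem inner_pr_self (K : Submodule ℝ H) (x : H) : ⟪pr K x, x⟫ = ‖pr K x‖ ^ 2 := by
  have := inner_pr_left K (pr K x) x
  rw [pr_idem] at this
  rw [this, real_inner_self_eq_norm_sq]

theorem norm_pr_le (K : Submodule ℝ H) (x : H) : ‖pr K x‖ ≤ ‖x‖ :=
  Submodule.norm_starProjection_apply_le _ x

theorem opNorm_pr_le (K : Submodule ℝ H) : ‖pr K‖ ≤ 1 :=
  Submodule.starProjection_norm_le _

theorem pr_eq_zero_of_orthogonal (K : Submodule ℝ H) {x : H} (hx : ∀ z ∈ K, ⟪x, z⟫ = 0) :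
    pr K x = 0 := by
  apply pr_eq_of K (Submodule.zero_mem _)
  simpa using hx

theorem pr_topologicalClosure (K : Submodule ℝ H) : pr K.topologicalClosure = pr K := by
  ext x
  have h : pr K x ∈ K.topologicalClosure.topologicalClosure :=
    Submodule.le_topologicalClosure _ (pr_mem K x)
  exact pr_eq_of _ h (fun z hz => sub_pr_inner_closure K x z hz)

theorem pr_orthogonal (K : Submodule ℝ H) (x : H) : pr Kᗮ x = x - pr K x := by
  apply pr_eq_of Kᗮ ((Submodule.le_topologicalClosure _) (sub_pr_mem_orthogonal K x))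
  intro z hz
  have h1 : x - (x - pr K x) = pr K x := by abel
  rw [h1]
  have hz' : z ∈ (K.topologicalClosure)ᗮ := by
    rw [Submodule.orthogonal_closure]; exact hz
  exact (Submodule.mem_orthogonal _ _).1 hz' _ (pr_mem K x)

theorem pr_comp_of_le {K L : Submodule ℝ H} (h : K ≤ L) (x : H) : pr K (pr L x) = pr K x := by
  apply pr_eq_of K (pr_mem K x)
  intro z hz
  have h1 : pr L x - pr K x = (pr L x - x) + (x - pr K x) := by abel
  rw [h1, inner_add_left, sub_pr_inner K x z hz, add_zero, ← neg_sub, inner_neg_left,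
    sub_pr_inner L x z (h hz), neg_zero]

theorem pr_comp_of_le' {K L : Submodule ℝ H} (h : K ≤ L) (x : H) : pr L (pr K x) = pr K x :=
  pr_eq_self_of_mem_closure L (Submodule.topologicalClosure_mono h (pr_mem K x))

theorem pr_of_le_closure {K L : Submodule ℝ H} (h : K ≤ L.topologicalClosure) (x : H) :
    pr L (pr K x) = pr K x := by
  apply pr_eq_self_of_mem_closure L
  have h1 : K.topologicalClosure ≤ L.topologicalClosure :=
    Submodule.topologicalClosure_minimal _ h L.isClosed_topologicalClosure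
  exact h1 (pr_mem K x)

theorem pr_add_pr_of_isOrtho {K L : Submodule ℝ H} (h : ∀ x ∈ K, ∀ y ∈ L, ⟪x, y⟫ = 0) (x : H) :
    pr L (pr K x) = 0 := by
  apply pr_eq_zero_of_orthogonal
  intro z hz
  have hclosed : IsClosed {w : H | ⟪w, z⟫ = 0} := isClosed_eq (by fun_prop) continuous_const
  have hsub : (K : Set H) ⊆ {w : H | ⟪w, z⟫ = 0} := fun w hw => h w hw z hz
  exact closure_minimal hsub hclosed (pr_mem K x)

/-- The projection onto the image of a closed subspace under a linear isometric equivalence. -/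
theorem pr_map_equiv (K : Submodule ℝ H) (π : H ≃ₗᵢ[ℝ] H) (x : H) :
    pr (K.map π.toLinearEquiv.toLinearMap) x = π (pr K (π.symm x)) := by
  apply pr_eq_of
  · have hmem : pr K (π.symm x) ∈ K.topologicalClosure := pr_mem K _
    have hcl : (K.topologicalClosure : Set H) = closure (K : Set H) := rfl
    have hw' : pr K (π.symm x) ∈ closure (K : Set H) := by rw [← hcl]; exact hmem
    have hcont : Continuous π := π.continuous
    have h2 : π (pr K (π.symm x)) ∈ closure ((π : H → H) '' (K : Set H)) :=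
      map_mem_closure hcont hw' (fun z hz => Set.mem_image_of_mem _ hz)
    exact h2
  · rintro _ ⟨z, hz, rfl⟩
    have h1 : x - π (pr K (π.symm x)) = π (π.symm x - pr K (π.symm x)) := by
      rw [map_sub, LinearIsometryEquiv.apply_symm_apply]
    rw [h1]
    have h2 := sub_pr_inner K (π.symm x) z hz
    have h3 : ⟪π (π.symm x - pr K (π.symm x)), π z⟫ = ⟪π.symm x - pr K (π.symm x), z⟫ :=
      LinearIsometryEquiv.inner_map_map π _ _
    simpa [h2] using h3

/-- If `S ≤ T` are subspaces then `pr S + pr (T ⊓ Sᗮ) = pr T` as soon as `T` is closed. -/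
theorem pr_add_pr_inf_orthogonal {S T : Submodule ℝ H} (hST : S ≤ T) (hT : IsClosed (T : Set H))
    (x : H) : pr S x + pr (T ⊓ Sᗮ) x = pr T x := by
  have hTc : T.topologicalClosure = T := IsClosed.submodule_topologicalClosure_eq hT
  have hclosed : IsClosed ((T ⊓ Sᗮ : Submodule ℝ H) : Set H) := by
    rw [Submodule.coe_inf]
    exact hT.inter (Submodule.isClosed_orthogonal S)
  have hcl2 : (T ⊓ Sᗮ).topologicalClosure = T ⊓ Sᗮ :=
    IsClosed.submodule_topologicalClosure_eq hclosed
  have hb : pr (T ⊓ Sᗮ) x ∈ T ⊓ Sᗮ := by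
    have := pr_mem (T ⊓ Sᗮ) x
    rwa [hcl2] at this
  have ha : pr S x ∈ T := by
    have h1 : S.topologicalClosure ≤ T := Submodule.topologicalClosure_minimal _ hST hT
    exact h1 (pr_mem S x)
  symm
  apply pr_eq_of T
  · rw [hTc]
    exact T.add_mem ha hb.1
  · intro z hz
    have hz1 : pr S z ∈ T := by
      have h1 : S.topologicalClosure ≤ T := Submodule.topologicalClosure_minimal _ hST hT
      exact h1 (pr_mem S z)
    have hz2 : z - pr S z ∈ T ⊓ Sᗮ := ⟨T.sub_mem hz hz1, sub_pr_mem_orthogonal S z⟩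
    have hb' : pr (T ⊓ Sᗮ) x ∈ (S.topologicalClosure)ᗮ := by
      rw [Submodule.orthogonal_closure]; exact hb.2
    have h1 : ⟪x - (pr S x + pr (T ⊓ Sᗮ) x), pr S z⟫ = 0 := by
      have e1 : x - (pr S x + pr (T ⊓ Sᗮ) x) = (x - pr S x) - pr (T ⊓ Sᗮ) x := by abel
      rw [e1, inner_sub_left, sub_pr_inner_closure S x _ (pr_mem S z), zero_sub, neg_eq_zero,
        real_inner_comm]
      exact (Submodule.mem_orthogonal _ _).1 hb' _ (pr_mem S z)
    have h2 : ⟪x - (pr S x + pr (T ⊓ Sᗮ) x), z - pr S z⟫ = 0 := by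
      have e1 : x - (pr S x + pr (T ⊓ Sᗮ) x) = (x - pr (T ⊓ Sᗮ) x) - pr S x := by abel
      rw [e1, inner_sub_left, sub_pr_inner (T ⊓ Sᗮ) x _ hz2, zero_sub, neg_eq_zero]
      have : z - pr S z ∈ (S.topologicalClosure)ᗮ := by
        rw [Submodule.orthogonal_closure]; exact hz2.2
      exact (Submodule.mem_orthogonal _ _).1 this _ (pr_mem S x)
    have e2 : z = pr S z + (z - pr S z) := by abel
    rw [e2, inner_add_right, h1, h2, add_zero]

omit [CompleteSpace H] in
theorem isClosed_inf_orthogonal {T : Submodule ℝ H} (hT : IsClosed (T : Set H)) (S : Submodule ℝ H) :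
    IsClosed ((T ⊓ Sᗮ : Submodule ℝ H) : Set H) := by
  rw [Submodule.coe_inf]
  exact hT.inter (Submodule.isClosed_orthogonal S)

end Vale.Agent.Lib.P143
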