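import Vale.Agent.Lib.P143.Edges

/-!
Cauchy-Binet and the conditioning formula for the weights `dW`.
-/

namespace Vale.Agent.Lib.P143

open scoped RealInnerProductSpace Matrix

section Det

set_option linter.unusedSectionVars false

variable {m F : Type*} [Fintype m] [DecidableEq m] [Fintype F] [DecidableEq F]

/-- The squared determinant of the columns `T` (zero unless `T` has the right size). -/
noncomputable def dW (M : Matrix m F ℝ) (T : Finset F) : ℝ :=
  if h : T.card = Fintype.card m then
    (M.submatrix id (fun i => ((T.equivFinOfCardEq h).symm (Fintype.equivFin m i) : F))).det ^ 2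
  else 0

/-- The bijection used in `dW`. -/
noncomputable def eT (T : Finset F) (h : T.card = Fintype.card m) : m ≃ T :=
  (Fintype.equivFin m).trans (T.equivFinOfCardEq h).symm

theorem dW_of_card (M : Matrix m F ℝ) {T : Finset F} (h : T.card = Fintype.card m) :
    dW M T = (M.submatrix id (fun i => (eT T h i : F))).det ^ 2 := by
  unfold dW
  rw [dif_pos h]
  rfl

theorem dW_of_not_card (M : Matrix m F ℝ) {T : Finset F} (h : T.card ≠ Fintype.card m) :
    dW M T = 0 := by
  unfold dW
  rw [dif_neg h]

theorem dW_nonneg (M : Matrix m F ℝ) (T : Finset F) : 0 ≤ dW M T := by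
  unfold dW
  split_ifs
  · positivity
  · exact le_rfl

/-- Any bijection computes `dW`. -/
theorem dW_equiv (M : Matrix m F ℝ) (T : Finset F) (g : m ≃ T) :
    dW M T = (M.submatrix id (fun i => (g i : F))).det ^ 2 := by
  have h : T.card = Fintype.card m := by
    rw [← Fintype.card_coe T]
    exact (Fintype.card_congr g).symm
  rw [dW_of_card M h]
  let σ : Equiv.Perm m := g.trans (eT T h).symm
  have e1 : M.submatrix id (fun i => (g i : F))
      = (M.submatrix id (fun i => (eT T h i : F))).submatrix id σ := by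
    ext i j
    simp [σ]
  rw [e1, Matrix.det_permute', mul_pow]
  have : ((Equiv.Perm.sign σ : ℤˣ) : ℝ) ^ 2 = 1 := by
    rcases Int.units_eq_one_or (Equiv.Perm.sign σ) with h | h <;> simp [h]
  have h2 : (((Equiv.Perm.sign σ : ℤˣ) : ℤ) : ℝ) ^ 2 = 1 := by
    rcases Int.units_eq_one_or (Equiv.Perm.sign σ) with h | h <;> simp [h]
  rw [h2, one_mul]

/-- Multiplying on the left by a square matrix. -/
theorem dW_mul (S : Matrix m m ℝ) (M : Matrix m F ℝ) (T : Finset F) :
    dW (S * M) T = S.det ^ 2 * dW M T := by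
  by_cases h : T.card = Fintype.card m
  · rw [dW_of_card _ h, dW_of_card _ h]
    have e : (S * M).submatrix id (fun i => (eT T h i : F))
        = S * M.submatrix id (fun i => (eT T h i : F)) := by
      ext i j
      simp [Matrix.mul_apply]
    rw [e, Matrix.det_mul, mul_pow]
  · rw [dW_of_not_card _ h, dW_of_not_card _ h, mul_zero]

/-- The sum over the functions with a fixed image. -/
theorem sum_image_eq (M : Matrix m F ℝ) (T : Finset F) :
    ∑ φ ∈ Finset.univ.filter (fun φ : m → F => Finset.univ.image φ = T),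
      (∏ i, M i (φ i)) * (M.submatrix id φ).det = dW M T := by
  by_cases h : T.card = Fintype.card m
  · rw [dW_of_card _ h]
    set c : m → F := fun i => (eT T h i : F) with hc
    have hcinj : Function.Injective c := fun i j hij =>
      (eT T h).injective (Subtype.ext hij)
    have hcT : ∀ i, c i ∈ T := fun i => (eT T h i).2
    have hsum : ∑ φ ∈ Finset.univ.filter (fun φ : m → F => Finset.univ.image φ = T),
        (∏ i, M i (φ i)) * (M.submatrix id φ).det
        = ∑ σ : Equiv.Perm m, (∏ i, M i (c (σ i))) * (M.submatrix id (c ∘ σ)).det := by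
      symm
      refine Finset.sum_bij (fun σ _ => c ∘ σ) ?_ ?_ ?_ ?_
      · intro σ _
        simp only [Finset.mem_filter, Finset.mem_univ, true_and]
        apply Finset.eq_of_subset_of_card_le
        · intro x hx
          obtain ⟨i, _, rfl⟩ := Finset.mem_image.1 hx
          exact hcT _
        · rw [Finset.card_image_of_injective _ (hcinj.comp σ.injective), h, Finset.card_univ]
      · intro σ _ τ _ hστ
        ext i
        exact hcinj (congrFun hστ i)
      · intro φ hφ
        have hφ' : Finset.univ.image φ = T := (Finset.mem_filter.1 hφ).2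
        have hφT : ∀ i, φ i ∈ T := fun i => hφ' ▸ Finset.mem_image_of_mem φ (Finset.mem_univ i)
        have hφinj : Function.Injective φ := by
          have hcard : (Finset.univ.image φ).card = (Finset.univ : Finset m).card := by
            rw [hφ', h, Finset.card_univ]
          exact fun a b hab => (Finset.card_image_iff.1 hcard) (by simp) (by simp) hab
        let τ : m → m := fun i => (eT T h).symm ⟨φ i, hφT i⟩
        have hτinj : Function.Injective τ := by
          intro i j hij
          have := (eT T h).symm.injective hij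
          exact hφinj (congrArg Subtype.val this)
        let σ : Equiv.Perm m := Equiv.ofBijective τ (Finite.injective_iff_bijective.1 hτinj)
        refine ⟨σ, Finset.mem_univ _, ?_⟩
        funext i
        simp [σ, τ, c]
      · intro σ _
        rfl
    rw [hsum]
    have e : ∀ σ : Equiv.Perm m, (∏ i, M i (c (σ i))) * (M.submatrix id (c ∘ σ)).det
        = ((Equiv.Perm.sign σ : ℤˣ) : ℤ) * (∏ i, M i (c (σ i))) * (M.submatrix id c).det := by
      intro σ
      have : M.submatrix id (c ∘ σ) = (M.submatrix id c).submatrix id σ := by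
        ext i j
        simp
      rw [this, Matrix.det_permute']
      ring
    simp_rw [e]
    rw [← Finset.sum_mul]
    have e2 : ∑ σ : Equiv.Perm m, (((Equiv.Perm.sign σ : ℤˣ) : ℤ) : ℝ) * ∏ i, M i (c (σ i))
        = (M.submatrix id c).det := by
      rw [← Matrix.det_transpose, Matrix.det_apply']
      refine Finset.sum_congr rfl (fun σ _ => ?_)
      simp [Matrix.transpose_apply, mul_comm]
    rw [e2, sq]
  · rw [dW_of_not_card _ h]
    refine Finset.sum_eq_zero (fun φ hφ => ?_)
    have hφ' : Finset.univ.image φ = T := (Finset.mem_filter.1 hφ).2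
    have hnot : ¬ Function.Injective φ := by
      intro hinj
      apply h
      rw [← hφ', Finset.card_image_of_injective _ hinj, Finset.card_univ]
    obtain ⟨i, j, hij, hne⟩ := Function.not_injective_iff.1 hnot
    have : (M.submatrix id φ).det = 0 :=
      Matrix.det_zero_of_column_eq hne (fun k => by simp [hij])
    rw [this, mul_zero]

/-- The Cauchy-Binet formula. -/
theorem det_mul_transpose (M : Matrix m F ℝ) : (M * Mᵀ).det = ∑ T, dW M T := by
  have e1 : (M * Mᵀ).det = (Mᵀᵀ * Mᵀ).det := by rw [Matrix.transpose_transpose]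
  have h0 : (M * Mᵀ) = Matrix.of (fun i => ∑ f, M i f • (fun j => M j f)) := by
    ext i j
    simp [Matrix.mul_apply, Finset.sum_apply]
  have h1 : (M * Mᵀ).det
      = ∑ φ : m → F, (∏ i, M i (φ i)) * (M.submatrix id φ)ᵀ.det := by
    rw [h0]
    have h2 := (Matrix.detRowAlternating (R := ℝ) (n := m)).toMultilinearMap.map_sum
      (fun i f => M i f • (fun j => M j f))
    have h3 : ∀ φ : m → F,
        (Matrix.detRowAlternating (R := ℝ) (n := m)).toMultilinearMap
          (fun i => M i (φ i) • (fun j => M j (φ i)))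
        = (∏ i, M i (φ i)) * (M.submatrix id φ)ᵀ.det := by
      intro φ
      rw [MultilinearMap.map_smul_univ]
      rfl
    simp_rw [h3] at h2
    exact h2
  rw [h1]
  simp_rw [Matrix.det_transpose]
  rw [← Finset.sum_fiberwise (Finset.univ : Finset (m → F)) (fun φ => Finset.univ.image φ)]
  refine Finset.sum_congr rfl (fun T _ => ?_)
  exact sum_image_eq M T

/-- Replacing rows by unit rows: the determinant does not change when the corresponding columns are
unit vectors. -/
theorem det_rows_unit (N : Matrix m m ℝ) (I : Finset m) (π : m → m) (hπ : Set.InjOn π I)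
    (hcol : ∀ i ∈ I, ∀ i', N i' (π i) = if i' = i then 1 else 0) :
    (Matrix.of fun i j => if i ∈ I then (if j = π i then (1 : ℝ) else 0) else N i j).det = N.det := by
  induction I using Finset.induction_on with
  | empty =>
    congr 1
  | insert i₀ I' hi₀ ih =>
    have hπ' : Set.InjOn π (I' : Set m) := hπ.mono (by
      intro x hx
      exact Finset.mem_coe.2 (Finset.mem_insert_of_mem (Finset.mem_coe.1 hx)))
    have hcol' : ∀ i ∈ I', ∀ i', N i' (π i) = if i' = i then 1 else 0 :=
      fun i hi => hcol i (Finset.mem_insert_of_mem hi)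
    rw [← ih hπ' hcol']
    set N₁ : Matrix m m ℝ :=
      Matrix.of fun i j => if i ∈ I' then (if j = π i then (1 : ℝ) else 0) else N i j with hN₁
    let un : m → ℝ := fun j => if j = π i₀ then 1 else 0
    have e1 : (Matrix.of fun i j => if i ∈ insert i₀ I' then (if j = π i then (1 : ℝ) else 0) else N i j)
        = N₁.updateRow i₀ un := by
      ext i j
      by_cases hi : i = i₀
      · subst hi
        simp [un]
      · rw [Matrix.updateRow_ne hi]
        simp [hN₁, hi]
    have e2 : N₁.updateRow i₀ (un + (N₁ i₀ - un)) = N₁ := by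
      rw [add_sub_cancel]
      exact Matrix.updateRow_eq_self N₁ i₀
    have hz : (N₁.updateRow i₀ (N₁ i₀ - un)).det = 0 := by
      apply Matrix.det_eq_zero_of_column_eq_zero (π i₀)
      intro i
      by_cases hi : i = i₀
      · subst hi
        have h1 : N₁ i (π i) = 1 := by
          simp only [hN₁, Matrix.of_apply, hi₀, if_false]
          rw [hcol i (Finset.mem_insert_self _ _) i, if_pos rfl]
        simp [h1, un]
      · rw [Matrix.updateRow_ne hi]
        simp only [hN₁, Matrix.of_apply]
        by_cases hI : i ∈ I'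
        · rw [if_pos hI, if_neg]
          intro h
          have hcoe1 : i₀ ∈ ((insert i₀ I' : Finset m) : Set m) :=
            Finset.mem_coe.2 (Finset.mem_insert_self _ _)
          have hcoe2 : i ∈ ((insert i₀ I' : Finset m) : Set m) :=
            Finset.mem_coe.2 (Finset.mem_insert_of_mem hI)
          exact hi (hπ hcoe1 hcoe2 h).symm
        · rw [if_neg hI, hcol i₀ (Finset.mem_insert_self _ _) i, if_neg hi]
    rw [e1]
    conv_rhs => rw [← e2]
    rw [Matrix.det_updateRow_add, hz, add_zero]

/-- The matrix with the columns `C` removed and the rows belonging to `A` replaced by unit rows. -/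
noncomputable def condM (Mt : Matrix m F ℝ) (g : m → F) (A C : Finset F) : Matrix m F ℝ :=
  fun i f => if g i ∈ A then (if f = g i then 1 else 0) else if f ∈ C then 0 else Mt i f

/-- The effect of `condM` on the weights. -/
theorem dW_condM (Mt : Matrix m F ℝ) (g : m → F) (A C : Finset F) (hg : Function.Injective g)
    (hδ : ∀ i j, Mt i (g j) = if i = j then 1 else 0) (hAg : ∀ a ∈ A, ∃ i, g i = a)
    (hAC : Disjoint A C) (T : Finset F) :
    dW (condM Mt g A C) T = if A ⊆ T ∧ Disjoint C T then dW Mt T else 0 := by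
  by_cases h : T.card = Fintype.card m
  · by_cases hC : Disjoint C T
    · by_cases hA : A ⊆ T
      · rw [if_pos ⟨hA, hC⟩, dW_of_card _ h, dW_of_card _ h]
        set c : m → F := fun i => (eT T h i : F) with hc
        have hcT : ∀ i, c i ∈ T := fun i => (eT T h i).2
        have hcinj : Function.Injective c := fun i j hij =>
          (eT T h).injective (Subtype.ext hij)
        let I : Finset m := Finset.univ.filter (fun i => g i ∈ A)
        let π : m → m := fun i => if hi : g i ∈ T then (eT T h).symm ⟨g i, hi⟩ else i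
        have hπ : ∀ i ∈ I, c (π i) = g i := by
          intro i hi
          have hi' : g i ∈ T := hA (Finset.mem_filter.1 hi).2
          simp only [π, dif_pos hi', hc, Equiv.apply_symm_apply]
        have hπinj : Set.InjOn π I := by
          intro i hi j hj hij
          have h1 := hπ i (Finset.mem_coe.1 hi)
          have h2 := hπ j (Finset.mem_coe.1 hj)
          rw [hij, h2] at h1
          exact (hg h1).symm
        have hcol : ∀ i ∈ I, ∀ i', (Mt.submatrix id c) i' (π i) = if i' = i then 1 else 0 := by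
          intro i hi i'
          simp only [Matrix.submatrix_apply, id, hπ i hi]
          exact hδ i' i
        have key := det_rows_unit (Mt.submatrix id c) I π hπinj hcol
        rw [← key]
        congr 2
        ext i j
        simp only [Matrix.submatrix_apply, id, condM, Matrix.of_apply]
        by_cases hi : g i ∈ A
        · have hiI : i ∈ I := Finset.mem_filter.2 ⟨Finset.mem_univ _, hi⟩
          rw [if_pos hi, if_pos hiI]
          have : c j = g i ↔ j = π i := by
            rw [← hπ i hiI]
            exact hcinj.eq_iff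
          simp only [this]
        · have hiI : i ∉ I := fun hh => hi (Finset.mem_filter.1 hh).2
          have hcC : c j ∉ C := fun hh => (Finset.disjoint_left.1 hC hh) (hcT j)
          rw [if_neg hi, if_neg hiI, if_neg hcC]
      · rw [if_neg (fun hh => hA hh.1), dW_of_card _ h]
        obtain ⟨a, haA, haT⟩ := Finset.not_subset.1 hA
        obtain ⟨i₀, rfl⟩ := hAg a haA
        have : ((condM Mt g A C).submatrix id (fun i => (eT T h i : F))).det = 0 := by
          apply Matrix.det_eq_zero_of_row_eq_zero i₀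
          intro j
          simp only [Matrix.submatrix_apply, id, condM, if_pos haA]
          rw [if_neg]
          intro hh
          exact haT (hh ▸ (eT T h j).2)
        rw [this]
        simp
    · rw [if_neg (fun hh => hC hh.2), dW_of_card _ h]
      obtain ⟨f, hfC, hfT⟩ := Finset.not_disjoint_iff.1 hC
      have : ((condM Mt g A C).submatrix id (fun i => (eT T h i : F))).det = 0 := by
        apply Matrix.det_eq_zero_of_column_eq_zero ((eT T h).symm ⟨f, hfT⟩)
        intro i
        simp only [Matrix.submatrix_apply, id, Equiv.apply_symm_apply, condM]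
        by_cases hi : g i ∈ A
        · rw [if_pos hi, if_neg]
          intro hh
          exact (Finset.disjoint_left.1 hAC hi) (hh ▸ hfC)
        · rw [if_neg hi, if_pos hfC]
      rw [this]
      simp
  · rw [dW_of_not_card _ h, dW_of_not_card _ h]
    simp

variable {H E : Type*} [NormedAddCommGroup H] [InnerProductSpace ℝ H] [CompleteSpace H]

/-- The row space of `M`, as a subspace of `H`, columns being the vectors `ψ (ι f)`. -/
noncomputable def rowSpan (ψ : E → H) (ι : F → E) (M : Matrix m F ℝ) : Submodule ℝ H :=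
  Submodule.span ℝ (Set.range fun i => ∑ f, M i f • ψ (ι f))

/-- The vector with given coordinates. -/
noncomputable def vecOf (ψ : E → H) (ι : F → E) (x : F → ℝ) : H := ∑ f, x f • ψ (ι f)

theorem inner_vecOf_psi {ψ : E → H} (hψ : Orthonormal ℝ ψ) {ι : F → E} (hι : Function.Injective ι)
    (x : F → ℝ) (f : F) : ⟪vecOf ψ ι x, ψ (ι f)⟫ = x f := by
  unfold vecOf
  rw [sum_inner, Finset.sum_eq_single f]
  · rw [inner_smul_left, real_inner_self_eq_norm_sq, hψ.1 (ι f)]
    simp
  · intro g _ hg
    rw [inner_smul_left, hψ.2 (fun h => hg (hι h)), mul_zero]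
  · intro h
    exact absurd (Finset.mem_univ f) h

theorem inner_vecOf_vecOf {ψ : E → H} (hψ : Orthonormal ℝ ψ) {ι : F → E} (hι : Function.Injective ι)
    (x y : F → ℝ) : ⟪vecOf ψ ι x, vecOf ψ ι y⟫ = ∑ f, x f * y f := by
  conv_lhs => rw [show vecOf ψ ι y = ∑ f, y f • ψ (ι f) from rfl]
  rw [inner_sum]
  refine Finset.sum_congr rfl (fun f _ => ?_)
  rw [inner_smul_right, inner_vecOf_psi hψ hι, mul_comm]

/-- A vector orthogonal to the generators of a span is orthogonal to the span. -/
theorem inner_span_zero {ι' : Type*} {v : ι' → H} {u : H} (h : ∀ i, ⟪u, v i⟫ = 0) :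
    ∀ z ∈ Submodule.span ℝ (Set.range v), ⟪u, z⟫ = 0 := by
  intro z hz
  induction hz using Submodule.span_induction with
  | mem x hx =>
    obtain ⟨i, rfl⟩ := hx
    exact h i
  | zero => simp
  | add a b _ _ ha hb => rw [inner_add_right, ha, hb, add_zero]
  | smul c a _ ha => rw [inner_smul_right, ha, mul_zero]

/-- The matrix with column `e` set to zero. -/
def zeroCol (M : Matrix m F ℝ) (e : F) : Matrix m F ℝ := Matrix.of fun i f => if f = e then 0 else M i f

theorem zeroCol_apply (M : Matrix m F ℝ) (e : F) (i : m) (f : F) :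
    zeroCol M e i f = if f = e then 0 else M i f := rfl

theorem dW_zeroCol (M : Matrix m F ℝ) (e : F) (T : Finset F) :
    dW (zeroCol M e) T = if e ∈ T then 0 else dW M T := by
  by_cases h : T.card = Fintype.card m
  · by_cases heT : e ∈ T
    · rw [if_pos heT, dW_of_card _ h]
      have : ((zeroCol M e).submatrix id (fun i => (eT T h i : F))).det = 0 := by
        apply Matrix.det_eq_zero_of_column_eq_zero ((eT T h).symm ⟨e, heT⟩)
        intro i
        simp [zeroCol_apply]
      rw [this]
      simp
    · rw [if_neg heT, dW_of_card _ h, dW_of_card _ h]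
      congr 2
      ext i j
      have : (eT T h j : F) ≠ e := fun hh => heT (hh ▸ (eT T h j).2)
      simp [zeroCol_apply, this]
  · rw [dW_of_not_card _ h, dW_of_not_card _ h]
    simp

theorem zeroCol_mul (M : Matrix m F ℝ) (e : F) :
    zeroCol M e * (zeroCol M e)ᵀ
      = M * Mᵀ + Matrix.replicateCol Unit (-(fun i => M i e)) * Matrix.replicateRow Unit (fun i => M i e) := by
  ext i j
  simp only [Matrix.mul_apply, Matrix.transpose_apply, Matrix.add_apply, Matrix.replicateCol_apply,
    Matrix.replicateRow_apply, zeroCol_apply, Fintype.sum_unique, Pi.neg_apply]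
  rw [← Finset.add_sum_erase _ _ (Finset.mem_univ e), ← Finset.add_sum_erase (a := e) _
    (fun x => M i x * M j x) (Finset.mem_univ e)]
  simp only [if_true, mul_zero, zero_add]
  have : ∑ x ∈ Finset.univ.erase e, (if x = e then 0 else M i x) * (if x = e then 0 else M j x)
      = ∑ x ∈ Finset.univ.erase e, M i x * M j x := by
    refine Finset.sum_congr rfl (fun x hx => ?_)
    rw [if_neg (Finset.ne_of_mem_erase hx), if_neg (Finset.ne_of_mem_erase hx)]
  rw [this]
  ring

/-- The matrix determinant lemma in the form needed. -/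
theorem det_zeroCol (M : Matrix m F ℝ) (e : F) (hunit : IsUnit (M * Mᵀ).det) :
    (zeroCol M e * (zeroCol M e)ᵀ).det
      = (M * Mᵀ).det * (1 - ∑ i, M i e * ((M * Mᵀ)⁻¹.mulVec (fun i => M i e)) i) := by
  rw [zeroCol_mul, Matrix.det_add_replicateCol_mul_replicateRow hunit]
  congr 1
  rw [Matrix.det_unique]
  have : (Matrix.replicateRow Unit (fun i => M i e) * (M * Mᵀ)⁻¹
      * Matrix.replicateCol Unit (-(fun i => M i e))) default default
      = - ∑ i, M i e * ((M * Mᵀ)⁻¹.mulVec (fun i => M i e)) i := by
    rw [Matrix.mul_assoc]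
    simp only [Matrix.mul_apply, Matrix.replicateRow_apply, Matrix.replicateCol_apply, Pi.neg_apply,
      Matrix.mulVec, dotProduct]
    rw [← Finset.sum_neg_distrib]
    refine Finset.sum_congr rfl (fun i _ => ?_)
    rw [Finset.mul_sum, Finset.mul_sum, ← Finset.sum_neg_distrib]
    refine Finset.sum_congr rfl (fun k _ => ?_)
    ring
  rw [Matrix.add_apply, this, Matrix.one_apply_eq]
  ring

/-- The base case: the probability of an edge in a determinantal measure with a full rank matrix. -/
theorem base_lemma (ψ : E → H) (hψ : Orthonormal ℝ ψ) (ι : F → E) (hι : Function.Injective ι)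
    (M : Matrix m F ℝ) (e : F) (hdet : (M * Mᵀ).det ≠ 0) :
    ∑ T ∈ Finset.univ.filter (fun T : Finset F => e ∈ T), dW M T
      = (∑ T, dW M T) * ‖pr (rowSpan ψ ι M) (ψ (ι e))‖ ^ 2 := by
  have hunit : IsUnit (M * Mᵀ).det := isUnit_iff_ne_zero.2 hdet
  have hsum0 : ∑ T, dW (zeroCol M e) T = ∑ T ∈ Finset.univ.filter (fun T : Finset F => ¬ e ∈ T), dW M T := by
    rw [Finset.sum_filter]
    refine Finset.sum_congr rfl (fun T _ => ?_)
    rw [dW_zeroCol]
    by_cases h : e ∈ T <;> simp [h]
  have hsplit := Finset.sum_filter_add_sum_filter_not (Finset.univ : Finset (Finset F))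
    (fun T => e ∈ T) (fun T => dW M T)
  have hdetX0 := det_zeroCol M e hunit
  rw [det_mul_transpose (zeroCol M e), hsum0, det_mul_transpose M] at hdetX0
  set c : m → ℝ := (M * Mᵀ)⁻¹.mulVec (fun i => M i e) with hc
  have hXc : (M * Mᵀ).mulVec c = fun i => M i e := by
    rw [hc, Matrix.mulVec_mulVec, Matrix.mul_nonsing_inv _ hunit, Matrix.one_mulVec]
  -- the projection
  have hy : pr (rowSpan ψ ι M) (ψ (ι e)) = ∑ j, c j • vecOf ψ ι (M j) := by
    apply pr_eq_of
    · apply Submodule.le_topologicalClosure
      refine Submodule.sum_mem _ (fun j _ => Submodule.smul_mem _ _ (Submodule.subset_span ⟨j, rfl⟩))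
    · apply inner_span_zero
      intro i
      change ⟪ψ (ι e) - ∑ j, c j • vecOf ψ ι (M j), vecOf ψ ι (M i)⟫ = 0
      rw [inner_sub_left, real_inner_comm, inner_vecOf_psi hψ hι, sum_inner]
      have h1 : ∀ j, ⟪c j • vecOf ψ ι (M j), vecOf ψ ι (M i)⟫ = (M * Mᵀ) i j * c j := by
        intro j
        rw [inner_smul_left, inner_vecOf_vecOf hψ hι]
        simp only [Matrix.mul_apply, Matrix.transpose_apply, conj_trivial]
        rw [mul_comm]
        congr 1
        exact Finset.sum_congr rfl (fun f _ => mul_comm _ _)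
      simp_rw [h1]
      have h2 := congrFun hXc i
      simp only [Matrix.mulVec, dotProduct] at h2
      rw [h2, sub_self]
  have hnorm : ‖pr (rowSpan ψ ι M) (ψ (ι e))‖ ^ 2 = ∑ i, M i e * c i := by
    rw [← inner_pr_self, hy, sum_inner]
    refine Finset.sum_congr rfl (fun j _ => ?_)
    rw [inner_smul_left, inner_vecOf_psi hψ hι, conj_trivial, mul_comm]
  rw [hnorm]
  linear_combination hsplit - hdetX0

/-- Removing coordinates. -/
theorem pr_compl_vecOf {ψ : E → H} (hψ : Orthonormal ℝ ψ) {ι : F → E} (hι : Function.Injective ι)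
    (A C : Finset F) (x : F → ℝ) :
    pr (Wsp ψ ((ι '' (A : Set F)) ∪ (ι '' (C : Set F)))ᶜ) (vecOf ψ ι x)
      = vecOf ψ ι (fun f => if f ∈ A ∨ f ∈ C then 0 else x f) := by
  unfold vecOf
  rw [map_sum]
  refine Finset.sum_congr rfl (fun f _ => ?_)
  rw [map_smul]
  by_cases hf : f ∈ A ∨ f ∈ C
  · dsimp only
    rw [if_pos hf, zero_smul, pr_Wsp_of_notMem hψ, smul_zero]
    intro h
    apply h
    rcases hf with hf | hf
    · exact Or.inl ⟨f, Finset.mem_coe.2 hf, rfl⟩
    · exact Or.inr ⟨f, Finset.mem_coe.2 hf, rfl⟩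
  · dsimp only
    rw [if_neg hf, pr_Wsp_of_mem]
    rintro (⟨a, ha, hh⟩ | ⟨a, ha, hh⟩)
    · exact hf (Or.inl (hι hh ▸ Finset.mem_coe.1 ha))
    · exact hf (Or.inr (hι hh ▸ Finset.mem_coe.1 ha))

theorem vecOf_mul (ψ : E → H) (ι : F → E) (P : Matrix m m ℝ) (M : Matrix m F ℝ) (i : m) :
    vecOf ψ ι ((P * M) i) = ∑ j, P i j • vecOf ψ ι (M j) := by
  unfold vecOf
  simp_rw [Finset.smul_sum, Matrix.mul_apply, Finset.sum_smul, smul_smul]
  exact Finset.sum_comm

theorem rowSpan_mul_le (ψ : E → H) (ι : F → E) (P : Matrix m m ℝ) (M : Matrix m F ℝ) :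
    rowSpan ψ ι (P * M) ≤ rowSpan ψ ι M := by
  refine Submodule.span_le.2 ?_
  rintro _ ⟨i, rfl⟩
  change vecOf ψ ι ((P * M) i) ∈ _
  rw [vecOf_mul]
  exact Submodule.sum_mem _ (fun j _ => Submodule.smul_mem _ _ (Submodule.subset_span ⟨j, rfl⟩))

/-- The row space of `condM` computes the conditioned projection. -/
theorem pr_condM {ψ : E → H} (hψ : Orthonormal ℝ ψ) {ι : F → E} (hι : Function.Injective ι)
    (Mt : Matrix m F ℝ) (g : m → F) (A C : Finset F) (e : F) (hg : Function.Injective g)
    (hδ : ∀ i j, Mt i (g j) = if i = j then 1 else 0) (hAg : ∀ a ∈ A, ∃ i, g i = a)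
    (hAC : Disjoint A C) (heA : e ∉ A) :
    pr (rowSpan ψ ι (condM Mt g A C)) (ψ (ι e))
      = pr (Vs ψ (rowSpan ψ ι Mt) (ι '' (A : Set F)) (ι '' (C : Set F))) (ψ (ι e)) := by
  set M' := condM Mt g A C with hM'
  have hcondδ : ∀ i j, g j ∈ A → M' i (g j) = if i = j then 1 else 0 := by
    intro i j hj
    simp only [hM', condM]
    by_cases hi : g i ∈ A
    · rw [if_pos hi]
      by_cases hij : i = j
      · subst hij
        simp
      · rw [if_neg hij, if_neg]
        exact fun hh => hij (hg hh).symm
    · have hjC : g j ∉ C := fun hh => (Finset.disjoint_left.1 hAC hj) hh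
      rw [if_neg hi, if_neg hjC, hδ]
  have hw_unit : ∀ i, g i ∈ A → vecOf ψ ι (M' i) = ψ (ι (g i)) := by
    intro i hi
    unfold vecOf
    rw [Finset.sum_eq_single (g i)]
    · have := hcondδ i i hi
      rw [this, if_pos rfl, one_smul]
    · intro f _ hf
      simp only [hM', condM, if_pos hi, if_neg hf, zero_smul]
    · intro h
      exact absurd (Finset.mem_univ _) h
  have hw_Q : ∀ i, g i ∉ A → vecOf ψ ι (M' i)
      = pr (Wsp ψ ((ι '' (A : Set F)) ∪ (ι '' (C : Set F)))ᶜ) (vecOf ψ ι (Mt i)) := by
    intro i hi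
    rw [pr_compl_vecOf hψ hι]
    congr 1
    funext f
    simp only [hM', condM, if_neg hi]
    by_cases hfA : f ∈ A
    · obtain ⟨j, rfl⟩ := hAg f hfA
      have hij : i ≠ j := fun hh => hi (hh ▸ hfA)
      have hfC : g j ∉ C := fun hh => (Finset.disjoint_left.1 hAC hfA) hh
      rw [if_pos (Or.inl hfA), if_neg hfC, hδ, if_neg hij]
    · by_cases hfC : f ∈ C
      · rw [if_pos hfC, if_pos (Or.inr hfC)]
      · rw [if_neg hfC, if_neg (by tauto)]
  have hr_msp : ∀ i, g i ∉ A → vecOf ψ ι (Mt i) ∈ Msp ψ (rowSpan ψ ι Mt) (ι '' (A : Set F)) := by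
    intro i hi
    refine ⟨Submodule.subset_span ⟨i, rfl⟩, ?_⟩
    rw [SetLike.mem_coe, Submodule.mem_orthogonal]
    intro u hu
    rw [real_inner_comm]
    refine inner_Wsp_zero ?_ u hu
    rintro _ ⟨a, ha, rfl⟩
    have haA := Finset.mem_coe.1 ha
    obtain ⟨j, rfl⟩ := hAg a haA
    have hij : i ≠ j := fun hh => hi (hh ▸ haA)
    rw [inner_vecOf_psi hψ hι, hδ, if_neg hij]
  have hw_Vs : ∀ i, g i ∉ A → vecOf ψ ι (M' i)
      ∈ Vs ψ (rowSpan ψ ι Mt) (ι '' (A : Set F)) (ι '' (C : Set F)) := by
    intro i hi
    rw [hw_Q i hi]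
    exact ⟨_, hr_msp i hi, rfl⟩
  -- the projection onto the row space of `M'`
  set x := ψ (ι e) with hx
  set y := pr (rowSpan ψ ι M') x with hy
  have hfd : FiniteDimensional ℝ (rowSpan ψ ι M') :=
    FiniteDimensional.span_of_finite ℝ (Set.finite_range _)
  have hcl : (rowSpan ψ ι M').topologicalClosure = rowSpan ψ ι M' :=
    IsClosed.submodule_topologicalClosure_eq (Submodule.closed_of_finiteDimensional _)
  have hymem : y ∈ rowSpan ψ ι M' := by
    have := pr_mem (rowSpan ψ ι M') x
    rwa [hcl] at this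
  have hperp : ∀ z ∈ rowSpan ψ ι M', ⟪x - y, z⟫ = 0 := fun z hz => sub_pr_inner _ x z hz
  symm
  apply pr_eq_of
  · apply Submodule.le_topologicalClosure
    obtain ⟨d, hd⟩ := (Submodule.mem_span_range_iff_exists_fun ℝ).1 hymem
    have hd' : ∑ i, d i • vecOf ψ ι (M' i) = y := hd
    have hd0 : ∀ i, g i ∈ A → d i = 0 := by
      intro i₀ hi₀
      have hne : e ≠ g i₀ := fun hh => heA (hh ▸ hi₀)
      have h1 : ⟪x, ψ (ι (g i₀))⟫ = 0 := hψ.2 (fun hh => hne (hι hh))
      have h2 := hperp _ (Submodule.subset_span ⟨i₀, rfl⟩ : vecOf ψ ι (M' i₀) ∈ rowSpan ψ ι M')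
      rw [hw_unit i₀ hi₀, inner_sub_left, h1, zero_sub, neg_eq_zero] at h2
      rw [← hd', sum_inner, Finset.sum_eq_single i₀] at h2
      · rw [inner_smul_left, inner_vecOf_psi hψ hι, hcondδ i₀ i₀ hi₀, if_pos rfl] at h2
        simpa using h2
      · intro i _ hi
        rw [inner_smul_left, inner_vecOf_psi hψ hι, hcondδ i i₀ hi₀, if_neg hi, mul_zero]
      · intro h
        exact absurd (Finset.mem_univ _) h
    rw [← hd']
    refine Submodule.sum_mem _ (fun i _ => ?_)
    by_cases hi : g i ∈ A
    · rw [hd0 i hi, zero_smul]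
      exact Submodule.zero_mem _
    · exact Submodule.smul_mem _ _ (hw_Vs i hi)
  · rintro _ ⟨u, hu, rfl⟩
    obtain ⟨huV, huA⟩ := hu
    obtain ⟨c, hc⟩ := (Submodule.mem_span_range_iff_exists_fun ℝ).1 huV
    have hc' : ∑ i, c i • vecOf ψ ι (Mt i) = u := hc
    have hc0 : ∀ i, g i ∈ A → c i = 0 := by
      intro i₀ hi₀
      have h1 : ⟪ψ (ι (g i₀)), u⟫ = 0 := (Submodule.mem_orthogonal _ _).1 huA _
        (mem_Wsp ψ ⟨g i₀, Finset.mem_coe.2 hi₀, rfl⟩)
      rw [real_inner_comm, ← hc', sum_inner, Finset.sum_eq_single i₀] at h1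
      · rw [inner_smul_left, inner_vecOf_psi hψ hι, hδ, if_pos rfl] at h1
        simpa using h1
      · intro i _ hi
        rw [inner_smul_left, inner_vecOf_psi hψ hι, hδ, if_neg hi, mul_zero]
      · intro h
        exact absurd (Finset.mem_univ _) h
    apply hperp
    change pr _ u ∈ _
    rw [← hc', map_sum]
    refine Submodule.sum_mem _ (fun i _ => ?_)
    rw [map_smul]
    by_cases hi : g i ∈ A
    · rw [hc0 i hi, zero_smul]
      exact Submodule.zero_mem _
    · rw [← hw_Q i hi]
      exact Submodule.smul_mem _ _ (Submodule.subset_span ⟨i, rfl⟩)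

/-- Cauchy-Binet and conditioning. -/
theorem dW_cond (ψ : E → H) (hψ : Orthonormal ℝ ψ) (ι : F → E) (hι : Function.Injective ι)
    (M : Matrix m F ℝ) (A C : Finset F) (e : F) (hAC : Disjoint A C) (heA : e ∉ A) (heC : e ∉ C) :
    ∑ T ∈ Finset.univ.filter (fun T : Finset F => insert e A ⊆ T ∧ Disjoint C T), dW M T
      = (∑ T ∈ Finset.univ.filter (fun T : Finset F => A ⊆ T ∧ Disjoint C T), dW M T)
        * pe ψ (rowSpan ψ ι M) (ι '' (A : Set F)) (ι '' (C : Set F)) (ι e) := by
  by_cases hG : ∑ T ∈ Finset.univ.filter (fun T : Finset F => A ⊆ T ∧ Disjoint C T), dW M T = 0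
  · rw [hG, zero_mul]
    have h0 := (Finset.sum_eq_zero_iff_of_nonneg (fun T _ => dW_nonneg M T)).1 hG
    refine Finset.sum_eq_zero (fun T hT => h0 T ?_)
    rw [Finset.mem_filter] at hT ⊢
    exact ⟨hT.1, (Finset.insert_subset_iff.1 hT.2.1).2, hT.2.2⟩
  · obtain ⟨T₀, hT₀, hne⟩ := Finset.exists_ne_zero_of_sum_ne_zero hG
    have hT₀' := (Finset.mem_filter.1 hT₀).2
    have hcard : T₀.card = Fintype.card m := by
      by_contra hh
      exact hne (dW_of_not_card M hh)
    let g : m → F := fun i => (eT T₀ hcard i : F)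
    have hg : Function.Injective g := fun i j hij => (eT T₀ hcard).injective (Subtype.ext hij)
    let S : Matrix m m ℝ := M.submatrix id g
    have hS : S.det ≠ 0 := by
      intro h0
      apply hne
      rw [dW_of_card M hcard]
      change S.det ^ 2 = 0
      rw [h0]
      simp
    have hSu : IsUnit S.det := isUnit_iff_ne_zero.2 hS
    let Mt : Matrix m F ℝ := S⁻¹ * M
    have hδ : ∀ i j, Mt i (g j) = if i = j then 1 else 0 := by
      intro i j
      have h1 : Mt i (g j) = (S⁻¹ * S) i j := by
        simp only [Mt, S, Matrix.mul_apply, Matrix.submatrix_apply, id]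
      rw [h1, Matrix.nonsing_inv_mul S hSu, Matrix.one_apply]
    have hAg : ∀ a ∈ A, ∃ i, g i = a := by
      intro a ha
      have haT := hT₀'.1 ha
      exact ⟨(eT T₀ hcard).symm ⟨a, haT⟩, by simp [g]⟩
    set M' := condM Mt g A C with hM'
    set κ : ℝ := S⁻¹.det ^ 2 with hκ
    have hκ0 : κ ≠ 0 := by
      rw [hκ, Matrix.det_nonsing_inv]
      have : (Ring.inverse S.det) ≠ 0 := by
        rw [Ring.inverse_eq_inv']
        exact inv_ne_zero hS
      exact pow_ne_zero _ this
    have hdM' : ∀ T, dW M' T = if A ⊆ T ∧ Disjoint C T then κ * dW M T else 0 := by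
      intro T
      rw [hM', dW_condM Mt g A C hg hδ hAg hAC T]
      simp only [Mt, dW_mul, hκ]
    have hsum1 : ∑ T, dW M' T
        = κ * ∑ T ∈ Finset.univ.filter (fun T : Finset F => A ⊆ T ∧ Disjoint C T), dW M T := by
      rw [Finset.sum_filter, Finset.mul_sum]
      refine Finset.sum_congr rfl (fun T _ => ?_)
      rw [hdM']
      split_ifs <;> simp
    have hsum2 : ∑ T ∈ Finset.univ.filter (fun T : Finset F => e ∈ T), dW M' T
        = κ * ∑ T ∈ Finset.univ.filter (fun T : Finset F => insert e A ⊆ T ∧ Disjoint C T), dW M T := by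
      rw [Finset.sum_filter, Finset.sum_filter, Finset.mul_sum]
      refine Finset.sum_congr rfl (fun T _ => ?_)
      rw [hdM']
      by_cases h1 : e ∈ T <;> by_cases h2 : A ⊆ T <;> by_cases h3 : Disjoint C T <;>
        simp [Finset.insert_subset_iff, h1, h2, h3]
    have hdet : (M' * M'ᵀ).det ≠ 0 := by
      rw [det_mul_transpose, hsum1]
      exact mul_ne_zero hκ0 hG
    have hbase := base_lemma ψ hψ ι hι M' e hdet
    rw [hsum1, hsum2] at hbase
    have hrow : rowSpan ψ ι Mt = rowSpan ψ ι M := by
      apply le_antisymm (rowSpan_mul_le ψ ι _ _)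
      have : M = S * Mt := by
        simp only [Mt]
        rw [← Matrix.mul_assoc, Matrix.mul_nonsing_inv S hSu, Matrix.one_mul]
      conv_lhs => rw [this]
      exact rowSpan_mul_le ψ ι _ _
    have hpr := pr_condM hψ hι Mt g A C e hg hδ hAg hAC heA
    rw [hrow] at hpr
    unfold pe
    rw [← hpr, ← hM']
    have := mul_left_cancel₀ hκ0 (hbase.trans (mul_assoc _ _ _))
    exact this

end Det

end Vale.Agent.Lib.P143
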