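import Vale.Agent.Lib.P143.Gap

/-!
Determinantal measures: the identification of the conditional probability given an arbitrary
set of edges, under gap zero.
-/

namespace Vale.Agent.Lib.P143

open MeasureTheory Filter Topology
open scoped RealInnerProductSpace ENNReal Pointwise

variable {H E : Type*} [NormedAddCommGroup H] [InnerProductSpace ℝ H] [CompleteSpace H]
variable {ψ : E → H}

theorem tendsto_on_closure {T : ℕ → H →L[ℝ] H} {L : H →L[ℝ] H} (hT : ∀ n, ‖T n‖ ≤ 1) (hL : ‖L‖ ≤ 1)
    {K : Submodule ℝ H} (h : ∀ w ∈ K, Tendsto (fun n => T n w) atTop (𝓝 (L w))) :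
    ∀ w ∈ K.topologicalClosure, Tendsto (fun n => T n w) atTop (𝓝 (L w)) := by
  intro w hw
  rw [Metric.tendsto_atTop]
  intro ε hε
  have hw' : w ∈ closure (K : Set H) := hw
  obtain ⟨u, hu, huw⟩ := Metric.mem_closure_iff.1 hw' (ε / 3) (by positivity)
  obtain ⟨N, hN⟩ := Metric.tendsto_atTop.1 (h u hu) (ε / 3) (by positivity)
  refine ⟨N, fun n hn => ?_⟩
  have h1 : dist (T n w) (T n u) ≤ dist w u := by
    rw [dist_eq_norm, dist_eq_norm, ← map_sub]
    exact ((T n).le_opNorm _).trans (by simpa using mul_le_mul_of_nonneg_right (hT n) (norm_nonneg (w - u)))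
  have h2 : dist (L w) (L u) ≤ dist w u := by
    rw [dist_eq_norm, dist_eq_norm, ← map_sub]
    exact (L.le_opNorm _).trans (by simpa using mul_le_mul_of_nonneg_right hL (norm_nonneg (w - u)))
  have h3 := hN n hn
  have h4 : dist (T n w) (L w) ≤ dist (T n w) (T n u) + dist (T n u) (L u) + dist (L u) (L w) :=
    dist_triangle4 _ _ _ _
  rw [dist_comm (L u) (L w)] at h4
  linarith

/-- Strong convergence of the conditioned projections along finite windows, under gap zero. -/
theorem tendsto_pe (hψ : Orthonormal ℝ ψ) {V Y : Submodule ℝ H}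
    (hVY : ∀ x ∈ V, ∀ y ∈ Y, ⟪x, y⟫ = 0) (hY : Y ≤ Wsp ψ Set.univ)
    {A C : Set E} {An Cn : ℕ → Set E} (hAn : Monotone An) (hCn : Monotone Cn)
    (hAU : ⋃ n, An n = A) (hCU : ⋃ n, Cn n = C) (hd : Disjoint A C) {e : E} (he : e ∉ A ∪ C)
    (hgap : ∀ x, pr (Vs ψ V A C) x + pr (Vs ψ Y C A) x = pr (Wsp ψ (A ∪ C)ᶜ) x) :
    Tendsto (fun n => pe ψ V (An n) (Cn n) e) atTop (𝓝 (pe ψ V A C e)) := by
  have hAsub : ∀ n, An n ⊆ A := fun n => hAU ▸ Set.subset_iUnion An n
  have hCsub : ∀ n, Cn n ⊆ C := fun n => hCU ▸ Set.subset_iUnion Cn n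
  have hdn : ∀ n, Disjoint (An n) (Cn n) := fun n => hd.mono (hAsub n) (hCsub n)
  set Rn : ℕ → Set E := fun n => An n ∪ Cn n with hRn
  set R : Set E := A ∪ C with hR
  have hRsub : ∀ n, Rn n ⊆ R := fun n => Set.union_subset_union (hAsub n) (hCsub n)
  -- the tail
  have htail : ∀ v : H, Tendsto (fun n => pr (Wsp ψ (R \ Rn n)) v) atTop (𝓝 0) := by
    intro v
    refine tendsto_pr_Wsp_zero hψ ?_ ?_ v
    · intro n m hnm
      exact Set.sdiff_subset_sdiff_right (Set.union_subset_union (hAn hnm) (hCn hnm))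
    · intro f
      by_cases hf : f ∈ R
      · rcases hf with hf | hf
        · rw [← hAU] at hf
          obtain ⟨n, hn⟩ := Set.mem_iUnion.1 hf
          exact ⟨n, fun h => h.2 (Or.inl hn)⟩
        · rw [← hCU] at hf
          obtain ⟨n, hn⟩ := Set.mem_iUnion.1 hf
          exact ⟨n, fun h => h.2 (Or.inr hn)⟩
      · exact ⟨0, fun h => hf h.1⟩
  have hsplit : ∀ n (v : H), pr (Wsp ψ (Rn n)ᶜ) v = pr (Wsp ψ Rᶜ) v + pr (Wsp ψ (R \ Rn n)) v := by
    intro n v
    have hU : (Rn n)ᶜ = Rᶜ ∪ (R \ Rn n) := by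
      ext f
      simp only [Set.mem_compl_iff, Set.mem_union, Set.mem_sdiff]
      constructor
      · intro h
        by_cases hf : f ∈ R
        · exact Or.inr ⟨hf, h⟩
        · exact Or.inl hf
      · rintro (h | h) h'
        · exact h (hRsub n h')
        · exact h.2 h'
    have hdisj : Disjoint Rᶜ (R \ Rn n) := by
      rw [Set.disjoint_left]
      intro f h1 h2
      exact h1 h2.1
    rw [hU, pr_Wsp_union hψ hdisj]
  set Pn : ℕ → H →L[ℝ] H := fun n => pr (Vs ψ V (An n) (Cn n)) with hPn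
  have hPb : ∀ n, ‖Pn n‖ ≤ 1 := fun n => opNorm_pr_le _
  -- on the `V` part
  have h1 : ∀ w ∈ Vs ψ V A C, Tendsto (fun n => Pn n w) atTop (𝓝 ((1 : H →L[ℝ] H) w)) := by
    rintro _ ⟨v, hv, rfl⟩
    simp only [ContinuousLinearMap.coe_coe, one_apply_eq_self]
    have hmem : ∀ n, pr (Wsp ψ (Rn n)ᶜ) v ∈ Vs ψ V (An n) (Cn n) := fun n =>
      ⟨v, Msp_anti V (hAsub n) hv, rfl⟩
    have e1 : ∀ n, Pn n (pr (Wsp ψ Rᶜ) v)
        = pr (Wsp ψ Rᶜ) v + (pr (Wsp ψ (R \ Rn n)) v - Pn n (pr (Wsp ψ (R \ Rn n)) v)) := by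
      intro n
      have h2 : Pn n (pr (Wsp ψ (Rn n)ᶜ) v) = pr (Wsp ψ (Rn n)ᶜ) v := pr_eq_self _ (hmem n)
      rw [hsplit, map_add] at h2
      have h3 : Pn n (pr (Wsp ψ Rᶜ) v) = pr (Wsp ψ Rᶜ) v + pr (Wsp ψ (R \ Rn n)) v
          - Pn n (pr (Wsp ψ (R \ Rn n)) v) := by
        rw [← h2]; abel
      rw [h3]; abel
    have h4 : Tendsto (fun n => Pn n (pr (Wsp ψ (R \ Rn n)) v)) atTop (𝓝 0) := by
      refine squeeze_zero_norm (fun n => norm_pr_le _ _) ?_
      simpa using (htail v).norm
    have h5 := tendsto_const_nhds (x := pr (Wsp ψ Rᶜ) v) (f := (atTop : Filter ℕ))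
    have h6 := h5.add ((htail v).sub h4)
    simp only [sub_zero, add_zero] at h6
    exact h6.congr (fun n => (e1 n).symm)
  -- on the `Y` part
  have h2 : ∀ w ∈ Vs ψ Y C A, Tendsto (fun n => Pn n w) atTop (𝓝 ((0 : H →L[ℝ] H) w)) := by
    rintro _ ⟨y, hy, rfl⟩
    simp only [ContinuousLinearMap.coe_coe, zero_apply]
    have h0 : (C ∪ A)ᶜ = Rᶜ := by rw [hR, Set.union_comm]
    rw [h0]
    have hmem : ∀ n, pr (Wsp ψ (Rn n)ᶜ) y ∈ Vs ψ Y (Cn n) (An n) := by
      intro n
      refine ⟨y, Msp_anti Y (hCsub n) hy, ?_⟩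
      simp only [ContinuousLinearMap.coe_coe, hRn]
      rw [Set.union_comm]
    have e1 : ∀ n, Pn n (pr (Wsp ψ Rᶜ) y) = - Pn n (pr (Wsp ψ (R \ Rn n)) y) := by
      intro n
      have h3 : Pn n (pr (Wsp ψ (Rn n)ᶜ) y) = 0 := by
        apply pr_eq_zero_of_orthogonal
        intro z hz
        rw [real_inner_comm]
        exact Vs_orth hψ hVY hY (hdn n) z hz _ (hmem n)
      rw [hsplit, map_add] at h3
      exact eq_neg_of_add_eq_zero_left h3
    have h4 : Tendsto (fun n => Pn n (pr (Wsp ψ (R \ Rn n)) y)) atTop (𝓝 0) := by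
      refine squeeze_zero_norm (fun n => norm_pr_le _ _) ?_
      simpa using (htail y).norm
    have h6 := h4.neg
    simp only [neg_zero] at h6
    exact h6.congr (fun n => (e1 n).symm)
  have h1c := tendsto_on_closure hPb ContinuousLinearMap.norm_id_le h1
  have h2c := tendsto_on_closure hPb (by simp) h2
  -- decomposition of the edge vector
  have hdecomp : pr (Vs ψ V A C) (ψ e) + pr (Vs ψ Y C A) (ψ e) = ψ e := by
    rw [hgap]
    exact pr_Wsp_of_mem _ he
  have h3 := (h1c _ (pr_mem _ (ψ e))).add (h2c _ (pr_mem _ (ψ e)))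
  simp only [one_apply_eq_self, zero_apply, add_zero] at h3
  have h4 : Tendsto (fun n => Pn n (ψ e)) atTop (𝓝 (pr (Vs ψ V A C) (ψ e))) := by
    refine h3.congr (fun n => ?_)
    rw [← map_add, hdecomp]
  exact (h4.norm).pow 2

/-! ### Patterns -/

/-- The configurations containing `A` and avoiding `C`. -/
def pat (A C : Set E) : Set (Set E) := {X | A ⊆ X ∧ Disjoint C X}

omit [NormedAddCommGroup H] [InnerProductSpace ℝ H] [CompleteSpace H] in
theorem measurableSet_mem_set (e : E) : MeasurableSet {X : Set E | e ∈ X} :=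
  measurableSet_setOfPred.2 (measurable_set_mem e)

theorem measurableSet_pat (A C : Finset E) : MeasurableSet (pat (A : Set E) (C : Set E)) := by
  have h : pat (A : Set E) (C : Set E)
      = (⋂ a ∈ A, {X : Set E | a ∈ X}) ∩ (⋂ c ∈ C, {X : Set E | c ∈ X}ᶜ) := by
    ext X
    simp only [pat, Set.mem_ofPred_eq, Set.mem_inter_iff, Set.mem_iInter, Set.mem_compl_iff,
      Set.disjoint_left]
    exact Iff.rfl
  rw [h]
  exact (Finset.measurableSet_biInter _ (fun a _ => measurableSet_mem_set a)).inter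
    (Finset.measurableSet_biInter _ (fun c _ => (measurableSet_mem_set c).compl))

/-- Finite measures agreeing on patterns are equal. -/
theorem measure_eq_of_pat {μ ν : Measure (Set E)} [IsFiniteMeasure μ] [IsFiniteMeasure ν]
    (h : ∀ A C : Finset E, μ (pat (A : Set E) (C : Set E)) = ν (pat (A : Set E) (C : Set E))) : μ = ν := by
  classical
  let Cl : Set (Set (Set E)) := {S | ∃ A C : Finset E, S = pat (A : Set E) (C : Set E)}
  have hgen : (inferInstance : MeasurableSpace (Set E)) = MeasurableSpace.generateFrom Cl := by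
    apply le_antisymm
    · have hm : @Measurable _ _ (MeasurableSpace.generateFrom Cl) inferInstance (id : Set E → Set E) := by
        refine @measurable_set_iff _ _ (MeasurableSpace.generateFrom Cl) _ |>.2 (fun a => ?_)
        refine @measurable_to_prop _ (MeasurableSpace.generateFrom Cl) _ ?_
        refine MeasurableSpace.measurableSet_generateFrom ⟨{a}, ∅, ?_⟩
        ext X
        simp [pat]
      simpa using hm.comap_le
    · refine MeasurableSpace.generateFrom_le ?_
      rintro _ ⟨A, C, rfl⟩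
      exact measurableSet_pat A C
  have hpi : IsPiSystem Cl := by
    rintro _ ⟨A, C, rfl⟩ _ ⟨A', C', rfl⟩ _
    refine ⟨A ∪ A', C ∪ C', ?_⟩
    ext X
    simp only [pat, Set.mem_inter_iff, Set.mem_ofPred_eq, Finset.coe_union, Set.union_subset_iff,
      Set.disjoint_union_left]
    tauto
  have huniv : (Set.univ : Set (Set E)) = pat ((∅ : Finset E) : Set E) ((∅ : Finset E) : Set E) := by
    ext X
    simp [pat]
  refine ext_of_generate_finite Cl hgen hpi ?_ ?_
  · rintro _ ⟨A, C, rfl⟩
    exact h A C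
  · rw [huniv]
    exact h ∅ ∅

/-- The determinantal property of a measure on subsets of `E`, with respect to the subspace `V`. -/
def IsDPP (ψ : E → H) (V : Submodule ℝ H) (μ : Measure (Set E)) : Prop :=
  ∀ (A C : Finset E) (e : E), Disjoint A C → e ∉ A → e ∉ C →
    μ (pat (insert e (A : Set E)) (C : Set E))
      = μ (pat (A : Set E) (C : Set E)) * ENNReal.ofReal (pe ψ V (A : Set E) (C : Set E) e)

theorem pe_nonneg (V : Submodule ℝ H) (A C : Set E) (e : E) : 0 ≤ pe ψ V A C e := by
  unfold pe; positivity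

theorem pe_le_one (hψ : Orthonormal ℝ ψ) (V : Submodule ℝ H) (A C : Set E) (e : E) :
    pe ψ V A C e ≤ 1 := by
  unfold pe
  have h := norm_pr_le (Vs ψ V A C) (ψ e)
  rw [hψ.1 e] at h
  exact pow_le_one₀ (norm_nonneg _) h

/-- `pe` vanishes on the conditioned edges. -/
theorem pe_of_mem (hψ : Orthonormal ℝ ψ) (V : Submodule ℝ H) {A C : Set E} {e : E} (he : e ∈ A ∪ C) :
    pe ψ V A C e = 0 := by
  unfold pe
  have h0 : pr (Vs ψ V A C) (ψ e) = 0 := by
    apply pr_eq_zero_of_orthogonal
    intro z hz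
    have hzW : z ∈ Wsp ψ (A ∪ C)ᶜ := Vs_le V A C (Submodule.le_topologicalClosure _ hz)
    have hne : ∀ f ∈ (A ∪ C)ᶜ, ⟪ψ e, ψ f⟫ = 0 := fun f hf =>
      hψ.2 (fun h => hf (h ▸ he))
    exact inner_Wsp_zero hne z hzW
  rw [h0]
  simp

theorem pat_split (A C : Set E) (e : E) :
    pat A C = pat (insert e A) C ∪ pat A (insert e C) := by
  ext X
  simp only [pat, Set.mem_ofPred_eq, Set.mem_union, Set.insert_subset_iff, Set.disjoint_insert_left]
  by_cases h : e ∈ X <;> simp [h]

theorem pat_disjoint (A C : Set E) (e : E) :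
    Disjoint (pat (insert e A) C) (pat A (insert e C)) := by
  rw [Set.disjoint_left]
  rintro X ⟨h1, _⟩ ⟨_, h3⟩
  exact (Set.disjoint_insert_left.1 h3).1 (h1 (Set.mem_insert _ _))

/-- The closed version of the determinantal property. -/
theorem IsDPP.closed {V : Submodule ℝ H} {μ : Measure (Set E)} [IsFiniteMeasure μ] (hψ : Orthonormal ℝ ψ)
    (h : IsDPP ψ V μ) (A C : Finset E) (e : E) (hd : Disjoint A C) (heA : e ∉ A) (heC : e ∉ C) :
    μ (pat (A : Set E) (insert e (C : Set E)))
      = μ (pat (A : Set E) (C : Set E)) * ENNReal.ofReal (1 - pe ψ V (A : Set E) (C : Set E) e) := by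
  classical
  have h1 := measure_union (μ := μ) (pat_disjoint (A : Set E) (C : Set E) e)
    (by simpa using measurableSet_pat A (insert e C))
  rw [← pat_split, h A C e hd heA heC] at h1
  have hp := pe_nonneg (ψ := ψ) V (A : Set E) (C : Set E) e
  have hp1 := pe_le_one hψ V (A : Set E) (C : Set E) e
  have hsum : ENNReal.ofReal (pe ψ V (A : Set E) (C : Set E) e)
      + ENNReal.ofReal (1 - pe ψ V (A : Set E) (C : Set E) e) = 1 := by
    rw [← ENNReal.ofReal_add hp (by linarith)]
    simp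
  have h2 : μ (pat (A : Set E) (C : Set E))
      = μ (pat (A : Set E) (C : Set E)) * ENNReal.ofReal (pe ψ V (A : Set E) (C : Set E) e)
        + μ (pat (A : Set E) (C : Set E)) * ENNReal.ofReal (1 - pe ψ V (A : Set E) (C : Set E) e) := by
    rw [← mul_add, hsum, mul_one]
  have hne : μ (pat (A : Set E) (C : Set E)) * ENNReal.ofReal (pe ψ V (A : Set E) (C : Set E) e) ≠ ⊤ :=
    ENNReal.mul_ne_top (measure_ne_top _ _) ENNReal.ofReal_ne_top
  exact (ENNReal.add_right_inj hne).1 (h1.symm.trans h2)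

open Classical in
/-- Sum over a finite window: a local rule for the conditional probabilities on patterns gives the
rule with the random integrand. -/
theorem window_rule {μ : Measure (Set E)} {B : Set (Set E)} (hB : MeasurableSet B) (F : Finset E)
    (w : Set E → Set E → ℝ≥0∞)
    (hw : ∀ A C : Finset E, A ⊆ F → C ⊆ F → Disjoint A C →
      μ (pat (A : Set E) (C : Set E) ∩ B) = μ (pat (A : Set E) (C : Set E)) * w (A : Set E) (C : Set E)) :
    ∀ (k : ℕ) (A C : Finset E), A ⊆ F → C ⊆ F → Disjoint A C → (F \ (A ∪ C)).card = k →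
      μ (pat (A : Set E) (C : Set E) ∩ B)
        = ∫⁻ X in pat (A : Set E) (C : Set E), w (X ∩ (F : Set E)) ((F : Set E) \ X) ∂μ := by
  intro k
  induction k with
  | zero =>
    intro A C hA hC hd hk
    have hF : (F : Set E) = (A : Set E) ∪ (C : Set E) := by
      have h1 : F ⊆ A ∪ C := by
        have : F \ (A ∪ C) = ∅ := Finset.card_eq_zero.1 hk
        exact Finset.sdiff_eq_empty_iff_subset.1 this
      have h2 : A ∪ C ⊆ F := Finset.union_subset hA hC
      have := Finset.Subset.antisymm h1 h2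
      rw [this]
      simp
    have hconst : ∀ X ∈ pat (A : Set E) (C : Set E),
        w (X ∩ (F : Set E)) ((F : Set E) \ X) = w (A : Set E) (C : Set E) := by
      rintro X ⟨h1, h2⟩
      have e1 : X ∩ (F : Set E) = (A : Set E) := by
        rw [hF]
        ext f
        constructor
        · rintro ⟨hfX, hfA | hfC⟩
          · exact hfA
          · exact absurd hfX (Set.disjoint_left.1 h2 hfC)
        · intro hf
          exact ⟨h1 hf, Or.inl hf⟩
      have e2 : (F : Set E) \ X = (C : Set E) := by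
        rw [hF]
        ext f
        constructor
        · rintro ⟨hfA | hfC, hfX⟩
          · exact absurd (h1 hfA) hfX
          · exact hfC
        · intro hf
          exact ⟨Or.inr hf, Set.disjoint_left.1 h2 hf⟩
      rw [e1, e2]
    rw [setLIntegral_congr_fun (measurableSet_pat A C) hconst, setLIntegral_const, hw A C hA hC hd,
      mul_comm]
  | succ k ih =>
    intro A C hA hC hd hk
    obtain ⟨f, hf⟩ : (F \ (A ∪ C)).Nonempty := by
      rw [← Finset.card_pos, hk]; omega
    have hfF : f ∈ F := (Finset.mem_sdiff.1 hf).1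
    have hfAC : f ∉ A ∪ C := (Finset.mem_sdiff.1 hf).2
    have hfA : f ∉ A := fun h => hfAC (Finset.mem_union_left _ h)
    have hfC : f ∉ C := fun h => hfAC (Finset.mem_union_right _ h)
    have hc1 : (F \ (insert f A ∪ C)).card = k := by
      have : F \ (insert f A ∪ C) = (F \ (A ∪ C)).erase f := by
        ext g
        simp only [Finset.mem_sdiff, Finset.mem_union, Finset.mem_insert, Finset.mem_erase]
        tauto
      rw [this, Finset.card_erase_of_mem hf, hk]
      rfl
    have hc2 : (F \ (A ∪ insert f C)).card = k := by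
      have : F \ (A ∪ insert f C) = (F \ (A ∪ C)).erase f := by
        ext g
        simp only [Finset.mem_sdiff, Finset.mem_union, Finset.mem_insert, Finset.mem_erase]
        tauto
      rw [this, Finset.card_erase_of_mem hf, hk]
      rfl
    have h1 := ih (insert f A) C (Finset.insert_subset hfF hA) hC
      (by rw [Finset.disjoint_insert_left]; exact ⟨hfC, hd⟩) hc1
    have h2 := ih A (insert f C) hA (Finset.insert_subset hfF hC)
      (by rw [Finset.disjoint_insert_right]; exact ⟨hfA, hd⟩) hc2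
    simp only [Finset.coe_insert] at h1 h2
    have hm2 : MeasurableSet (pat (A : Set E) (insert f (C : Set E))) := by
      simpa using measurableSet_pat A (insert f C)
    have hsplit := pat_split (A : Set E) (C : Set E) f
    have hdisj := pat_disjoint (A : Set E) (C : Set E) f
    rw [hsplit, lintegral_union hm2 hdisj, ← h1, ← h2, Set.union_inter_distrib_right,
      measure_union (hdisj.mono Set.inter_subset_left Set.inter_subset_left) (hm2.inter hB)]

/-- The conditional probability of `e` given the restriction of `X` to `R`. -/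
noncomputable def pX (ψ : E → H) (V : Submodule ℝ H) (X R : Set E) (e : E) : ℝ :=
  pe ψ V (X ∩ R) (R \ X) e

/-- Gap zero at `(X, R)`. -/
def GapAt (ψ : E → H) (V Y : Submodule ℝ H) (X R : Set E) : Prop :=
  ∀ x, pr (Vs ψ V (X ∩ R) (R \ X)) x + pr (Vs ψ Y (R \ X) (X ∩ R)) x
    = pr (Wsp ψ ((X ∩ R) ∪ (R \ X))ᶜ) x

theorem exists_window [Countable E] [Nonempty E] :
    ∃ W : ℕ → Finset E, Monotone W ∧ ∀ e, ∃ n, e ∈ W n := by
  classical
  obtain ⟨f, hf⟩ := exists_surjective_nat E
  refine ⟨fun n => (Finset.range n).image f, ?_, ?_⟩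
  · intro n m hnm
    exact Finset.image_subset_image (Finset.range_mono hnm)
  · intro e
    obtain ⟨k, rfl⟩ := hf e
    exact ⟨k + 1, Finset.mem_image_of_mem _ (Finset.mem_range.2 (Nat.lt_succ_self k))⟩

section limit

variable [Countable E] {V Y : Submodule ℝ H} {μ : Measure (Set E)} [IsProbabilityMeasure μ]

open Classical in
/-- From the pattern rule along windows to the pattern rule with the conditional probability given `R`. -/
theorem pat_limit_aux (R : Set E) (hne : Nonempty E)
    (p : Set E → Set E → ℝ) (q : Set E → ℝ) (hp0 : ∀ A C, 0 ≤ p A C) (hp1 : ∀ A C, p A C ≤ 1)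
    (hq : ∀ᵐ X ∂μ, ∀ (F : ℕ → Finset E), Monotone F → (⋃ n, (F n : Set E)) = R →
      Tendsto (fun n => p (X ∩ (F n : Set E)) ((F n : Set E) \ X)) atTop (𝓝 (q X)))
    (hpm : ∀ F : Finset E, Measurable fun X => p (X ∩ (F : Set E)) ((F : Set E) \ X))
    (B : Set (Set E)) (hB : MeasurableSet B)
    (hrule : ∀ A C : Finset E, (A : Set E) ⊆ R → (C : Set E) ⊆ R → Disjoint A C →
      μ (pat (A : Set E) (C : Set E) ∩ B) = μ (pat (A : Set E) (C : Set E)) * ENNReal.ofReal (p (A : Set E) (C : Set E)))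
    (A C : Finset E) (hA : (A : Set E) ⊆ R) (hC : (C : Set E) ⊆ R) (hd : Disjoint A C) :
    μ (pat (A : Set E) (C : Set E) ∩ B) = ∫⁻ X in pat (A : Set E) (C : Set E), ENNReal.ofReal (q X) ∂μ := by
  obtain ⟨W, hWm, hW⟩ := exists_window (E := E)
  let F : ℕ → Finset E := fun n => (W n).filter (fun f => f ∈ R)
  have hFm : Monotone F := fun n m h => Finset.monotone_filter_left _ (hWm h)
  have hFU : (⋃ n, (F n : Set E)) = R := by
    ext f
    simp only [Set.mem_iUnion, F, Finset.coe_filter, Set.mem_ofPred_eq]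
    constructor
    · rintro ⟨n, _, hf⟩; exact hf
    · intro hf
      obtain ⟨n, hn⟩ := hW f
      exact ⟨n, hn, hf⟩
  have hsub : ∀ S : Finset E, (S : Set E) ⊆ R → ∃ n₀, ∀ n ≥ n₀, S ⊆ F n := by
    intro S hS
    induction S using Finset.induction_on with
    | empty => exact ⟨0, fun n _ => Finset.empty_subset _⟩
    | insert a s _ ih =>
      obtain ⟨n₁, h₁⟩ := ih (fun x hx => hS (by simp [Finset.mem_coe.1 hx]))
      obtain ⟨n₂, h₂⟩ := hW a
      refine ⟨max n₁ n₂, fun n hn => ?_⟩
      rw [Finset.insert_subset_iff]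
      refine ⟨?_, h₁ n (le_of_max_le_left hn)⟩
      refine Finset.mem_filter.2 ⟨hWm (le_of_max_le_right hn) h₂, hS (by simp)⟩
  obtain ⟨n₁, h₁⟩ := hsub A hA
  obtain ⟨n₂, h₂⟩ := hsub C hC
  have hwin : ∀ n ≥ max n₁ n₂, μ (pat (A : Set E) (C : Set E) ∩ B)
      = ∫⁻ X in pat (A : Set E) (C : Set E),
        ENNReal.ofReal (p (X ∩ (F n : Set E)) ((F n : Set E) \ X)) ∂μ := by
    intro n hn
    refine window_rule hB (F n) (fun a c => ENNReal.ofReal (p a c)) ?_ _ A C
      (h₁ n (le_of_max_le_left hn)) (h₂ n (le_of_max_le_right hn)) hd rfl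
    intro A' C' hA' hC' hd'
    refine hrule A' C' (fun x hx => ?_) (fun x hx => ?_) hd'
    · exact (Finset.mem_filter.1 (hA' (Finset.mem_coe.1 hx))).2
    · exact (Finset.mem_filter.1 (hC' (Finset.mem_coe.1 hx))).2
  have hlim : Tendsto (fun n => ∫⁻ X in pat (A : Set E) (C : Set E),
      ENNReal.ofReal (p (X ∩ (F n : Set E)) ((F n : Set E) \ X)) ∂μ) atTop
      (𝓝 (∫⁻ X in pat (A : Set E) (C : Set E), ENNReal.ofReal (q X) ∂μ)) := by
    refine tendsto_lintegral_of_dominated_convergence (fun _ => 1) ?_ ?_ ?_ ?_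
    · intro n
      exact (hpm (F n)).ennreal_ofReal
    · intro n
      refine Eventually.of_forall (fun X => ?_)
      simpa using hp1 _ _
    · simp
    · refine ae_restrict_of_ae ?_
      filter_upwards [hq] with X hX
      exact ENNReal.tendsto_ofReal (hX F hFm hFU)
  refine tendsto_nhds_unique ?_ hlim
  refine tendsto_const_nhds.congr' ?_
  filter_upwards [eventually_ge_atTop (max n₁ n₂)] with n hn
  exact hwin n hn

open Classical in
/-- From patterns to all functions of the restriction to `R`. -/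
theorem cond_transfer (R : Set E) (B : Set (Set E)) (hB : MeasurableSet B) (f : Set E → ℝ≥0∞)
    (hf : Measurable f) (hf1 : ∀ X, f X ≤ 1)
    (hrule : ∀ A C : Finset E, (A : Set E) ⊆ R → (C : Set E) ⊆ R → Disjoint A C →
      μ (pat (A : Set E) (C : Set E) ∩ B) = ∫⁻ X in pat (A : Set E) (C : Set E), f X ∂μ)
    (h : Set E → ℝ≥0∞) (hm : Measurable h) (hR : ∀ X, h X = h (X ∩ R)) :
    ∫⁻ X in B, h X ∂μ = ∫⁻ X, h X * f X ∂μ := by
  have hρ : Measurable (fun X : Set E => X ∩ R) := by
    refine measurable_set_iff.2 (fun a => ?_)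
    by_cases ha : a ∈ R
    · simp only [Set.mem_inter_iff, ha, and_true]
      exact measurable_set_mem a
    · simp only [Set.mem_inter_iff, ha, and_false]
      exact measurable_const
  have hfin : IsFiniteMeasure (μ.withDensity f) := by
    refine isFiniteMeasure_withDensity ?_
    have : ∫⁻ X, f X ∂μ ≤ ∫⁻ _, 1 ∂μ := lintegral_mono hf1
    simp only [lintegral_const, measure_univ, mul_one] at this
    exact ne_top_of_le_ne_top ENNReal.one_ne_top this
  have hν : (μ.restrict B).map (fun X : Set E => X ∩ R)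
      = (μ.withDensity f).map (fun X : Set E => X ∩ R) := by
    refine measure_eq_of_pat (fun A C => ?_)
    rw [Measure.map_apply hρ (measurableSet_pat A C), Measure.map_apply hρ (measurableSet_pat A C),
      Measure.restrict_apply (hρ (measurableSet_pat A C)),
      withDensity_apply _ (hρ (measurableSet_pat A C))]
    by_cases hAR : (A : Set E) ⊆ R
    · -- the preimage is a pattern
      let C' : Finset E := C.filter (fun x => x ∈ R)
      have hpre : (fun X : Set E => X ∩ R) ⁻¹' pat (A : Set E) (C : Set E) = pat (A : Set E) (C' : Set E) := by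
        ext X
        simp only [Set.mem_preimage, pat, Set.mem_ofPred_eq, Set.subset_inter_iff, hAR, and_true,
          Set.disjoint_left, C', Finset.coe_filter, Set.mem_inter_iff, not_and]
        constructor
        · rintro ⟨h1, h2⟩
          exact ⟨h1, fun x hx hxX => h2 hx.1 hxX hx.2⟩
        · rintro ⟨h1, h2⟩
          exact ⟨h1, fun x hx hxX hxR => h2 ⟨hx, hxR⟩ hxX⟩
      rw [hpre]
      by_cases hd : Disjoint A C'
      · exact hrule A C' hAR (fun x hx => (Finset.mem_filter.1 (Finset.mem_coe.1 hx)).2) hd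
      · have hemp : pat (A : Set E) (C' : Set E) = ∅ := by
          rw [Finset.not_disjoint_iff] at hd
          obtain ⟨x, hxA, hxC⟩ := hd
          ext X
          simp only [pat, Set.mem_ofPred_eq, Set.mem_empty_iff_false, iff_false, not_and]
          intro h1 h2
          exact Set.disjoint_left.1 h2 hxC (h1 hxA)
        simp [hemp]
    · have hemp : (fun X : Set E => X ∩ R) ⁻¹' pat (A : Set E) (C : Set E) = ∅ := by
        ext X
        simp only [Set.mem_preimage, pat, Set.mem_ofPred_eq, Set.mem_empty_iff_false, iff_false, not_and]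
        intro h1 _
        exact hAR (h1.trans Set.inter_subset_right)
      simp [hemp]
  have e1 : ∫⁻ X in B, h X ∂μ = ∫⁻ Y, h Y ∂((μ.restrict B).map (fun X : Set E => X ∩ R)) := by
    rw [lintegral_map hm hρ]
    exact lintegral_congr (fun X => hR X)
  have e2 : ∫⁻ X, h X * f X ∂μ = ∫⁻ Y, h Y ∂((μ.withDensity f).map (fun X : Set E => X ∩ R)) := by
    rw [lintegral_map hm hρ]
    have e3 : ∫⁻ a, h (a ∩ R) ∂μ.withDensity f = ∫⁻ a, (f * fun a => h (a ∩ R)) a ∂μ :=
      lintegral_withDensity_eq_lintegral_mul μ hf (hm.comp hρ)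
    rw [e3]
    refine lintegral_congr (fun X => ?_)
    simp only [Pi.mul_apply]
    rw [← hR X, mul_comm]
  rw [e1, e2, hν]

end limit

section main

variable {Γ I₀ : Type*} [Group Γ] [MulAction Γ E] [Fintype I₀] [Countable Γ] [Countable E]
variable {D : EdgeRep Γ I₀ H E} {V Y : Submodule ℝ H} {μ : Measure (Set E)} [IsProbabilityMeasure μ]

/-- The action on pairs of sets. -/
def actS (Γ : Type*) {E : Type*} [Group Γ] [MulAction Γ E] (γ : Γ) (q : Set E × Set E) : Set E × Set E :=
  (γ • q.1, γ • q.2)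

theorem rset_fst : RSet (actS Γ) (fun q : Set E × Set E => q.1) where
  meas e := measurableSet_setOfPred.2 ((measurable_set_mem e).comp measurable_fst)
  equiv _ _ := rfl

theorem rset_snd : RSet (actS Γ) (fun q : Set E × Set E => q.2) where
  meas e := measurableSet_setOfPred.2 ((measurable_set_mem e).comp measurable_snd)
  equiv _ _ := rfl

/-- Measurability of the conditional probabilities. -/
theorem measurable_pe (hV : ∀ γ x, x ∈ V → D.rep γ x ∈ V) (hVc : IsClosed (V : Set H)) (e : E) :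
    Measurable (fun q : Set E × Set E => pe D.ψ V q.1 q.2 e) :=
  (good_Vs D hV hVc (rset_fst (Γ := Γ)) (rset_snd (Γ := Γ))).measurable_norm_sq (D.ψ e)

/-- Measurability of the conditional probabilities given a part of the configuration. -/
theorem measurable_pX (hV : ∀ γ x, x ∈ V → D.rep γ x ∈ V) (hVc : IsClosed (V : Set H)) (e : E) :
    Measurable (fun q : Set E × Set E => pX D.ψ V q.1 q.2 e) :=
  (good_Vs D hV hVc ((rset_fst (Γ := Γ)).inter (rset_snd (Γ := Γ)))
    ((rset_snd (Γ := Γ)).diff (rset_fst (Γ := Γ)))).measurable_norm_sq (D.ψ e)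

omit [IsProbabilityMeasure μ] in
/-- Equivariance of the conditional probabilities. -/
theorem pe_smul (hV : ∀ γ x, x ∈ V → D.rep γ x ∈ V) (hVc : IsClosed (V : Set H)) (γ : Γ) (A C : Set E) (e : E) :
    pe D.ψ V (γ • A) (γ • C) (γ • e) = pe D.ψ V A C e := by
  have g := good_Vs D hV hVc (rset_fst (Γ := Γ) (E := E)) (rset_snd (Γ := Γ) (E := E))
  have h1 := g.equiv γ (A, C) (D.ψ (γ • e))
  simp only [actS] at h1
  unfold pe
  rw [h1, LinearIsometryEquiv.norm_map]
  rcases D.sign γ⁻¹ (γ • e) with h2 | h2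
  · rw [h2, inv_smul_smul]
  · rw [h2, inv_smul_smul, map_neg, norm_neg]

omit [IsProbabilityMeasure μ] in
/-- Convergence along windows. -/
theorem cond_hq (hI : IPair D V Y) (R : Set E) (e : E) (he : e ∉ R)
    (hgap : ∀ᵐ X ∂μ, GapAt D.ψ V Y X R) :
    ∀ᵐ X ∂μ, ∀ (F : ℕ → Finset E), Monotone F → (⋃ n, (F n : Set E)) = R →
      Tendsto (fun n => pe D.ψ V (X ∩ (F n : Set E)) ((F n : Set E) \ X) e) atTop (𝓝 (pX D.ψ V X R e)) := by
  filter_upwards [hgap] with X hX F hFm hFU
  unfold pX
  have a1 : Monotone (fun n => X ∩ (F n : Set E)) := by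
    intro n m hnm
    exact Set.inter_subset_inter_right _ (by exact_mod_cast hFm hnm)
  have a2 : Monotone (fun n => (F n : Set E) \ X) := by
    intro n m hnm
    exact Set.sdiff_subset_sdiff_left (by exact_mod_cast hFm hnm)
  have a3 : ⋃ n, X ∩ (F n : Set E) = X ∩ R := by
    rw [← Set.inter_iUnion, hFU]
  have a4 : ⋃ n, (F n : Set E) \ X = R \ X := by
    rw [← Set.iUnion_sdiff, hFU]
  have a5 : Disjoint (X ∩ R) (R \ X) := by
    rw [Set.disjoint_left]
    rintro x ⟨h1, _⟩ ⟨_, h2⟩
    exact h2 h1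
  have a6 : e ∉ (X ∩ R) ∪ (R \ X) := by
    rintro (h1 | h1)
    · exact he h1.2
    · exact he h1.1
  exact tendsto_pe D.orth hI.orth hI.Y_le a1 a2 a3 a4 a5 a6 hX

/-- The conditional probability that `e` is open, given an arbitrary set of edges, under gap zero. -/
theorem cond_pX_one (hI : IPair D V Y) (hDPP : IsDPP D.ψ V μ) (R : Set E) (e : E) (he : e ∉ R)
    (hgap : ∀ᵐ X ∂μ, GapAt D.ψ V Y X R) (h : Set E → ℝ≥0∞) (hm : Measurable h)
    (hR : ∀ X, h X = h (X ∩ R)) :
    ∫⁻ X in {X | e ∈ X}, h X ∂μ = ∫⁻ X, h X * ENNReal.ofReal (pX D.ψ V X R e) ∂μ := by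
  have hne : Nonempty E := ⟨e⟩
  have hpair : ∀ S : Set E, Measurable (fun X : Set E => ((X, S) : Set E × Set E)) :=
    fun S => measurable_id.prodMk measurable_const
  have hmX := measurable_pX (D := D) hI.Vi hI.Vc e
  have hmR : Measurable (fun X : Set E => pX D.ψ V X R e) := by
    have h' := hmX.comp (hpair R)
    exact h'
  have hmF : ∀ F : Finset E, Measurable (fun X : Set E => pe D.ψ V (X ∩ (F : Set E)) ((F : Set E) \ X) e) := by
    intro F
    have h' := hmX.comp (hpair (F : Set E))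
    exact h'
  have hq := cond_hq hI R e he hgap
  have hp0 : ∀ A C : Set E, 0 ≤ pe D.ψ V A C e := fun A C => pe_nonneg V A C e
  have hp1 : ∀ A C : Set E, pe D.ψ V A C e ≤ 1 := fun A C => pe_le_one D.orth V A C e
  have hB1 : MeasurableSet {X : Set E | e ∈ X} := measurableSet_mem_set e
  have hf : Measurable (fun X : Set E => ENNReal.ofReal (pX D.ψ V X R e)) := hmR.ennreal_ofReal
  have hf1 : ∀ X : Set E, ENNReal.ofReal (pX D.ψ V X R e) ≤ 1 := fun X =>
    ENNReal.ofReal_le_one.2 (pe_le_one D.orth V _ _ e)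
  have hrule : ∀ A C : Finset E, (A : Set E) ⊆ R → (C : Set E) ⊆ R → Disjoint A C →
      μ (pat (A : Set E) (C : Set E) ∩ {X | e ∈ X})
        = μ (pat (A : Set E) (C : Set E)) * ENNReal.ofReal (pe D.ψ V (A : Set E) (C : Set E) e) := by
    intro A' C' hA' hC' hd'
    have e1 : pat (A' : Set E) (C' : Set E) ∩ {X | e ∈ X} = pat (insert e (A' : Set E)) (C' : Set E) := by
      ext X
      simp only [pat, Set.mem_inter_iff, Set.mem_ofPred_eq, Set.insert_subset_iff]
      tauto
    rw [e1]
    exact hDPP A' C' e hd' (fun hx => he (hA' hx)) (fun hx => he (hC' hx))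
  have hrr : ∀ A C : Finset E, (A : Set E) ⊆ R → (C : Set E) ⊆ R → Disjoint A C →
      μ (pat (A : Set E) (C : Set E) ∩ {X : Set E | e ∈ X})
        = ∫⁻ X in pat (A : Set E) (C : Set E), (fun X => ENNReal.ofReal (pX D.ψ V X R e)) X ∂μ :=
    fun A C hA hC hd => pat_limit_aux R hne (fun a c => pe D.ψ V a c e) (fun X => pX D.ψ V X R e)
      hp0 hp1 hq hmF {X | e ∈ X} hB1 hrule A C hA hC hd
  exact cond_transfer (μ := μ) R {X : Set E | e ∈ X} hB1 (fun X => ENNReal.ofReal (pX D.ψ V X R e))
    hf hf1 hrr h hm hR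

/-- The conditional probability that `e` is closed, given an arbitrary set of edges, under gap zero. -/
theorem cond_pX_zero (hI : IPair D V Y) (hDPP : IsDPP D.ψ V μ) (R : Set E) (e : E) (he : e ∉ R)
    (hgap : ∀ᵐ X ∂μ, GapAt D.ψ V Y X R) (h : Set E → ℝ≥0∞) (hm : Measurable h)
    (hR : ∀ X, h X = h (X ∩ R)) :
    ∫⁻ X in {X | e ∈ X}ᶜ, h X ∂μ = ∫⁻ X, h X * ENNReal.ofReal (1 - pX D.ψ V X R e) ∂μ := by
  have hne : Nonempty E := ⟨e⟩
  have hpair : ∀ S : Set E, Measurable (fun X : Set E => ((X, S) : Set E × Set E)) :=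
    fun S => measurable_id.prodMk measurable_const
  have hmX := measurable_pX (D := D) hI.Vi hI.Vc e
  have hmR : Measurable (fun X : Set E => pX D.ψ V X R e) := by
    have h' := hmX.comp (hpair R)
    exact h'
  have hmF : ∀ F : Finset E, Measurable (fun X : Set E => pe D.ψ V (X ∩ (F : Set E)) ((F : Set E) \ X) e) := by
    intro F
    have h' := hmX.comp (hpair (F : Set E))
    exact h'
  have hq := cond_hq hI R e he hgap
  have hp0 : ∀ A C : Set E, 0 ≤ pe D.ψ V A C e := fun A C => pe_nonneg V A C e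
  have hp1 : ∀ A C : Set E, pe D.ψ V A C e ≤ 1 := fun A C => pe_le_one D.orth V A C e
  have hB1 : MeasurableSet {X : Set E | e ∈ X} := measurableSet_mem_set e
  have hf : Measurable (fun X : Set E => ENNReal.ofReal (1 - pX D.ψ V X R e)) :=
    (measurable_const.sub hmR).ennreal_ofReal
  have hf1 : ∀ X : Set E, ENNReal.ofReal (1 - pX D.ψ V X R e) ≤ 1 := fun X =>
    ENNReal.ofReal_le_one.2 (by have := hp0 (X ∩ R) (R \ X); unfold pX; linarith)
  have hq' : ∀ᵐ X ∂μ, ∀ (F : ℕ → Finset E), Monotone F → (⋃ n, (F n : Set E)) = R →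
      Tendsto (fun n => 1 - pe D.ψ V (X ∩ (F n : Set E)) ((F n : Set E) \ X) e) atTop
        (𝓝 (1 - pX D.ψ V X R e)) := by
    filter_upwards [hq] with X hX F hFm hFU
    exact tendsto_const_nhds.sub (hX F hFm hFU)
  have hrule : ∀ A C : Finset E, (A : Set E) ⊆ R → (C : Set E) ⊆ R → Disjoint A C →
      μ (pat (A : Set E) (C : Set E) ∩ {X | e ∈ X}ᶜ)
        = μ (pat (A : Set E) (C : Set E)) * ENNReal.ofReal (1 - pe D.ψ V (A : Set E) (C : Set E) e) := by
    intro A' C' hA' hC' hd'
    have e1 : pat (A' : Set E) (C' : Set E) ∩ {X | e ∈ X}ᶜ = pat (A' : Set E) (insert e (C' : Set E)) := by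
      ext X
      simp only [pat, Set.mem_inter_iff, Set.mem_compl_iff, Set.mem_ofPred_eq, Set.disjoint_insert_left]
      tauto
    rw [e1]
    exact hDPP.closed D.orth A' C' e hd' (fun hx => he (hA' hx)) (fun hx => he (hC' hx))
  have hrr : ∀ A C : Finset E, (A : Set E) ⊆ R → (C : Set E) ⊆ R → Disjoint A C →
      μ (pat (A : Set E) (C : Set E) ∩ {X : Set E | e ∈ X}ᶜ)
        = ∫⁻ X in pat (A : Set E) (C : Set E), (fun X => ENNReal.ofReal (1 - pX D.ψ V X R e)) X ∂μ :=
    fun A C hA hC hd => pat_limit_aux R hne (fun a c => 1 - pe D.ψ V a c e)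
      (fun X => 1 - pX D.ψ V X R e) (fun a c => by linarith [hp1 a c]) (fun a c => by linarith [hp0 a c])
      hq' (fun F => measurable_const.sub (hmF F)) {X | e ∈ X}ᶜ hB1.compl hrule A C hA hC hd
  exact cond_transfer (μ := μ) R {X : Set E | e ∈ X}ᶜ hB1.compl
    (fun X => ENNReal.ofReal (1 - pX D.ψ V X R e)) hf hf1 hrr h hm hR

end main

end Vale.Agent.Lib.P143
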