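import Mathlib

/-!
Cayley graphs, the action of the group on edges, spanning trees of finite subgraphs and the uniform
spanning tree probabilities of edge patterns.
-/

namespace Vale.Agent.Lib.P143

variable {Γ : Type*} [Group Γ]

/-- The Cayley graph of `Γ` with respect to `S`: the vertices are the elements of `Γ`, and `a ≠ b` are
adjacent iff `a⁻¹ * b ∈ S` or `b⁻¹ * a ∈ S`. The group acts by left multiplication. -/
def cayley (S : Set Γ) : SimpleGraph Γ := SimpleGraph.fromRel (fun a b => a⁻¹ * b ∈ S)

theorem cayley_adj (S : Set Γ) (a b : Γ) :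
    (cayley S).Adj a b ↔ a ≠ b ∧ (a⁻¹ * b ∈ S ∨ b⁻¹ * a ∈ S) :=
  SimpleGraph.fromRel_adj _ _ _

theorem cayley_adj_mul (S : Set Γ) (γ : Γ) {a b : Γ} (h : (cayley S).Adj a b) :
    (cayley S).Adj (γ * a) (γ * b) := by
  rw [cayley_adj] at h ⊢
  refine ⟨fun h' => h.1 (mul_left_cancel h'), ?_⟩
  simpa [mul_assoc] using h.2

/-- Left translation of an edge of the Cayley graph. -/
def edgeMap (S : Set Γ) (γ : Γ) (e : (cayley S).edgeSet) : (cayley S).edgeSet :=
  ⟨Sym2.map (fun v => γ * v) e.1, by
    obtain ⟨e, he⟩ := e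
    induction e using Sym2.ind with
    | _ a b =>
      simp only [Sym2.map_mk, SimpleGraph.mem_edgeSet] at he ⊢
      exact cayley_adj_mul S γ he⟩

instance (S : Set Γ) : MulAction Γ (cayley S).edgeSet where
  smul := edgeMap S
  one_smul e := by
    apply Subtype.ext
    change Sym2.map (fun v => 1 * v) e.1 = e.1
    simp
  mul_smul a b e := by
    apply Subtype.ext
    change Sym2.map (fun v => (a * b) * v) e.1 = Sym2.map (fun v => a * v) (Sym2.map (fun v => b * v) e.1)
    rw [Sym2.map_map]
    simp [Function.comp_def, mul_assoc]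

/-- `T` is a spanning tree of the subgraph `K`. -/
def IsSpanningTreeOf {G : SimpleGraph Γ} (K T : G.Subgraph) : Prop :=
  T ≤ K ∧ T.verts = K.verts ∧ T.coe.IsTree

/-- The probability that the uniform spanning tree of `K` contains the edges of `A` and no edge of `C`. -/
noncomputable def ustProb {G : SimpleGraph Γ} (K : G.Subgraph) (A C : Set (Sym2 Γ)) : ℝ :=
  (Set.ncard {T : G.Subgraph | IsSpanningTreeOf K T ∧ A ⊆ T.edgeSet ∧ Disjoint C T.edgeSet} : ℝ)
    / (Set.ncard {T : G.Subgraph | IsSpanningTreeOf K T} : ℝ)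

/-- An exhaustion of `G` by finite connected subgraphs. -/
structure IsExhaustion {G : SimpleGraph Γ} (K : ℕ → G.Subgraph) : Prop where
  finite : ∀ n, (K n).verts.Finite
  connected : ∀ n, (K n).Connected
  mono : Monotone K
  union : ⨆ n, K n = ⊤

end Vale.Agent.Lib.P143
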