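import Vale.Agent.Lib.P143.Trace

/-!
Powers of positive contractions converge strongly to the projection on the fixed space, and the
dimension inequality for covariant fields of injective maps.
-/

namespace Vale.Agent.Lib.P143

open MeasureTheory Filter Topology
open scoped RealInnerProductSpace ENNReal

variable {H : Type*} [NormedAddCommGroup H] [InnerProductSpace ℝ H]

/-- Symmetric operators with `0 ≤ A ≤ 1`. -/
structure IsPC (A : H →L[ℝ] H) : Prop where
  symm : ∀ x y, ⟪A x, y⟫ = ⟪x, A y⟫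
  nonneg : ∀ x, 0 ≤ ⟪A x, x⟫
  le : ∀ x, ⟪A x, x⟫ ≤ ‖x‖ ^ 2

theorem pow_add_apply (A : H →L[ℝ] H) (m n : ℕ) (x : H) : (A ^ (m + n)) x = (A ^ m) ((A ^ n) x) := by
  rw [pow_add]; rfl

theorem pow_succ_apply (A : H →L[ℝ] H) (n : ℕ) (x : H) : (A ^ (n + 1)) x = (A ^ n) (A x) := by
  rw [pow_succ]; rfl

theorem pow_succ_apply' (A : H →L[ℝ] H) (n : ℕ) (x : H) : (A ^ (n + 1)) x = A ((A ^ n) x) := by
  rw [pow_succ']; rfl

namespace IsPC

variable {A : H →L[ℝ] H}

theorem norm_sq_le (hA : IsPC A) (y : H) : ‖A y‖ ^ 2 ≤ ⟪A y, y⟫ := by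
  set u := A y with hu
  have h1 := hA.le u
  have h2 := hA.nonneg (y - u)
  have h3 : ⟪A u, y⟫ = ⟪u, u⟫ := by rw [hA.symm u y]
  have h4 : ⟪A (y - u), y - u⟫ = ⟪u, y⟫ - ⟪u, u⟫ - ⟪A u, y⟫ + ⟪A u, u⟫ := by
    rw [map_sub, ← hu, inner_sub_left, inner_sub_right, inner_sub_right]
    ring
  rw [h4, h3] at h2
  rw [real_inner_self_eq_norm_sq] at h2
  linarith

theorem norm_le (hA : IsPC A) (y : H) : ‖A y‖ ≤ ‖y‖ := by
  have h := (hA.norm_sq_le y).trans (hA.le y)
  exact (sq_le_sq₀ (norm_nonneg _) (norm_nonneg _)).1 h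

theorem pow_symm (hA : IsPC A) (n : ℕ) (x y : H) : ⟪(A ^ n) x, y⟫ = ⟪x, (A ^ n) y⟫ := by
  induction n generalizing x y with
  | zero => simp
  | succ n ih =>
    rw [pow_succ_apply, ih, hA.symm, pow_succ_apply']

theorem pow_norm_le (hA : IsPC A) (n : ℕ) (y : H) : ‖(A ^ n) y‖ ≤ ‖y‖ := by
  induction n generalizing y with
  | zero => simp
  | succ n ih =>
    rw [pow_succ_apply]
    exact (ih _).trans (hA.norm_le y)

theorem pow_opNorm_le (hA : IsPC A) (n : ℕ) : ‖A ^ n‖ ≤ 1 :=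
  ContinuousLinearMap.opNorm_le_bound _ zero_le_one (fun x => by simpa using hA.pow_norm_le n x)

theorem pow_nonneg' (hA : IsPC A) (n : ℕ) (x : H) : 0 ≤ ⟪(A ^ n) x, x⟫ := by
  obtain ⟨m, rfl | rfl⟩ := Nat.even_or_odd' n
  · have : ⟪(A ^ (2 * m)) x, x⟫ = ⟪(A ^ m) x, (A ^ m) x⟫ := by
      rw [two_mul, pow_add_apply, hA.pow_symm]
    rw [this]
    exact real_inner_self_nonneg
  · have : ⟪(A ^ (2 * m + 1)) x, x⟫ = ⟪A ((A ^ m) x), (A ^ m) x⟫ := by
      rw [show 2 * m + 1 = m + (1 + m) by ring, pow_add_apply, hA.pow_symm, pow_add_apply, pow_one]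
    rw [this]
    exact hA.nonneg _

/-- The sequence `⟪A ^ k x, x⟫` is decreasing. -/
theorem inner_pow_succ_le (hA : IsPC A) (k : ℕ) (x : H) : ⟪(A ^ (k + 1)) x, x⟫ ≤ ⟪(A ^ k) x, x⟫ := by
  obtain ⟨m, rfl | rfl⟩ := Nat.even_or_odd' k
  · have e1 : ⟪(A ^ (2 * m)) x, x⟫ = ⟪(A ^ m) x, (A ^ m) x⟫ := by
      rw [two_mul, pow_add_apply, hA.pow_symm]
    have e2 : ⟪(A ^ (2 * m + 1)) x, x⟫ = ⟪A ((A ^ m) x), (A ^ m) x⟫ := by
      rw [show 2 * m + 1 = m + (1 + m) by ring, pow_add_apply, hA.pow_symm, pow_add_apply, pow_one]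
    rw [e1, e2, real_inner_self_eq_norm_sq]
    exact hA.le _
  · have e1 : ⟪(A ^ (2 * m + 1)) x, x⟫ = ⟪A ((A ^ m) x), (A ^ m) x⟫ := by
      rw [show 2 * m + 1 = m + (1 + m) by ring, pow_add_apply, hA.pow_symm, pow_add_apply, pow_one]
    have e2 : ⟪(A ^ (2 * m + 1 + 1)) x, x⟫ = ⟪A ((A ^ m) x), A ((A ^ m) x)⟫ := by
      rw [show 2 * m + 1 + 1 = (m + 1) + (m + 1) by ring, pow_add_apply, hA.pow_symm,
        pow_succ_apply']
    rw [e1, e2, real_inner_self_eq_norm_sq]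
    exact hA.norm_sq_le _

variable [CompleteSpace H]

/-- Strong convergence of powers of a positive contraction. -/
theorem tendsto_pow (hA : IsPC A) (K : Submodule ℝ H) (hK : ∀ z, z ∈ K ↔ A z = z)
    (hKc : IsClosed (K : Set H)) (x : H) :
    Tendsto (fun n => (A ^ n) x) atTop (𝓝 (pr K x)) := by
  -- the scalar sequence converges
  have hanti : Antitone (fun k => ⟪(A ^ k) x, x⟫) :=
    antitone_nat_of_succ_le (fun k => hA.inner_pow_succ_le k x)
  have hbdd : BddBelow (Set.range (fun k => ⟪(A ^ k) x, x⟫)) :=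
    ⟨0, by rintro _ ⟨k, rfl⟩; exact hA.pow_nonneg' k x⟩
  obtain ⟨a, ha⟩ : ∃ a, Tendsto (fun k => ⟪(A ^ k) x, x⟫) atTop (𝓝 a) :=
    ⟨_, tendsto_atTop_ciInf hanti hbdd⟩
  -- Cauchy
  have hnorm : ∀ m n : ℕ, ‖(A ^ m) x - (A ^ n) x‖ ^ 2
      = ⟪(A ^ (m + m)) x, x⟫ + ⟪(A ^ (n + n)) x, x⟫ - 2 * ⟪(A ^ (m + n)) x, x⟫ := by
    intro m n
    have h1 : ⟪(A ^ (m + m)) x, x⟫ = ⟪(A ^ m) x, (A ^ m) x⟫ := by
      rw [pow_add_apply, hA.pow_symm]
    have h2 : ⟪(A ^ (n + n)) x, x⟫ = ⟪(A ^ n) x, (A ^ n) x⟫ := by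
      rw [pow_add_apply, hA.pow_symm]
    have h3 : ⟪(A ^ (m + n)) x, x⟫ = ⟪(A ^ n) x, (A ^ m) x⟫ := by
      rw [pow_add_apply, hA.pow_symm]
    rw [h1, h2, h3, ← real_inner_self_eq_norm_sq, inner_sub_left, inner_sub_right, inner_sub_right,
      real_inner_comm ((A ^ m) x) ((A ^ n) x)]
    ring
  have hC : CauchySeq (fun n => (A ^ n) x) := by
    rw [Metric.cauchySeq_iff]
    intro ε hε
    have hε2 : 0 < ε ^ 2 / 4 := by positivity
    obtain ⟨N, hN⟩ := Metric.tendsto_atTop.1 ha (ε ^ 2 / 4) hε2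
    refine ⟨N, fun m hm n hn => ?_⟩
    rw [dist_eq_norm]
    have h1 := hN (m + m) (by omega)
    have h2 := hN (n + n) (by omega)
    have h3 := hN (m + n) (by omega)
    rw [Real.dist_eq, abs_lt] at h1 h2 h3
    have h4 : ‖(A ^ m) x - (A ^ n) x‖ ^ 2 < ε ^ 2 := by
      rw [hnorm]
      nlinarith [h1.1, h1.2, h2.1, h2.2, h3.1, h3.2]
    exact lt_of_pow_lt_pow_left₀ 2 hε.le h4
  obtain ⟨l, hl⟩ := cauchySeq_tendsto_of_complete hC
  have hlK : A l = l := by
    have h1 : Tendsto (fun n => A ((A ^ n) x)) atTop (𝓝 (A l)) :=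
      A.continuous.continuousAt.tendsto.comp hl
    have h2 : Tendsto (fun n => A ((A ^ n) x)) atTop (𝓝 l) := by
      have := (tendsto_add_atTop_iff_nat 1).2 hl
      refine this.congr (fun n => ?_)
      rw [pow_succ_apply']
    exact tendsto_nhds_unique h1 h2
  have hKcl : K.topologicalClosure = K := IsClosed.submodule_topologicalClosure_eq hKc
  have hpr : pr K x = l := by
    apply pr_eq_of K
    · rw [hKcl]
      exact (hK l).2 hlK
    · intro z hz
      have hAz : ∀ n, (A ^ n) z = z := by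
        intro n
        induction n with
        | zero => simp
        | succ n ih => rw [pow_succ_apply, (hK z).1 hz, ih]
      have h1 : ∀ n, ⟪x - (A ^ n) x, z⟫ = 0 := by
        intro n
        rw [inner_sub_left, hA.pow_symm, hAz, sub_self]
      have h2 : Tendsto (fun n => ⟪x - (A ^ n) x, z⟫) atTop (𝓝 ⟪x - l, z⟫) :=
        (tendsto_const_nhds.sub hl).inner tendsto_const_nhds
      simp_rw [h1] at h2
      exact (tendsto_nhds_unique h2 tendsto_const_nhds)
  rw [hpr]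
  exact hl

end IsPC

/-- `1 - N* N / C` is a positive contraction. -/
theorem isPC_one_sub [CompleteSpace H] (N : H →L[ℝ] H) {C : ℝ} (hC0 : 0 < C)
    (hC : ∀ x, ‖N x‖ ^ 2 ≤ C * ‖x‖ ^ 2) :
    IsPC (1 - (1 / C) • (ContinuousLinearMap.adjoint N ∘L N)) := by
  have hform : ∀ x y, ⟪(1 - (1 / C) • (ContinuousLinearMap.adjoint N ∘L N)) x, y⟫
      = ⟪x, y⟫ - (1 / C) * ⟪N x, N y⟫ := by
    intro x y
    simp [inner_sub_left, inner_smul_left, ContinuousLinearMap.adjoint_inner_left]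
  refine ⟨fun x y => ?_, fun x => ?_, fun x => ?_⟩
  · rw [hform, real_inner_comm]
    have : ⟪x, (1 - (1 / C) • (ContinuousLinearMap.adjoint N ∘L N)) y⟫
        = ⟪(1 - (1 / C) • (ContinuousLinearMap.adjoint N ∘L N)) y, x⟫ := real_inner_comm _ _
    rw [this, hform, real_inner_comm (N y) (N x)]
  · rw [hform, real_inner_self_eq_norm_sq, real_inner_self_eq_norm_sq]
    have h1 : (1 / C) * ‖N x‖ ^ 2 ≤ ‖x‖ ^ 2 := by
      rw [div_mul_eq_mul_div, one_mul, div_le_iff₀ hC0]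
      linarith [hC x]
    linarith
  · rw [hform, real_inner_self_eq_norm_sq, real_inner_self_eq_norm_sq]
    have : 0 ≤ (1 / C) * ‖N x‖ ^ 2 := by positivity
    linarith

theorem pr_eq_self_of_norm_eq [CompleteSpace H] (K : Submodule ℝ H) {x : H} (h : ‖pr K x‖ = ‖x‖) :
    pr K x = x := by
  have h1 : ‖x - pr K x‖ ^ 2 = ‖x‖ ^ 2 - ‖pr K x‖ ^ 2 := by
    rw [norm_sub_sq_real, real_inner_comm, inner_pr_self]
    ring
  rw [h, sub_self] at h1
  have h2 : ‖x - pr K x‖ = 0 := by simpa using h1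
  have h3 : x - pr K x = 0 := norm_eq_zero.1 h2
  exact (sub_eq_zero.1 h3).symm

theorem mem_of_pr_eq_self [CompleteSpace H] (K : Submodule ℝ H) (hK : IsClosed (K : Set H)) {x : H}
    (h : pr K x = x) : x ∈ K := by
  have h1 := pr_mem K x
  rw [IsClosed.submodule_topologicalClosure_eq hK, h] at h1
  exact h1

/-- von Neumann alternating projection. -/
theorem tendsto_meet [CompleteSpace H] (S₁ S₂ : Submodule ℝ H) (h₁ : IsClosed (S₁ : Set H))
    (h₂ : IsClosed (S₂ : Set H)) (x : H) :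
    Tendsto (fun n => ((pr S₁ ∘L pr S₂ ∘L pr S₁) ^ n) x) atTop (𝓝 (pr (S₁ ⊓ S₂) x)) := by
  have hform : ∀ y, ⟪(pr S₁ ∘L pr S₂ ∘L pr S₁) y, y⟫ = ‖pr S₂ (pr S₁ y)‖ ^ 2 := by
    intro y
    simp only [ContinuousLinearMap.comp_apply]
    rw [inner_pr_left, inner_pr_self]
  have hA : IsPC (pr S₁ ∘L pr S₂ ∘L pr S₁) := by
    refine ⟨fun u v => ?_, fun u => ?_, fun u => ?_⟩
    · simp only [ContinuousLinearMap.comp_apply]
      rw [inner_pr_left, inner_pr_left, inner_pr_left]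
    · rw [hform]; positivity
    · rw [hform]
      have h1 := (norm_pr_le S₂ (pr S₁ u)).trans (norm_pr_le S₁ u)
      exact pow_le_pow_left₀ (norm_nonneg _) h1 2
  refine hA.tendsto_pow (S₁ ⊓ S₂) (fun z => ?_) ?_ x
  · constructor
    · rintro ⟨hz1, hz2⟩
      simp only [ContinuousLinearMap.comp_apply]
      rw [pr_eq_self S₁ hz1, pr_eq_self S₂ hz2, pr_eq_self S₁ hz1]
    · intro hz
      have h1 : ‖z‖ ^ 2 = ‖pr S₂ (pr S₁ z)‖ ^ 2 := by
        rw [← hform, hz, real_inner_self_eq_norm_sq]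
      have h2 : ‖pr S₂ (pr S₁ z)‖ = ‖z‖ := by
        have := (sq_eq_sq₀ (norm_nonneg z) (norm_nonneg _)).1 h1
        exact this.symm
      have h3 : ‖pr S₁ z‖ = ‖z‖ :=
        le_antisymm (norm_pr_le _ _) (by rw [← h2]; exact norm_pr_le _ _)
      have h4 : pr S₁ z = z := pr_eq_self_of_norm_eq S₁ h3
      have h5 : pr S₂ z = z := by
        apply pr_eq_self_of_norm_eq
        rw [h4] at h2
        exact h2
      exact ⟨mem_of_pr_eq_self S₁ h₁ h4, mem_of_pr_eq_self S₂ h₂ h5⟩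
  · rw [Submodule.coe_inf]
    exact h₁.inter h₂

variable {Γ I₀ Ω : Type*} [Group Γ] [MeasurableSpace Ω] {R : DartRep Γ I₀ H} {act : Γ → Ω → Ω}
variable [Countable Γ] [Fintype I₀] [CompleteSpace H]

/-- Meets of good closed subspace fields. -/
theorem good_pr_inf {S₁ S₂ : Ω → Submodule ℝ H} (hc₁ : ∀ ω, IsClosed (S₁ ω : Set H))
    (hc₂ : ∀ ω, IsClosed (S₂ ω : Set H)) (h₁ : Good R act (fun ω => pr (S₁ ω)))
    (h₂ : Good R act (fun ω => pr (S₂ ω))) : Good R act (fun ω => pr (S₁ ω ⊓ S₂ ω)) := by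
  have hA : Good R act (fun ω => pr (S₁ ω) ∘L pr (S₂ ω) ∘L pr (S₁ ω)) := h₁.comp (h₂.comp h₁)
  refine Good.of_tendsto (T := fun n ω => (pr (S₁ ω) ∘L pr (S₂ ω) ∘L pr (S₁ ω)) ^ n)
    (fun n => hA.pow n) ⟨1, fun n ω => ?_⟩ (fun ω x => tendsto_meet _ _ (hc₁ ω) (hc₂ ω) x)
  have hPC : IsPC (pr (S₁ ω) ∘L pr (S₂ ω) ∘L pr (S₁ ω)) := by
    refine ⟨fun u v => ?_, fun u => ?_, fun u => ?_⟩
    · simp only [ContinuousLinearMap.comp_apply]
      rw [inner_pr_left, inner_pr_left, inner_pr_left]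
    · simp only [ContinuousLinearMap.comp_apply]
      rw [inner_pr_left, inner_pr_self]; positivity
    · simp only [ContinuousLinearMap.comp_apply]
      rw [inner_pr_left, inner_pr_self]
      have h1 := (norm_pr_le (S₂ ω) (pr (S₁ ω) u)).trans (norm_pr_le (S₁ ω) u)
      exact pow_le_pow_left₀ (norm_nonneg _) h1 2
  exact hPC.pow_opNorm_le n

/-- Orthogonal complements of good subspace fields. -/
theorem good_pr_orthogonal {S : Ω → Submodule ℝ H} (h : Good R act (fun ω => pr (S ω))) :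
    Good R act (fun ω => pr (S ω)ᗮ) := by
  have h1 : Good R act (fun _ : Ω => (1 : H →L[ℝ] H)) := Good.const (fun γ x => rfl)
  have h2 := h1.sub h
  convert h2 using 2 with ω
  ext x
  simp [pr_orthogonal]

variable {P : Measure Ω} [IsProbabilityMeasure P]

/-- The dimension inequality. -/
theorem tr_le_of_injective (hact : ∀ γ, MeasurePreserving (act γ) P P) {S₁ S₂ : Ω → Submodule ℝ H}
    (h₁ : Good R act (fun ω => pr (S₁ ω))) (h₂ : Good R act (fun ω => pr (S₂ ω)))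
    {T : Ω → H →L[ℝ] H} (hT : Good R act T)
    (hmaps : ∀ ω, ∀ x ∈ (S₁ ω).topologicalClosure, T ω x ∈ (S₂ ω).topologicalClosure)
    (hinj : ∀ ω, ∀ x ∈ (S₁ ω).topologicalClosure, T ω x = 0 → x = 0) :
    tr R P (fun ω => pr (S₁ ω)) ≤ tr R P (fun ω => pr (S₂ ω)) := by
  set N : Ω → H →L[ℝ] H := fun ω => T ω ∘L pr (S₁ ω) with hNdef
  have hN : Good R act N := hT.comp h₁
  have hNad : Good R act (fun ω => ContinuousLinearMap.adjoint (N ω)) := hN.adjoint
  obtain ⟨C₀, hC₀⟩ := hN.bdd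
  set C : ℝ := C₀ ^ 2 + 1 with hCdef
  have hC0 : 0 < C := by positivity
  have hb0 : ∀ (L : H →L[ℝ] H) (x : H), ‖L‖ ≤ C₀ → ‖L x‖ ^ 2 ≤ C * ‖x‖ ^ 2 := by
    intro L x hL
    have h1 : ‖L x‖ ≤ C₀ * ‖x‖ :=
      (L.le_opNorm x).trans (mul_le_mul_of_nonneg_right hL (norm_nonneg _))
    have h2 : ‖L x‖ ^ 2 ≤ (C₀ * ‖x‖) ^ 2 := pow_le_pow_left₀ (norm_nonneg _) h1 2
    have h3 : (C₀ * ‖x‖) ^ 2 = C₀ ^ 2 * ‖x‖ ^ 2 := by ring
    rw [h3] at h2
    have h4 : C₀ ^ 2 * ‖x‖ ^ 2 ≤ C * ‖x‖ ^ 2 :=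
      mul_le_mul_of_nonneg_right (by rw [hCdef]; linarith) (by positivity)
    exact h2.trans h4
  have hb1 : ∀ ω x, ‖N ω x‖ ^ 2 ≤ C * ‖x‖ ^ 2 := fun ω x => hb0 _ x (hC₀ ω)
  have hb2 : ∀ ω x, ‖ContinuousLinearMap.adjoint (N ω) x‖ ^ 2 ≤ C * ‖x‖ ^ 2 :=
    fun ω x => hb0 _ x (by simpa using hC₀ ω)
  set A : Ω → H →L[ℝ] H := fun ω =>
    1 - (1 / C) • (ContinuousLinearMap.adjoint (N ω) ∘L N ω) with hAdef
  set B : Ω → H →L[ℝ] H := fun ω =>
    1 - (1 / C) • (N ω ∘L ContinuousLinearMap.adjoint (N ω)) with hBdef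
  have hA : ∀ ω, IsPC (A ω) := fun ω => isPC_one_sub (N ω) hC0 (hb1 ω)
  have hB : ∀ ω, IsPC (B ω) := by
    intro ω
    have := isPC_one_sub (ContinuousLinearMap.adjoint (N ω)) hC0 (hb2 ω)
    simpa only [ContinuousLinearMap.adjoint_adjoint] using this
  have gone : Good R act (fun _ : Ω => (1 : H →L[ℝ] H)) := Good.const (fun γ x => rfl)
  have gA : Good R act A := gone.sub ((hNad.comp hN).smul _)
  have gB : Good R act B := gone.sub ((hN.comp hNad).smul _)
  -- intertwining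
  have hsemi : ∀ (ω : Ω) (k : ℕ), N ω * (A ω) ^ k = (B ω) ^ k * N ω := by
    intro ω k
    have h0 : SemiconjBy (N ω) (A ω) (B ω) := by
      change N ω * A ω = B ω * N ω
      ext x
      change N ω (A ω x) = B ω (N ω x)
      simp [hAdef, hBdef, map_sub, map_smul]
    exact (h0.pow_right k).eq
  have hstepB : ∀ (ω : Ω) (k : ℕ), (B ω) ^ k - (B ω) ^ (k + 1)
      = (1 / C) • (N ω ∘L (((A ω) ^ k) ∘L ContinuousLinearMap.adjoint (N ω))) := by
    intro ω k
    have e1 : (1 : H →L[ℝ] H) - B ω = (1 / C) • (N ω * ContinuousLinearMap.adjoint (N ω)) := by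
      simp only [hBdef, sub_sub_cancel]
      rfl
    have e0 : ∀ X : H →L[ℝ] H, X ^ k - X ^ (k + 1) = X ^ k * (1 - X) := fun X => by
      rw [pow_succ, mul_sub, mul_one]
    calc (B ω) ^ k - (B ω) ^ (k + 1) = (B ω) ^ k * (1 - B ω) := e0 _
      _ = (1 / C) • ((B ω) ^ k * N ω * ContinuousLinearMap.adjoint (N ω)) := by
          rw [e1, mul_smul_comm, mul_assoc]
      _ = (1 / C) • (N ω * (A ω) ^ k * ContinuousLinearMap.adjoint (N ω)) := by
          rw [hsemi]
      _ = _ := by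
          rw [mul_assoc]
          rfl
  have hstepA : ∀ (ω : Ω) (k : ℕ), (A ω) ^ k - (A ω) ^ (k + 1)
      = (1 / C) • ((((A ω) ^ k) ∘L ContinuousLinearMap.adjoint (N ω)) ∘L N ω) := by
    intro ω k
    have e1 : (1 : H →L[ℝ] H) - A ω = (1 / C) • (ContinuousLinearMap.adjoint (N ω) * N ω) := by
      simp only [hAdef, sub_sub_cancel]
      rfl
    have e0 : ∀ X : H →L[ℝ] H, X ^ k - X ^ (k + 1) = X ^ k * (1 - X) := fun X => by
      rw [pow_succ, mul_sub, mul_one]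
    calc (A ω) ^ k - (A ω) ^ (k + 1) = (A ω) ^ k * (1 - A ω) := e0 _
      _ = (1 / C) • ((A ω) ^ k * (ContinuousLinearMap.adjoint (N ω) * N ω)) := by
          rw [e1, mul_smul_comm]
      _ = _ := by
          rw [← mul_assoc]
          rfl
  have hstep : ∀ k : ℕ, tr R P (fun ω => (B ω) ^ k - (B ω) ^ (k + 1))
      = tr R P (fun ω => (A ω) ^ k - (A ω) ^ (k + 1)) := by
    intro k
    simp_rw [hstepB, hstepA]
    rw [tr_smul, tr_smul, tr_comm hact hN ((gA.pow k).comp hNad)]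
  have htr : ∀ n : ℕ, tr R P (fun ω => 1 - (B ω) ^ n) = tr R P (fun ω => 1 - (A ω) ^ n) := by
    intro n
    induction n with
    | zero => simp
    | succ n ih =>
      have e1 : ∀ (X : Ω → H →L[ℝ] H), (fun ω => (1 : H →L[ℝ] H) - (X ω) ^ (n + 1))
          = fun ω => (1 - (X ω) ^ n) + ((X ω) ^ n - (X ω) ^ (n + 1)) := by
        intro X
        funext ω
        abel
      rw [e1 B, e1 A, tr_add (gone.sub (gB.pow n)) ((gB.pow n).sub (gB.pow (n + 1))),
        tr_add (gone.sub (gA.pow n)) ((gA.pow n).sub (gA.pow (n + 1))), ih, hstep]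
  -- the pointwise bound
  have hpt : ∀ (n : ℕ) (ω : Ω) (x : H), ⟪(1 - (B ω) ^ n) x, x⟫ ≤ ⟪pr (S₂ ω) x, x⟫ := by
    intro n ω x
    set p := pr (S₂ ω) x with hp
    set q := x - p with hq
    have hx : x = p + q := by rw [hq]; abel
    have hq0 : ContinuousLinearMap.adjoint (N ω) q = 0 := by
      apply ext_inner_right ℝ
      intro y
      rw [ContinuousLinearMap.adjoint_inner_left, inner_zero_left]
      have h1 : N ω y ∈ (S₂ ω).topologicalClosure :=
        hmaps ω _ (pr_mem (S₁ ω) y)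
      exact sub_pr_inner_closure (S₂ ω) x _ h1
    have hBq : ∀ k, ((B ω) ^ k) q = q := by
      intro k
      have h1 : B ω q = q := by
        simp [hBdef, hq0]
      induction k with
      | zero => simp
      | succ k ih => rw [pow_succ_apply, h1, ih]
    have hpq : ⟪p, q⟫ = 0 := by
      rw [real_inner_comm]
      exact sub_pr_inner_closure (S₂ ω) x _ (pr_mem (S₂ ω) x)
    have h2 : ⟪((B ω) ^ n) x, x⟫ = ⟪((B ω) ^ n) p, p⟫ + ⟪q, q⟫ := by
      rw [hx, map_add, hBq n, inner_add_left, inner_add_right, inner_add_right]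
      have h3 : ⟪((B ω) ^ n) p, q⟫ = 0 := by
        rw [(hB ω).pow_symm, hBq n, hpq]
      have h4 : ⟪q, p⟫ = 0 := by rw [real_inner_comm]; exact hpq
      rw [h3, h4]
      ring
    have h5 : ⟪(1 - (B ω) ^ n) x, x⟫ = ⟪x, x⟫ - ⟪((B ω) ^ n) x, x⟫ := by
      simp [inner_sub_left]
    have h6 : ⟪x, x⟫ = ⟪p, p⟫ + ⟪q, q⟫ := by
      conv_lhs => rw [hx]
      rw [inner_add_left, inner_add_right, inner_add_right, hpq]
      have h4 : ⟪q, p⟫ = 0 := by rw [real_inner_comm]; exact hpq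
      rw [h4]
      ring
    have h7 : ⟪pr (S₂ ω) x, x⟫ = ⟪p, p⟫ := by
      rw [inner_pr_self, hp, real_inner_self_eq_norm_sq]
    rw [h5, h2, h6, h7]
    have h8 := (hB ω).pow_nonneg' n p
    linarith
  have hle : ∀ n : ℕ, tr R P (fun ω => 1 - (B ω) ^ n) ≤ tr R P (fun ω => pr (S₂ ω)) := by
    intro n
    unfold tr
    refine Finset.sum_le_sum (fun i _ => ?_)
    refine integral_mono ((gone.sub (gB.pow n)).integrable_inner _ _) (h₂.integrable_inner _ _) ?_
    exact fun ω => hpt n ω _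
  have hlim : Tendsto (fun n => tr R P (fun ω => 1 - (A ω) ^ n)) atTop
      (𝓝 (tr R P (fun ω => pr (S₁ ω)))) := by
    refine tr_tendsto (fun n => gone.sub (gA.pow n)) ⟨‖(1 : H →L[ℝ] H)‖ + 1, fun n ω => ?_⟩ ?_
    · refine (norm_sub_le _ _).trans ?_
      have := (hA ω).pow_opNorm_le n
      linarith
    · intro ω x
      have hK : ∀ z, z ∈ (S₁ ω)ᗮ ↔ A ω z = z := by
        intro z
        constructor
        · intro hz
          have h0 : pr (S₁ ω) z = 0 := by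
            apply pr_eq_zero_of_orthogonal
            intro w hw
            rw [real_inner_comm]
            exact (Submodule.mem_orthogonal _ _).1 hz w hw
          have h1 : N ω z = 0 := by simp [hNdef, h0]
          simp [hAdef, h1]
        · intro hz
          have h1 : (1 / C) • ContinuousLinearMap.adjoint (N ω) (N ω z) = 0 := by
            have h2 : A ω z = z - (1 / C) • ContinuousLinearMap.adjoint (N ω) (N ω z) := by
              simp [hAdef]
            rw [h2] at hz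
            have h3 := sub_eq_self.1 hz
            exact h3
          have h2 : ContinuousLinearMap.adjoint (N ω) (N ω z) = 0 := by
            have hne : (1 / C) ≠ 0 := by positivity
            exact (smul_eq_zero.1 h1).resolve_left hne
          have h3 : ‖N ω z‖ ^ 2 = 0 := by
            rw [← real_inner_self_eq_norm_sq, ← ContinuousLinearMap.adjoint_inner_right, h2,
              inner_zero_right]
          have h4 : N ω z = 0 := by
            have : ‖N ω z‖ = 0 := by simpa using h3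
            exact norm_eq_zero.1 this
          have h5 : pr (S₁ ω) z = 0 := hinj ω _ (pr_mem _ _) h4
          have h6 := sub_pr_mem_orthogonal (S₁ ω) z
          rwa [h5, sub_zero] at h6
      have h1 := (hA ω).tendsto_pow (S₁ ω)ᗮ hK (Submodule.isClosed_orthogonal _) x
      have h2 : Tendsto (fun n : ℕ => ((1 : H →L[ℝ] H) - (A ω) ^ n) x) atTop (𝓝 (x - pr (S₁ ω)ᗮ x)) := by
        simpa using tendsto_const_nhds.sub h1
      have h3 : x - pr (S₁ ω)ᗮ x = pr (S₁ ω) x := by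
        rw [pr_orthogonal]; abel
      rwa [h3] at h2
  refine le_of_tendsto hlim (Eventually.of_forall (fun n => ?_))
  rw [← htr]
  exact hle n

end Vale.Agent.Lib.P143
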