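import Vale.Agent.Lib.P143.Dim

/-!
Edge vectors, the closed spans `Wsp`, the conditioned subspaces `Vs`, and the conditional probabilities `pe`.
-/

namespace Vale.Agent.Lib.P143

open MeasureTheory Filter Topology
open scoped RealInnerProductSpace ENNReal Pointwise

variable {H E : Type*} [NormedAddCommGroup H] [InnerProductSpace ℝ H] [CompleteSpace H]

/-- The closed span of the vectors `ψ e`, `e ∈ B`. -/
noncomputable def Wsp (ψ : E → H) (B : Set E) : Submodule ℝ H :=
  (Submodule.span ℝ (ψ '' B)).topologicalClosure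

/-- The subspace `V ⊓ W_Aᗮ`: the vectors of `V` orthogonal to the edges in `A`. -/
noncomputable def Msp (ψ : E → H) (V : Submodule ℝ H) (A : Set E) : Submodule ℝ H :=
  V ⊓ (Wsp ψ A)ᗮ

/-- The conditioned subspace: `Msp` projected to the edges outside `A ∪ C` (not closed; `pr` takes
the closure). -/
noncomputable def Vs (ψ : E → H) (V : Submodule ℝ H) (A C : Set E) : Submodule ℝ H :=
  (Msp ψ V A).map (pr (Wsp ψ (A ∪ C)ᶜ) : H →L[ℝ] H).toLinearMap

/-- The conditional inclusion probability of `e`, given `A` open and `C` closed. -/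
noncomputable def pe (ψ : E → H) (V : Submodule ℝ H) (A C : Set E) (e : E) : ℝ :=
  ‖pr (Vs ψ V A C) (ψ e)‖ ^ 2

omit [CompleteSpace H] in
theorem isClosed_Wsp (ψ : E → H) (B : Set E) : IsClosed (Wsp ψ B : Set H) :=
  Submodule.isClosed_topologicalClosure _

theorem Wsp_closure (ψ : E → H) (B : Set E) : (Wsp ψ B).topologicalClosure = Wsp ψ B :=
  IsClosed.submodule_topologicalClosure_eq (isClosed_Wsp ψ B)

theorem pr_Wsp_eq (ψ : E → H) (B : Set E) : pr (Wsp ψ B) = pr (Submodule.span ℝ (ψ '' B)) :=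
  pr_topologicalClosure _

omit [CompleteSpace H] in
theorem mem_Wsp (ψ : E → H) {B : Set E} {e : E} (he : e ∈ B) : ψ e ∈ Wsp ψ B :=
  Submodule.le_topologicalClosure _ (Submodule.subset_span (Set.mem_image_of_mem _ he))

omit [CompleteSpace H] in
theorem Wsp_mono (ψ : E → H) {B B' : Set E} (h : B ⊆ B') : Wsp ψ B ≤ Wsp ψ B' :=
  Submodule.topologicalClosure_mono (Submodule.span_mono (Set.image_mono h))

omit [CompleteSpace H] in
/-- A vector orthogonal to the generators is orthogonal to `Wsp`. -/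
theorem inner_Wsp_zero {ψ : E → H} {B : Set E} {u : H} (h : ∀ e ∈ B, ⟪u, ψ e⟫ = 0) :
    ∀ z ∈ Wsp ψ B, ⟪u, z⟫ = 0 := by
  intro z hz
  have hspan : Submodule.span ℝ (ψ '' B) ≤ (Submodule.span ℝ {u})ᗮ := by
    rw [Submodule.span_le]
    rintro _ ⟨e, he, rfl⟩
    rw [SetLike.mem_coe, Submodule.mem_orthogonal]
    intro w hw
    obtain ⟨c, rfl⟩ := Submodule.mem_span_singleton.1 hw
    rw [inner_smul_left, h e he, mul_zero]
  have hcl : Wsp ψ B ≤ (Submodule.span ℝ {u})ᗮ :=
    Submodule.topologicalClosure_minimal _ hspan (Submodule.isClosed_orthogonal _)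
  have := (Submodule.mem_orthogonal _ _).1 (hcl hz) u (Submodule.mem_span_singleton_self u)
  exact this

/-- Monotone limits of projections. -/
theorem pr_iSup_tendsto {ι : Type*} [Preorder ι] (U : ι → Submodule ℝ H) (hU : Monotone U) (x : H) :
    Tendsto (fun i => pr (U i) x) atTop (𝓝 (pr (⨆ i, U i) x)) := by
  have hU' : Monotone (fun i => (U i).topologicalClosure) :=
    fun i j h => Submodule.topologicalClosure_mono (hU h)
  have h := Submodule.starProjection_tendsto_closure_iSup (fun i => (U i).topologicalClosure) hU' x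
  have h2 : (⨆ i, (U i).topologicalClosure).topologicalClosure = (⨆ i, U i).topologicalClosure := by
    apply le_antisymm
    · apply Submodule.topologicalClosure_minimal _ _ (Submodule.isClosed_topologicalClosure _)
      exact iSup_le (fun i => Submodule.topologicalClosure_mono (le_iSup U i))
    · apply Submodule.topologicalClosure_mono
      exact iSup_mono (fun i => Submodule.le_topologicalClosure _)
  have h3 : (⨆ i, (U i).topologicalClosure).topologicalClosure.starProjection x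
      = (⨆ i, U i).topologicalClosure.starProjection x := by
    simp only [h2]
  rw [h3] at h
  exact h

variable {ψ : E → H}

open Classical in
/-- The series for the projection onto `Wsp`. -/
theorem hasSum_pr_Wsp (hψ : Orthonormal ℝ ψ) (B : Set E) (x : H) :
    HasSum (fun e => (if e ∈ B then ⟪ψ e, x⟫ else 0) • ψ e) (pr (Wsp ψ B) x) := by
  let U : Finset E → Submodule ℝ H := fun F => Submodule.span ℝ (ψ '' (B ∩ F))
  have hU : Monotone U := fun F G h =>
    Submodule.span_mono (Set.image_mono (Set.inter_subset_inter_right _ (by exact_mod_cast h)))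
  have hsup : (⨆ F, U F) = Submodule.span ℝ (ψ '' B) := by
    apply le_antisymm
    · exact iSup_le (fun F => Submodule.span_mono (Set.image_mono Set.inter_subset_left))
    · rw [Submodule.span_le]
      rintro _ ⟨e, he, rfl⟩
      have : ψ e ∈ U {e} := Submodule.subset_span ⟨e, ⟨he, by simp⟩, rfl⟩
      exact Submodule.mem_iSup_of_mem {e} this
  have h := pr_iSup_tendsto U hU x
  rw [hsup, ← pr_Wsp_eq] at h
  refine h.congr (fun F => ?_)
  -- the finite case
  apply pr_eq_of
  · apply Submodule.le_topologicalClosure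
    refine Submodule.sum_mem _ (fun e he => ?_)
    by_cases heB : e ∈ B
    · simp only [heB, if_true]
      exact Submodule.smul_mem _ _ (Submodule.subset_span ⟨e, ⟨heB, by exact_mod_cast he⟩, rfl⟩)
    · simp [heB]
  · intro z hz
    have : ∀ e ∈ B ∩ F, ⟪x - ∑ e ∈ F, (if e ∈ B then ⟪ψ e, x⟫ else 0) • ψ e, ψ e⟫ = 0 := by
      rintro e ⟨heB, heF⟩
      rw [inner_sub_left, sum_inner, Finset.sum_eq_single e]
      · simp only [heB, if_true, inner_smul_left]
        rw [real_inner_self_eq_norm_sq, hψ.1 e]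
        simp [real_inner_comm]
      · intro f _ hf
        rw [inner_smul_left, hψ.2 hf, mul_zero]
      · intro hc
        exact absurd heF (by simpa using hc)
    have h2 := inner_Wsp_zero (ψ := ψ) (B := B ∩ F) this z
      (Submodule.le_topologicalClosure _ hz)
    exact h2

open Classical in
/-- The scalar series. -/
theorem hasSum_inner_pr_Wsp (hψ : Orthonormal ℝ ψ) (B : Set E) (x y : H) :
    HasSum (fun e => if e ∈ B then ⟪ψ e, x⟫ * ⟪ψ e, y⟫ else 0) ⟪pr (Wsp ψ B) x, y⟫ := by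
  have h := (hasSum_pr_Wsp hψ B x).mapL (innerSL ℝ y)
  have e1 : ⟪pr (Wsp ψ B) x, y⟫ = innerSL ℝ y (pr (Wsp ψ B) x) := by
    simp [real_inner_comm]
  rw [e1]
  have e2 : (fun e => if e ∈ B then ⟪ψ e, x⟫ * ⟪ψ e, y⟫ else 0)
      = fun e => innerSL ℝ y ((if e ∈ B then ⟪ψ e, x⟫ else 0) • ψ e) := by
    funext e
    by_cases he : e ∈ B
    · simp [he, real_inner_comm]
    · simp [he]
  rw [e2]
  exact h

theorem pr_Wsp_of_mem (B : Set E) {e : E} (he : e ∈ B) : pr (Wsp ψ B) (ψ e) = ψ e :=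
  pr_eq_self _ (mem_Wsp ψ he)

theorem pr_Wsp_of_notMem (hψ : Orthonormal ℝ ψ) {B : Set E} {e : E} (he : e ∉ B) :
    pr (Wsp ψ B) (ψ e) = 0 := by
  apply pr_eq_zero_of_orthogonal
  have : ∀ f ∈ B, ⟪ψ e, ψ f⟫ = 0 := fun f hf => hψ.2 (fun h => he (h ▸ hf))
  exact inner_Wsp_zero this

/-- Additivity on disjoint sets. -/
theorem pr_Wsp_union (hψ : Orthonormal ℝ ψ) {A C : Set E} (h : Disjoint A C) (x : H) :
    pr (Wsp ψ (A ∪ C)) x = pr (Wsp ψ A) x + pr (Wsp ψ C) x := by
  have h1 := (hasSum_pr_Wsp hψ A x).add (hasSum_pr_Wsp hψ C x)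
  have h2 := hasSum_pr_Wsp hψ (A ∪ C) x
  refine h2.unique ?_
  convert h1 using 1
  funext e
  by_cases hA : e ∈ A
  · have hC : e ∉ C := Set.disjoint_left.1 h hA
    simp [hA, hC]
  · by_cases hC : e ∈ C
    · simp [hA, hC]
    · simp [hA, hC]

theorem Wsp_univ_eq (hψ : Orthonormal ℝ ψ) (R : Set E) {v : H} (hv : v ∈ Wsp ψ Set.univ) :
    pr (Wsp ψ R) v + pr (Wsp ψ Rᶜ) v = v := by
  rw [← pr_Wsp_union hψ disjoint_compl_right, Set.union_compl_self]
  exact pr_eq_self_of_mem_closure _ (by rwa [Wsp_closure])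

open Classical in
/-- The norm square of a projection on `Wsp`. -/
theorem norm_sq_pr_Wsp (hψ : Orthonormal ℝ ψ) (B : Set E) (x : H) :
    HasSum (fun e => if e ∈ B then ⟪ψ e, x⟫ ^ 2 else 0) (‖pr (Wsp ψ B) x‖ ^ 2) := by
  have h := hasSum_inner_pr_Wsp hψ B x x
  rw [inner_pr_self] at h
  have e2 : (fun e => if e ∈ B then ⟪ψ e, x⟫ ^ 2 else 0)
      = fun e => if e ∈ B then ⟪ψ e, x⟫ * ⟪ψ e, x⟫ else 0 := by
    funext e
    simp [sq]
  rw [e2]
  exact h

open Classical in
/-- Projections onto `Wsp` of a decreasing sequence of sets with empty intersection tend to zero. -/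
theorem tendsto_pr_Wsp_zero (hψ : Orthonormal ℝ ψ) {B : ℕ → Set E} (hB : Antitone B)
    (hemp : ∀ e, ∃ n, e ∉ B n) (x : H) : Tendsto (fun n => pr (Wsp ψ (B n)) x) atTop (𝓝 0) := by
  have hs : Summable (fun e => ⟪ψ e, x⟫ ^ 2) := by
    simpa using (norm_sq_pr_Wsp hψ Set.univ x).summable
  have h1 : Tendsto (fun n => ‖pr (Wsp ψ (B n)) x‖ ^ 2) atTop (𝓝 0) := by
    have e1 : ∀ n, ‖pr (Wsp ψ (B n)) x‖ ^ 2 = ∑' e, if e ∈ B n then ⟪ψ e, x⟫ ^ 2 else 0 :=
      fun n => (norm_sq_pr_Wsp hψ (B n) x).tsum_eq.symm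
    simp_rw [e1]
    have e2 : (0 : ℝ) = ∑' _ : E, (0 : ℝ) := by simp
    rw [e2]
    refine tendsto_tsum_of_dominated_convergence hs (fun e => ?_) ?_
    · obtain ⟨n, hn⟩ := hemp e
      refine tendsto_const_nhds.congr' ?_
      filter_upwards [eventually_ge_atTop n] with m hm
      have : e ∉ B m := fun h => hn (hB hm h)
      simp [this]
    · refine Eventually.of_forall (fun n e => ?_)
      by_cases he : e ∈ B n
      · simp [he]
      · simp [he, sq_nonneg]
  rw [tendsto_zero_iff_norm_tendsto_zero]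
  have h2 := h1.sqrt
  simp only [Real.sqrt_zero] at h2
  refine h2.congr (fun n => ?_)
  exact Real.sqrt_sq (norm_nonneg _)

/-! ### Group action -/

variable {Γ I₀ Ω : Type*} [Group Γ] [MulAction Γ E]

/-- Orthonormal edge vectors, permuted up to sign by the representation. Each projected basis vector
(for the group identity) is a multiple of an edge vector, and each edge lies in the orbit of such an edge. -/
structure EdgeRep (Γ I₀ H E : Type*) [Group Γ] [MulAction Γ E] [NormedAddCommGroup H]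
    [InnerProductSpace ℝ H] [CompleteSpace H] extends DartRep Γ I₀ H where
  /-- the edge vectors -/
  ψ : E → H
  orth : Orthonormal ℝ ψ
  sign : ∀ γ e, rep γ (ψ e) = ψ (γ • e) ∨ rep γ (ψ e) = - ψ (γ • e)
  /-- representatives -/
  e₀ : I₀ → E
  /-- coefficients -/
  c : I₀ → ℝ
  pr_b : ∀ i, pr (Wsp ψ Set.univ) (b (1, i)) = c i • ψ (e₀ i)
  c_ne : ∀ i, c i ≠ 0
  orbit : ∀ e, ∃ i, ∃ γ : Γ, e = γ • e₀ i

variable (D : EdgeRep Γ I₀ H E)

theorem span_smul (γ : Γ) (B : Set E) :
    Submodule.span ℝ (D.ψ '' (γ • B))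
      = (Submodule.span ℝ (D.ψ '' B)).map (D.rep γ).toLinearEquiv.toLinearMap := by
  apply le_antisymm
  · rw [Submodule.span_le]
    rintro _ ⟨_, ⟨e, he, rfl⟩, rfl⟩
    simp only [SetLike.mem_coe, Submodule.mem_map]
    rcases D.sign γ e with h | h
    · exact ⟨D.ψ e, Submodule.subset_span (Set.mem_image_of_mem _ he), h⟩
    · refine ⟨- D.ψ e, Submodule.neg_mem _ (Submodule.subset_span (Set.mem_image_of_mem _ he)), ?_⟩
      simp [h]
  · rw [Submodule.map_span, Submodule.span_le]
    rintro _ ⟨_, ⟨e, he, rfl⟩, rfl⟩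
    have hmem : D.ψ (γ • e) ∈ Submodule.span ℝ (D.ψ '' (γ • B)) :=
      Submodule.subset_span (Set.mem_image_of_mem _ (Set.smul_mem_smul_set he))
    rcases D.sign γ e with h | h
    · change D.rep γ (D.ψ e) ∈ _
      rw [h]
      exact hmem
    · change D.rep γ (D.ψ e) ∈ _
      rw [h]
      exact Submodule.neg_mem _ hmem

theorem pr_Wsp_smul (γ : Γ) (B : Set E) (x : H) :
    pr (Wsp D.ψ (γ • B)) x = D.rep γ (pr (Wsp D.ψ B) (D.rep γ⁻¹ x)) := by
  rw [pr_Wsp_eq, span_smul, pr_map_equiv, pr_Wsp_eq, D.toDartRep.rep_inv_apply]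

/-- Random subsets of the edges: measurable and covariant. -/
structure RSet [MeasurableSpace Ω] (act : Γ → Ω → Ω) (B : Ω → Set E) : Prop where
  meas : ∀ e, MeasurableSet {ω | e ∈ B ω}
  equiv : ∀ γ ω, B (act γ ω) = γ • B ω

namespace RSet

variable [MeasurableSpace Ω] {act : Γ → Ω → Ω} {A C : Ω → Set E}

theorem union (hA : RSet act A) (hC : RSet act C) : RSet act (fun ω => A ω ∪ C ω) where
  meas e := (hA.meas e).union (hC.meas e)
  equiv γ ω := by simp only [hA.equiv, hC.equiv, Set.smul_set_union]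

theorem inter (hA : RSet act A) (hC : RSet act C) : RSet act (fun ω => A ω ∩ C ω) where
  meas e := (hA.meas e).inter (hC.meas e)
  equiv γ ω := by simp only [hA.equiv, hC.equiv, Set.smul_set_inter]

theorem compl (hA : RSet act A) : RSet act (fun ω => (A ω)ᶜ) where
  meas e := (hA.meas e).compl
  equiv γ ω := by simp only [hA.equiv, Set.smul_set_compl]

theorem diff (hA : RSet act A) (hC : RSet act C) : RSet act (fun ω => A ω \ C ω) where
  meas e := (hA.meas e).diff (hC.meas e)
  equiv γ ω := by simp only [hA.equiv, hC.equiv, Set.smul_set_sdiff]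

end RSet

variable [MeasurableSpace Ω] {act : Γ → Ω → Ω} [Countable E]

open Classical in
/-- The projection field of a random subset is good. -/
theorem good_Wsp {B : Ω → Set E} (hB : RSet act B) :
    Good D.toDartRep act (fun ω => pr (Wsp D.ψ (B ω))) where
  meas x y := by
    refine measurable_of_hasSum' (f := fun e ω => if e ∈ B ω then ⟪D.ψ e, x⟫ * ⟪D.ψ e, y⟫ else 0) ?_
      (fun ω => hasSum_inner_pr_Wsp D.orth (B ω) x y)
    intro e
    exact Measurable.ite (hB.meas e) measurable_const measurable_const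
  bdd := ⟨1, fun ω => opNorm_pr_le _⟩
  equiv γ ω x := by
    rw [hB.equiv]
    exact pr_Wsp_smul D γ (B ω) x

/-- A closed invariant subspace gives a good constant field. -/
theorem good_const_pr {V : Submodule ℝ H} (hV : ∀ γ x, x ∈ V → D.rep γ x ∈ V) :
    Good D.toDartRep act (fun _ => pr V) := by
  refine Good.const (fun γ x => ?_)
  have hmap : V.map (D.rep γ).toLinearEquiv.toLinearMap = V := by
    apply le_antisymm
    · rintro _ ⟨v, hv, rfl⟩
      exact hV γ v hv
    · intro v hv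
      refine ⟨D.rep γ⁻¹ v, hV γ⁻¹ v hv, ?_⟩
      exact D.toDartRep.rep_rep_inv γ v
  have := pr_map_equiv V (D.rep γ) (D.rep γ x)
  rw [hmap] at this
  simpa using this

variable [Countable Γ] [Fintype I₀]

/-- `pr (Vs ..)` in terms of meets and complements. -/
theorem pr_Vs_eq (V : Submodule ℝ H) (A C : Set E) (x : H) :
    pr (Vs ψ V A C) x = pr (Wsp ψ (A ∪ C)ᶜ) x
      - pr (Wsp ψ (A ∪ C)ᶜ ⊓ (Msp ψ V A)ᗮ) x := by
  have hle : Vs ψ V A C ≤ Wsp ψ (A ∪ C)ᶜ := by
    rintro _ ⟨v, _, rfl⟩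
    have := pr_mem (Wsp ψ (A ∪ C)ᶜ) v
    rwa [Wsp_closure] at this
  have hsub : Wsp ψ (A ∪ C)ᶜ ⊓ (Msp ψ V A)ᗮ = Wsp ψ (A ∪ C)ᶜ ⊓ (Vs ψ V A C)ᗮ := by
    ext u
    simp only [Submodule.mem_inf, and_congr_right_iff]
    intro hu
    have hQ : pr (Wsp ψ (A ∪ C)ᶜ) u = u := pr_eq_self _ hu
    constructor
    · intro h
      rw [Submodule.mem_orthogonal]
      rintro _ ⟨v, hv, rfl⟩
      change ⟪pr (Wsp ψ (A ∪ C)ᶜ) v, u⟫ = 0
      rw [inner_pr_left, hQ]
      exact (Submodule.mem_orthogonal _ _).1 h v hv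
    · intro h
      rw [Submodule.mem_orthogonal]
      intro v hv
      have h1 := (Submodule.mem_orthogonal _ _).1 h (pr (Wsp ψ (A ∪ C)ᶜ) v) ⟨v, hv, rfl⟩
      rwa [inner_pr_left, hQ] at h1
  have h := pr_add_pr_inf_orthogonal hle (isClosed_Wsp ψ _) x
  rw [hsub, ← h]
  abel

/-- The conditioned projection field is good. -/
theorem good_Vs {V : Submodule ℝ H} (hV : ∀ γ x, x ∈ V → D.rep γ x ∈ V) (hVc : IsClosed (V : Set H))
    {A C : Ω → Set E} (hA : RSet act A) (hC : RSet act C) :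
    Good D.toDartRep act (fun ω => pr (Vs D.ψ V (A ω) (C ω))) := by
  have hm : Good D.toDartRep act (fun ω => pr (Msp D.ψ V (A ω))) :=
    good_pr_inf (fun _ => hVc) (fun _ => Submodule.isClosed_orthogonal _)
      (good_const_pr D hV) (good_pr_orthogonal (good_Wsp D hA))
  have hW := good_Wsp D ((hA.union hC).compl)
  have hmeet : Good D.toDartRep act
      (fun ω => pr (Wsp D.ψ (A ω ∪ C ω)ᶜ ⊓ (Msp D.ψ V (A ω))ᗮ)) :=
    good_pr_inf (fun _ => isClosed_Wsp _ _) (fun _ => Submodule.isClosed_orthogonal _) hW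
      (good_pr_orthogonal hm)
  have h := hW.sub hmeet
  convert h using 2 with ω
  ext x
  exact pr_Vs_eq V _ _ x

end Vale.Agent.Lib.P143
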