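import Vale.Agent.Lib.P143.Picard

/-!
The encoding of a Bernoulli variable and a uniform variable into a uniform variable.
-/

namespace Vale.Agent.Lib.P143

open MeasureTheory Set
open scoped ENNReal

theorem coe_Uon (p s : unitInterval) : ((Uon p s : unitInterval) : ℝ) = p * s := rfl

theorem coe_Uoff (p s : unitInterval) :
    ((Uoff p s : unitInterval) : ℝ) = 1 - (1 - p) * (1 - s) := rfl

theorem measurable_Uon_s (p : unitInterval) : Measurable (Uon p) := by
  unfold Uon
  exact (continuous_const.mul continuous_id).measurable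

theorem measurable_Uoff_s (p : unitInterval) : Measurable (Uoff p) := by
  unfold Uoff
  exact (unitInterval.continuous_symm.comp
    (continuous_const.mul unitInterval.continuous_symm)).measurable

/-- Upper set of `Uon`. -/
theorem on_ge (p q : unitInterval) :
    ENNReal.ofReal (p : ℝ) * volume {s : unitInterval | ¬ (Uon p s < q)}
      = ENNReal.ofReal ((p : ℝ) - q) := by
  have hp0 := p.2.1
  have hp1 := p.2.2
  have hq0 := q.2.1
  have hq1 := q.2.2
  rcases le_or_gt (p : ℝ) q with h | h
  · -- the set is contained in a single point, or the coefficient vanishes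
    rw [ENNReal.ofReal_of_nonpos (by linarith : (p : ℝ) - q ≤ 0)]
    rcases eq_or_lt_of_le hp0 with h0 | h0
    · rw [← h0]; simp
    · have : {s : unitInterval | ¬ (Uon p s < q)} ⊆ {1} := by
        intro s hs
        simp only [mem_ofPred_eq, not_lt, Subtype.coe_le_coe.symm, coe_Uon] at hs
        have hs1 := s.2.2
        have : (s : ℝ) = 1 := by nlinarith
        exact Subtype.ext this
      have h2 : volume {s : unitInterval | ¬ (Uon p s < q)} = 0 :=
        measure_mono_null this (by simp)
      rw [h2, mul_zero]
  · have hp : 0 < (p : ℝ) := by linarith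
    have hd0 : 0 ≤ (q : ℝ) / p := by positivity
    have hd1 : (q : ℝ) / p ≤ 1 := (div_le_one hp).2 h.le
    have : {s : unitInterval | ¬ (Uon p s < q)} = Ici (⟨(q : ℝ) / p, hd0, hd1⟩ : unitInterval) := by
      ext s
      simp only [mem_ofPred_eq, not_lt, mem_Ici, ← Subtype.coe_le_coe, coe_Uon]
      rw [div_le_iff₀ hp, mul_comm]
    rw [this, unitInterval.volume_Ici, ← ENNReal.ofReal_mul hp0]
    congr 1
    field_simp

/-- Lower set of `Uoff`. -/
theorem off_lt (p q : unitInterval) :
    ENNReal.ofReal (1 - (p : ℝ)) * volume {s : unitInterval | Uoff p s < q}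
      = ENNReal.ofReal ((q : ℝ) - p) := by
  have hp0 := p.2.1
  have hp1 := p.2.2
  have hq0 := q.2.1
  have hq1 := q.2.2
  rcases le_or_gt (q : ℝ) p with h | h
  · rw [ENNReal.ofReal_of_nonpos (by linarith : (q : ℝ) - p ≤ 0)]
    have : {s : unitInterval | Uoff p s < q} = ∅ := by
      ext s
      simp only [mem_ofPred_eq, ← Subtype.coe_lt_coe, coe_Uoff, mem_empty_iff_false, iff_false, not_lt]
      have hs0 := s.2.1
      have hs1 := s.2.2
      nlinarith [mul_nonneg (sub_nonneg.2 hp1) hs0]
    rw [this]; simp
  · have hp : 0 < 1 - (p : ℝ) := by linarith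
    have hd0 : 0 ≤ ((q : ℝ) - p) / (1 - p) := div_nonneg (by linarith) hp.le
    have hd1 : ((q : ℝ) - p) / (1 - p) ≤ 1 := (div_le_one hp).2 (by linarith)
    have : {s : unitInterval | Uoff p s < q}
        = Iio (⟨((q : ℝ) - p) / (1 - p), hd0, hd1⟩ : unitInterval) := by
      ext s
      simp only [mem_ofPred_eq, mem_Iio, ← Subtype.coe_lt_coe, coe_Uoff]
      rw [lt_div_iff₀ hp]
      constructor <;> intro h' <;> nlinarith
    rw [this, unitInterval.volume_Iio, ← ENNReal.ofReal_mul hp.le]
    congr 1
    field_simp

/-- Upper set of `Uoff`. -/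
theorem off_ge (p q : unitInterval) :
    ENNReal.ofReal (1 - (p : ℝ)) * volume {s : unitInterval | ¬ (Uoff p s < q)}
      = ENNReal.ofReal (min (1 - (p : ℝ)) (1 - q)) := by
  have hp0 := p.2.1
  have hp1 := p.2.2
  have hq0 := q.2.1
  have hq1 := q.2.2
  have hm : MeasurableSet {s : unitInterval | Uoff p s < q} :=
    measurableSet_lt (measurable_Uoff_s p) measurable_const
  have hc : {s : unitInterval | ¬ (Uoff p s < q)} = {s : unitInterval | Uoff p s < q}ᶜ := rfl
  rw [hc, measure_compl hm (by simp), measure_univ]
  have h1 : volume {s : unitInterval | Uoff p s < q} ≤ 1 := prob_le_one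
  rw [ENNReal.mul_sub (fun _ _ => ENNReal.ofReal_ne_top), mul_one, off_lt]
  rcases le_or_gt (q : ℝ) p with h | h
  · rw [ENNReal.ofReal_of_nonpos (by linarith : (q : ℝ) - p ≤ 0), tsub_zero,
      min_eq_left (by linarith)]
  · rw [min_eq_right (by linarith), ← ENNReal.ofReal_sub _ (by linarith)]
    congr 1
    ring

/-- The law of the encoding: a Bernoulli(p) variable and a uniform variable give a uniform variable. -/
theorem enc_law (p : unitInterval) (B : Set unitInterval) (hB : MeasurableSet B) :
    ENNReal.ofReal (p : ℝ) * volume {s : unitInterval | Uon p s ∈ B}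
      + ENNReal.ofReal (1 - (p : ℝ)) * volume {s : unitInterval | Uoff p s ∈ B} = volume B := by
  let m : Measure unitInterval :=
    ENNReal.ofReal (p : ℝ) • (volume.map (Uon p))
      + ENNReal.ofReal (1 - (p : ℝ)) • (volume.map (Uoff p))
  have hfin : IsFiniteMeasure m := by
    refine ⟨?_⟩
    simp only [m, Measure.add_apply, Measure.smul_apply, smul_eq_mul]
    rw [Measure.map_apply (measurable_Uon_s p) MeasurableSet.univ,
      Measure.map_apply (measurable_Uoff_s p) MeasurableSet.univ]
    exact ENNReal.add_lt_top.2 ⟨ENNReal.mul_lt_top ENNReal.ofReal_lt_top (measure_lt_top _ _),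
      ENNReal.mul_lt_top ENNReal.ofReal_lt_top (measure_lt_top _ _)⟩
  have hm : m = volume := by
    refine Measure.ext_of_Ici _ _ (fun q => ?_)
    simp only [m, Measure.add_apply, Measure.smul_apply, smul_eq_mul]
    rw [Measure.map_apply (measurable_Uon_s p) measurableSet_Ici,
      Measure.map_apply (measurable_Uoff_s p) measurableSet_Ici, unitInterval.volume_Ici]
    have e1 : (Uon p) ⁻¹' Ici q = {s : unitInterval | ¬ (Uon p s < q)} := by
      ext s; simp
    have e2 : (Uoff p) ⁻¹' Ici q = {s : unitInterval | ¬ (Uoff p s < q)} := by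
      ext s; simp
    rw [e1, e2, on_ge, off_ge]
    have hp0 := p.2.1
    have hp1 := p.2.2
    have hq0 := q.2.1
    have hq1 := q.2.2
    rcases le_or_gt (q : ℝ) p with h | h
    · rw [min_eq_left (by linarith), ← ENNReal.ofReal_add (by linarith) (by linarith)]
      congr 1; ring
    · rw [ENNReal.ofReal_of_nonpos (by linarith : (p : ℝ) - q ≤ 0), min_eq_right (by linarith),
        zero_add]
  have := congrArg (fun ν : Measure unitInterval => ν B) hm
  simp only [m, Measure.add_apply, Measure.smul_apply, smul_eq_mul] at this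
  rw [Measure.map_apply (measurable_Uon_s p) hB, Measure.map_apply (measurable_Uoff_s p) hB] at this
  exact this

/-- The disagreement probability when thresholding the encoding at `q`. -/
theorem enc_dis (p q : unitInterval) :
    ENNReal.ofReal (p : ℝ) * volume {s : unitInterval | ¬ (Uon p s < q)}
      + ENNReal.ofReal (1 - (p : ℝ)) * volume {s : unitInterval | Uoff p s < q}
      = ENNReal.ofReal |(p : ℝ) - q| := by
  rw [on_ge, off_lt]
  rcases le_or_gt (q : ℝ) p with h | h
  · rw [ENNReal.ofReal_of_nonpos (by linarith : (q : ℝ) - p ≤ 0), add_zero,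
      abs_of_nonneg (by linarith)]
  · rw [ENNReal.ofReal_of_nonpos (by linarith : (p : ℝ) - q ≤ 0), zero_add,
      abs_of_neg (by linarith)]
    congr 1; ring

end Vale.Agent.Lib.P143
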