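import Vale.Agent.Lib.P143.Edges

/-!
Gap zero and the rank Lipschitz estimate.
-/

namespace Vale.Agent.Lib.P143

open MeasureTheory Filter Topology
open scoped RealInnerProductSpace ENNReal Pointwise

variable {Γ I₀ H E Ω : Type*} [Group Γ] [MulAction Γ E] [NormedAddCommGroup H]
  [InnerProductSpace ℝ H] [CompleteSpace H] [MeasurableSpace Ω]

/-- Closed invariant complementary subspaces of the edge space. -/
structure IPair (D : EdgeRep Γ I₀ H E) (V Y : Submodule ℝ H) : Prop where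
  Vc : IsClosed (V : Set H)
  Yc : IsClosed (Y : Set H)
  Vi : ∀ γ x, x ∈ V → D.rep γ x ∈ V
  Yi : ∀ γ x, x ∈ Y → D.rep γ x ∈ Y
  orth : ∀ x ∈ V, ∀ y ∈ Y, ⟪x, y⟫ = 0
  sum : ∀ x, pr V x + pr Y x = pr (Wsp D.ψ Set.univ) x

variable {D : EdgeRep Γ I₀ H E} {V Y : Submodule ℝ H}

theorem IPair.swap (h : IPair D V Y) : IPair D Y V where
  Vc := h.Yc
  Yc := h.Vc
  Vi := h.Yi
  Yi := h.Vi
  orth x hx y hy := by rw [real_inner_comm]; exact h.orth y hy x hx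
  sum x := by rw [add_comm]; exact h.sum x

theorem IPair.V_le (h : IPair D V Y) : V ≤ Wsp D.ψ Set.univ := by
  intro x hx
  have h0 : pr Y x = 0 := pr_eq_zero_of_orthogonal _ (fun z hz => h.orth x hx z hz)
  have h1 := h.sum x
  rw [pr_eq_self V hx, h0, add_zero] at h1
  have h2 := pr_mem (Wsp D.ψ Set.univ) x
  rwa [Wsp_closure, ← h1] at h2

theorem IPair.Y_le (h : IPair D V Y) : Y ≤ Wsp D.ψ Set.univ := h.swap.V_le

omit [Group Γ] [MulAction Γ E] [MeasurableSpace Ω] [CompleteSpace H] in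
/-- Edge spans over disjoint sets are orthogonal. -/
theorem Wsp_orth {ψ : E → H} (hψ : Orthonormal ℝ ψ) {A C : Set E} (h : Disjoint A C) :
    ∀ u ∈ Wsp ψ A, ∀ x ∈ Wsp ψ C, ⟪u, x⟫ = 0 := by
  intro u hu x hx
  refine inner_Wsp_zero (ψ := ψ) (B := C) (u := u) (fun e he => ?_) x hx
  have h1 : ∀ f ∈ A, ⟪ψ e, ψ f⟫ = 0 := fun f hf =>
    hψ.2 (fun hef => Set.disjoint_left.1 h hf (hef ▸ he))
  have h2 := inner_Wsp_zero (ψ := ψ) (B := A) (u := ψ e) h1 u hu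
  rwa [real_inner_comm] at h2

/-- The projection of a good projection-like field with nonpositive trace vanishes a.e. -/
theorem ae_eq_zero_of_tr_nonpos [Countable Γ] [Fintype I₀] {R : DartRep Γ I₀ H} {act : Γ → Ω → Ω}
    {P : Measure Ω} [IsProbabilityMeasure P] (hact : ∀ γ, MeasurePreserving (act γ) P P)
    {T : Ω → H →L[ℝ] H} (hT : Good R act T) (hproj : ∀ ω x, ⟪T ω x, x⟫ = ‖T ω x‖ ^ 2)
    (htr : tr R P T ≤ 0) : ∀ᵐ ω ∂P, T ω = 0 := by
  have hnn : ∀ i, 0 ≤ ∫ ω, ⟪T ω (R.b (1, i)), R.b (1, i)⟫ ∂P := fun i =>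
    integral_nonneg (fun ω => by simp only [Pi.zero_apply, hproj]; positivity)
  have hz : ∀ i, ∫ ω, ⟪T ω (R.b (1, i)), R.b (1, i)⟫ ∂P = 0 := by
    have h1 := (Finset.sum_eq_zero_iff_of_nonneg (fun i _ => hnn i)).1
      (le_antisymm htr (Finset.sum_nonneg (fun i _ => hnn i)))
    exact fun i => h1 i (Finset.mem_univ _)
  have hae : ∀ i, ∀ᵐ ω ∂P, ‖T ω (R.b (1, i))‖ ^ 2 = 0 := by
    intro i
    have h1 := hz i
    simp_rw [hproj] at h1
    have h2 := (integral_eq_zero_iff_of_nonneg (fun ω => by positivity)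
      (by
        have := hT.integrable_inner (P := P) (R.b (1, i)) (R.b (1, i))
        simpa only [hproj] using this)).1 h1
    exact h2
  have hae2 : ∀ g i, ∀ᵐ ω ∂P, T ω (R.b (g, i)) = 0 := by
    intro g i
    have h1 := (hact g⁻¹).quasiMeasurePreserving.ae (hae i)
    filter_upwards [h1] with ω hω
    have h2 : T (act g⁻¹ ω) (R.b (1, i)) = R.rep g⁻¹ (T ω (R.b (g, i))) := by
      rw [hT.equiv, inv_inv, R.rep_b, mul_one]
    rw [h2, LinearIsometryEquiv.norm_map] at hω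
    have h3 : ‖T ω (R.b (g, i))‖ = 0 := by simpa using hω
    exact norm_eq_zero.1 h3
  have hall : ∀ᵐ ω ∂P, ∀ d : Γ × I₀, T ω (R.b d) = 0 := by
    rw [ae_all_iff]
    rintro ⟨g, i⟩
    exact hae2 g i
  filter_upwards [hall] with ω hω
  exact R.clm_ext_b (fun d => by simpa using hω d)

variable [Fintype I₀]

/-- The trace of a subspace of the edge space, computed with the edge vectors. -/
theorem tr_eq_of_le_W {P : Measure Ω} {S : Ω → Submodule ℝ H}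
    (hS : ∀ ω, S ω ≤ Wsp D.ψ Set.univ) :
    tr D.toDartRep P (fun ω => pr (S ω))
      = ∑ i, (D.c i) ^ 2 * ∫ ω, ‖pr (S ω) (D.ψ (D.e₀ i))‖ ^ 2 ∂P := by
  unfold tr
  refine Finset.sum_congr rfl (fun i _ => ?_)
  rw [← integral_const_mul]
  refine integral_congr_ae (Eventually.of_forall (fun ω => ?_))
  simp only
  rw [inner_pr_self, ← pr_comp_of_le (hS ω), D.pr_b, map_smul, norm_smul, mul_pow, Real.norm_eq_abs,
    sq_abs]

open Classical in
/-- The trace of a random edge subset. -/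
theorem tr_Wsp {P : Measure Ω} [IsProbabilityMeasure P] {act : Γ → Ω → Ω} {B : Ω → Set E}
    (hB : RSet act B) :
    tr D.toDartRep P (fun ω => pr (Wsp D.ψ (B ω)))
      = ∑ i, (D.c i) ^ 2 * (P {ω | D.e₀ i ∈ B ω}).toReal := by
  rw [tr_eq_of_le_W (fun ω => Wsp_mono _ (Set.subset_univ _))]
  refine Finset.sum_congr rfl (fun i _ => ?_)
  congr 1
  have h1 : (fun ω => ‖pr (Wsp D.ψ (B ω)) (D.ψ (D.e₀ i))‖ ^ 2)
      = Set.indicator {ω | D.e₀ i ∈ B ω} (fun _ => (1 : ℝ)) := by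
    funext ω
    by_cases he : D.e₀ i ∈ B ω
    · rw [Set.indicator_of_mem (by exact he), pr_Wsp_of_mem _ he, D.orth.1]
      simp
    · rw [Set.indicator_of_notMem (by exact he), pr_Wsp_of_notMem D.orth he]
      simp
  rw [h1, integral_indicator (hB.meas _), setIntegral_const]
  simp [Measure.real]

section pointwise

variable {ψ : E → H}

omit [Group Γ] [MulAction Γ E] [MeasurableSpace Ω] [Fintype I₀] in
theorem Msp_le_V (V : Submodule ℝ H) (A : Set E) : Msp ψ V A ≤ V := inf_le_left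

omit [Group Γ] [MulAction Γ E] [MeasurableSpace Ω] [Fintype I₀] [CompleteSpace H] in
theorem isClosed_Msp {V : Submodule ℝ H} (hV : IsClosed (V : Set H)) (A : Set E) :
    IsClosed (Msp ψ V A : Set H) :=
  isClosed_inf_orthogonal hV _

omit [Group Γ] [MulAction Γ E] [MeasurableSpace Ω] [Fintype I₀] in
/-- Vectors orthogonal to `Wsp` are those killed by its projection. -/
theorem pr_Wsp_eq_zero_iff {A : Set E} {x : H} : pr (Wsp ψ A) x = 0 ↔ x ∈ (Wsp ψ A)ᗮ := by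
  constructor
  · intro h
    have := sub_pr_mem_orthogonal (Wsp ψ A) x
    rwa [h, sub_zero] at this
  · intro h
    exact pr_eq_zero_of_orthogonal _ (fun z hz => by
      rw [real_inner_comm]; exact (Submodule.mem_orthogonal _ _).1 h z hz)

omit [Group Γ] [MulAction Γ E] [MeasurableSpace Ω] [Fintype I₀] in
theorem Vs_le (V : Submodule ℝ H) (A C : Set E) :
    (Vs ψ V A C).topologicalClosure ≤ Wsp ψ (A ∪ C)ᶜ := by
  apply Submodule.topologicalClosure_minimal _ _ (isClosed_Wsp ψ _)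
  rintro _ ⟨v, _, rfl⟩
  have := pr_mem (Wsp ψ (A ∪ C)ᶜ) v
  rwa [Wsp_closure] at this

omit [Group Γ] [MulAction Γ E] [MeasurableSpace Ω] [Fintype I₀] in
/-- Orthogonality of the two conditioned subspaces. -/
theorem Vs_orth (hψ : Orthonormal ℝ ψ) {V Y : Submodule ℝ H} (hVY : ∀ x ∈ V, ∀ y ∈ Y, ⟪x, y⟫ = 0)
    (hY : Y ≤ Wsp ψ Set.univ) {A C : Set E} (hd : Disjoint A C) :
    ∀ x ∈ Vs ψ V A C, ∀ y ∈ Vs ψ Y C A, ⟪x, y⟫ = 0 := by
  rintro _ ⟨v, hv, rfl⟩ _ ⟨u, hu, rfl⟩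
  simp only [ContinuousLinearMap.coe_coe]
  have hU : Set.union C A = A ∪ C := Set.union_comm C A
  have h0 : (C ∪ A)ᶜ = (A ∪ C)ᶜ := by rw [Set.union_comm]
  rw [h0, inner_pr_left, pr_idem]
  have h1 := Wsp_univ_eq hψ (A ∪ C) (hY hu.1)
  have h2 : pr (Wsp ψ (A ∪ C)ᶜ) u = u - pr (Wsp ψ (A ∪ C)) u := by
    exact eq_sub_of_add_eq' h1
  rw [h2, pr_Wsp_union hψ hd, inner_sub_right, hVY v hv.1 u hu.1, inner_add_right]
  have h3 : pr (Wsp ψ C) u = 0 := pr_Wsp_eq_zero_iff.2 hu.2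
  have h4 : ⟪v, pr (Wsp ψ A) u⟫ = 0 := by
    have := pr_mem (Wsp ψ A) u
    rw [Wsp_closure] at this
    rw [real_inner_comm]
    exact (Submodule.mem_orthogonal _ _).1 hv.2 _ this
  rw [h3, h4]
  simp

omit [Group Γ] [MulAction Γ E] [MeasurableSpace Ω] [Fintype I₀] in
theorem maps1 {V Y : Submodule ℝ H} (hVY : ∀ x ∈ V, ∀ y ∈ Y, ⟪x, y⟫ = 0) {A : Set E} {x : H} (hx : x ∈ V) :
    pr (Wsp ψ A) x ∈ Wsp ψ A ⊓ (Y ⊓ Wsp ψ A)ᗮ := by
  refine ⟨?_, ?_⟩
  · have := pr_mem (Wsp ψ A) x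
    rwa [Wsp_closure] at this
  · refine (Submodule.mem_orthogonal _ _).2 (fun u hu => ?_)
    rw [real_inner_comm, inner_pr_left, pr_eq_self _ hu.2]
    exact hVY x hx u hu.1

omit [Group Γ] [MulAction Γ E] [MeasurableSpace Ω] [Fintype I₀] in
theorem inj1 {V : Submodule ℝ H} {A : Set E} {x : H} (hx : x ∈ V ⊓ (Msp ψ V A)ᗮ)
    (h0 : pr (Wsp ψ A) x = 0) : x = 0 := by
  have h1 : x ∈ Msp ψ V A := ⟨hx.1, pr_Wsp_eq_zero_iff.1 h0⟩
  have h2 := (Submodule.mem_orthogonal _ _).1 hx.2 x h1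
  exact inner_self_eq_zero.1 h2

omit [Group Γ] [MulAction Γ E] [MeasurableSpace Ω] [Fintype I₀] in
theorem maps2 {V : Submodule ℝ H} {A C : Set E} {x : H} (hx : x ∈ Msp ψ V A) :
    pr (Wsp ψ (A ∪ C)ᶜ) x ∈ Vs ψ V A C :=
  ⟨x, hx, rfl⟩

omit [Group Γ] [MulAction Γ E] [MeasurableSpace Ω] [Fintype I₀] in
theorem inj2 (hψ : Orthonormal ℝ ψ) {V : Submodule ℝ H} (hV : V ≤ Wsp ψ Set.univ) {A C : Set E}
    (hd : Disjoint A C) {x : H} (hx : x ∈ Msp ψ V A ⊓ (V ⊓ Wsp ψ C)ᗮ)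
    (h0 : pr (Wsp ψ (A ∪ C)ᶜ) x = 0) : x = 0 := by
  have h1 := Wsp_univ_eq hψ (A ∪ C) (hV hx.1.1)
  rw [h0, add_zero, pr_Wsp_union hψ hd, pr_Wsp_eq_zero_iff.2 hx.1.2, zero_add] at h1
  have h2 : x ∈ V ⊓ Wsp ψ C := by
    refine ⟨hx.1.1, ?_⟩
    have := pr_mem (Wsp ψ C) x
    rwa [Wsp_closure, h1] at this
  have h3 := (Submodule.mem_orthogonal _ _).1 hx.2 x h2
  exact inner_self_eq_zero.1 h3

end pointwise

variable {act : Γ → Ω → Ω} {P : Measure Ω} [IsProbabilityMeasure P]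

/-- Subtracting a subfield. -/
theorem good_pr_sub [Countable Γ] {R : DartRep Γ I₀ H} {act : Γ → Ω → Ω}
    {S T : Ω → Submodule ℝ H} (hS : Good R act (fun ω => pr (S ω))) (hT : Good R act (fun ω => pr (T ω)))
    (hle : ∀ ω, S ω ≤ T ω) (hc : ∀ ω, IsClosed (T ω : Set H)) :
    Good R act (fun ω => pr (T ω ⊓ (S ω)ᗮ)) ∧
      ∀ P : Measure Ω, [IsProbabilityMeasure P] → tr R P (fun ω => pr (T ω ⊓ (S ω)ᗮ)) = tr R P (fun ω => pr (T ω)) - tr R P (fun ω => pr (S ω)) := by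
  have e : (fun ω => pr (T ω ⊓ (S ω)ᗮ)) = fun ω => pr (T ω) - pr (S ω) := by
    funext ω
    ext x
    have := pr_add_pr_inf_orthogonal (hle ω) (hc ω) x
    simp only [sub_apply, ← this]
    abel
  rw [e]
  exact ⟨hT.sub hS, fun P _ => tr_sub hT hS⟩

variable [Countable Γ] [Countable E]

/-- One half of the dimension count. -/
theorem dim_half (hact : ∀ γ, MeasurePreserving (act γ) P P) (h : IPair D V Y) {A C : Ω → Set E}
    (hA : RSet act A) (hC : RSet act C) (hd : ∀ ω, Disjoint (A ω) (C ω)) :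
    tr D.toDartRep P (fun _ => pr V) - tr D.toDartRep P (fun ω => pr (Wsp D.ψ (A ω)))
      + tr D.toDartRep P (fun ω => pr (Y ⊓ Wsp D.ψ (A ω)))
      - tr D.toDartRep P (fun ω => pr (V ⊓ Wsp D.ψ (C ω)))
      ≤ tr D.toDartRep P (fun ω => pr (Vs D.ψ V (A ω) (C ω))) := by
  have gV : Good D.toDartRep act (fun _ => pr V) := good_const_pr D h.Vi
  have gY : Good D.toDartRep act (fun _ => pr Y) := good_const_pr D h.Yi
  have gWA := good_Wsp D hA
  have gWC := good_Wsp D hC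
  have gM : Good D.toDartRep act (fun ω => pr (Msp D.ψ V (A ω))) :=
    good_pr_inf (fun _ => h.Vc) (fun _ => Submodule.isClosed_orthogonal _) gV (good_pr_orthogonal gWA)
  have gYA : Good D.toDartRep act (fun ω => pr (Y ⊓ Wsp D.ψ (A ω))) :=
    good_pr_inf (fun _ => h.Yc) (fun _ => isClosed_Wsp _ _) gY gWA
  have gVC : Good D.toDartRep act (fun ω => pr (V ⊓ Wsp D.ψ (C ω))) :=
    good_pr_inf (fun _ => h.Vc) (fun _ => isClosed_Wsp _ _) gV gWC
  have gVs := good_Vs D h.Vi h.Vc hA hC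
  -- step one
  obtain ⟨g1, t1⟩ := good_pr_sub gM gV (fun ω => Msp_le_V V (A ω)) (fun _ => h.Vc)
  obtain ⟨g2, t2⟩ := good_pr_sub gYA gWA (fun ω => inf_le_right) (fun _ => isClosed_Wsp _ _)
  have step1 := tr_le_of_injective (P := P) hact g1 g2 gWA
    (fun ω x hx => by
      rw [IsClosed.submodule_topologicalClosure_eq (isClosed_inf_orthogonal (isClosed_Wsp _ _) _)]
      rw [IsClosed.submodule_topologicalClosure_eq (isClosed_inf_orthogonal h.Vc _)] at hx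
      exact maps1 h.orth hx.1)
    (fun ω x hx hx0 => by
      rw [IsClosed.submodule_topologicalClosure_eq (isClosed_inf_orthogonal h.Vc _)] at hx
      exact inj1 hx hx0)
  rw [t1 P, t2 P] at step1
  -- step two
  have hle : ∀ ω, V ⊓ Wsp D.ψ (C ω) ≤ Msp D.ψ V (A ω) := by
    intro ω x hx
    refine ⟨hx.1, (Submodule.mem_orthogonal _ _).2 (fun u hu => ?_)⟩
    exact Wsp_orth D.orth (hd ω) u hu x hx.2
  obtain ⟨g3, t3⟩ := good_pr_sub gVC gM hle (fun ω => isClosed_Msp h.Vc _)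
  have step2 := tr_le_of_injective (P := P) hact g3 gVs (good_Wsp D ((hA.union hC).compl))
    (fun ω x hx => by
      rw [IsClosed.submodule_topologicalClosure_eq
        (isClosed_inf_orthogonal (isClosed_Msp h.Vc _) _)] at hx
      exact Submodule.le_topologicalClosure _ (maps2 hx.1))
    (fun ω x hx hx0 => by
      rw [IsClosed.submodule_topologicalClosure_eq
        (isClosed_inf_orthogonal (isClosed_Msp h.Vc _) _)] at hx
      exact inj2 D.orth h.V_le (hd ω) hx hx0)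
  rw [t3 P] at step2
  linarith

/-- Gap zero: the two conditioned subspaces fill up the remaining edge space, almost surely. -/
theorem gap_zero (hact : ∀ γ, MeasurePreserving (act γ) P P) (h : IPair D V Y) {A C : Ω → Set E}
    (hA : RSet act A) (hC : RSet act C) (hd : ∀ ω, Disjoint (A ω) (C ω)) :
    ∀ᵐ ω ∂P, ∀ x, pr (Vs D.ψ V (A ω) (C ω)) x + pr (Vs D.ψ Y (C ω) (A ω)) x
      = pr (Wsp D.ψ (A ω ∪ C ω)ᶜ) x := by
  have gV : Good D.toDartRep act (fun _ => pr V) := good_const_pr D h.Vi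
  have gY : Good D.toDartRep act (fun _ => pr Y) := good_const_pr D h.Yi
  have gWA := good_Wsp D hA
  have gWC := good_Wsp D hC
  have gWR := good_Wsp D ((hA.union hC).compl)
  have gWU : Good D.toDartRep act (fun ω => pr (Wsp D.ψ (A ω ∪ C ω))) := good_Wsp D (hA.union hC)
  have gVs := good_Vs D h.Vi h.Vc hA hC
  have gYs := good_Vs D h.Yi h.Yc hC hA
  have d1 := dim_half hact h hA hC hd
  have d2 := dim_half hact h.swap hC hA (fun ω => (hd ω).symm)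
  -- the total trace
  have hsum : tr D.toDartRep P (fun _ => pr V) + tr D.toDartRep P (fun _ => pr Y)
      = tr D.toDartRep P (fun ω => pr (Wsp D.ψ (A ω))) + tr D.toDartRep P (fun ω => pr (Wsp D.ψ (C ω)))
        + tr D.toDartRep P (fun ω => pr (Wsp D.ψ (A ω ∪ C ω)ᶜ)) := by
    rw [← tr_add gV gY, ← tr_add gWA gWC, ← tr_add (gWA.add gWC) gWR]
    congr 1
    funext ω
    ext x
    simp only [add_apply]
    rw [h.sum x, ← pr_Wsp_union D.orth (hd ω), ← pr_Wsp_union D.orth disjoint_compl_right,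
      Set.union_compl_self]
  -- the field of the gap
  have gT := (gWR.sub gVs).sub gYs
  have hproj : ∀ ω, ∃ G : Submodule ℝ H, pr (Wsp D.ψ (A ω ∪ C ω)ᶜ) - pr (Vs D.ψ V (A ω) (C ω))
      - pr (Vs D.ψ Y (C ω) (A ω)) = pr G := by
    intro ω
    have hle1 := pr_add_pr_inf_orthogonal (S := Vs D.ψ V (A ω) (C ω)) (T := Wsp D.ψ (A ω ∪ C ω)ᶜ)
      (((Vs D.ψ V (A ω) (C ω)).le_topologicalClosure).trans (Vs_le V _ _)) (isClosed_Wsp _ _)
    have hle2 : Vs D.ψ Y (C ω) (A ω) ≤ Wsp D.ψ (A ω ∪ C ω)ᶜ ⊓ (Vs D.ψ V (A ω) (C ω))ᗮ := by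
      intro y hy
      refine ⟨?_, (Submodule.mem_orthogonal _ _).2 (fun u hu => ?_)⟩
      · have := Vs_le (ψ := D.ψ) Y (C ω) (A ω) ((Vs D.ψ Y (C ω) (A ω)).le_topologicalClosure hy)
        rwa [Set.union_comm] at this
      · exact Vs_orth D.orth h.orth h.Y_le (hd ω) u hu y hy
    have hle3 := pr_add_pr_inf_orthogonal hle2 (isClosed_inf_orthogonal (isClosed_Wsp _ _) _)
    refine ⟨Wsp D.ψ (A ω ∪ C ω)ᶜ ⊓ (Vs D.ψ V (A ω) (C ω))ᗮ ⊓ (Vs D.ψ Y (C ω) (A ω))ᗮ, ?_⟩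
    ext x
    simp only [sub_apply]
    rw [← hle1 x, ← hle3 x]
    have : ∀ a b c : H, a + (b + c) - a - b = c := by intro a b c; abel
    exact this _ _ _
  have hae := ae_eq_zero_of_tr_nonpos (P := P) hact gT
    (fun ω x => by
      obtain ⟨G, hG⟩ := hproj ω
      simp only [hG]
      exact inner_pr_self _ _) (by
      rw [tr_sub (gWR.sub gVs) gYs, tr_sub gWR gVs]
      linarith)
  filter_upwards [hae] with ω hω x
  have h1 := congrArg (fun T : H →L[ℝ] H => T x) hω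
  simp only [sub_apply, zero_apply] at h1
  have : ∀ a b c : H, a - b - c = 0 → b + c = a := by
    intro a b c h
    rw [sub_sub, sub_eq_zero] at h
    exact h.symm
  exact this _ _ _ h1

section lipschitz

variable {ψ : E → H}

omit [Group Γ] [MulAction Γ E] [MeasurableSpace Ω] [Fintype I₀] [Countable E] [Countable Γ] in
/-- The conditioned subspace only sees the union of `A` and `C`. -/
theorem Vs_diff_eq (V : Submodule ℝ H) {A R : Set E} (h : A ⊆ R) :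
    Vs ψ V A (R \ A) = (Msp ψ V A).map (pr (Wsp ψ Rᶜ) : H →L[ℝ] H).toLinearMap := by
  unfold Vs
  rw [Set.union_sdiff_cancel h]

omit [Group Γ] [MulAction Γ E] [MeasurableSpace Ω] [Fintype I₀] [Countable E] [Countable Γ] in
theorem Msp_anti (V : Submodule ℝ H) {A B : Set E} (h : A ⊆ B) : Msp ψ V B ≤ Msp ψ V A :=
  inf_le_inf_left _ (Submodule.orthogonal_le (Wsp_mono ψ h))

omit [Group Γ] [MulAction Γ E] [MeasurableSpace Ω] [Fintype I₀] [Countable E] [Countable Γ] in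
theorem inj3 (hψ : Orthonormal ℝ ψ) {V : Submodule ℝ H} (hVc : IsClosed (V : Set H)) {A A' R : Set E}
    (hAR : A ⊆ R) (hA'R : A' ⊆ R) {v : H} (hv1 : v ∈ (Vs ψ V A (R \ A)).topologicalClosure)
    (hv2 : v ∈ (Vs ψ V (A ∪ A') (R \ (A ∪ A')))ᗮ)
    (h0 : pr (Wsp ψ (A' \ A)) (pr (Msp ψ V A) (pr (Wsp ψ Rᶜ) v)) = 0) : v = 0 := by
  have hcl : (Vs ψ V A (R \ A)).topologicalClosure ≤ Wsp ψ Rᶜ := by
    have := Vs_le (ψ := ψ) V A (R \ A)
    rwa [Set.union_sdiff_cancel hAR] at this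
  have hQ : pr (Wsp ψ Rᶜ) v = v := pr_eq_self _ (hcl hv1)
  rw [hQ] at h0
  set m := pr (Msp ψ V A) v with hm
  have hmM : m ∈ Msp ψ V A := by
    have := pr_mem (Msp ψ V A) v
    rwa [IsClosed.submodule_topologicalClosure_eq (isClosed_Msp hVc A)] at this
  have hm2 : m ∈ Msp ψ V (A ∪ A') := by
    refine ⟨hmM.1, ?_⟩
    have hU : A ∪ A' = A ∪ (A' \ A) := (Set.union_sdiff_self).symm
    rw [hU]
    apply pr_Wsp_eq_zero_iff.1
    rw [pr_Wsp_union hψ Set.disjoint_sdiff_right, h0, pr_Wsp_eq_zero_iff.2 hmM.2, add_zero]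
  have hZ : pr (Wsp ψ Rᶜ) m ∈ Vs ψ V (A ∪ A') (R \ (A ∪ A')) := by
    rw [Vs_diff_eq V (Set.union_subset hAR hA'R)]
    exact ⟨m, hm2, rfl⟩
  have h1 : ⟪pr (Wsp ψ Rᶜ) m, v⟫ = 0 := (Submodule.mem_orthogonal' _ _).1 hv2 _ hZ |> fun h => by
    rw [real_inner_comm]; exact h
  rw [inner_pr_left, hQ] at h1
  have h2 : ⟪m, v⟫ = ‖m‖ ^ 2 := inner_pr_self _ _
  rw [h2] at h1
  have hm0 : m = 0 := by
    have : ‖m‖ = 0 := by simpa using h1
    exact norm_eq_zero.1 this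
  -- so `v` is orthogonal to `Msp`
  have h3 : ∀ n ∈ Msp ψ V A, ⟪v, n⟫ = 0 := by
    intro n hn
    have h4 := sub_pr_inner (Msp ψ V A) v n hn
    rw [← hm, hm0, sub_zero] at h4
    exact h4
  have h5 : v ∈ (Vs ψ V A (R \ A))ᗮ := by
    rw [Vs_diff_eq V hAR, Submodule.mem_orthogonal']
    rintro _ ⟨n, hn, rfl⟩
    simp only [ContinuousLinearMap.coe_coe]
    rw [real_inner_comm, inner_pr_left, hQ, real_inner_comm]
    exact h3 n hn
  have h6 : v ∈ ((Vs ψ V A (R \ A)).topologicalClosure)ᗮ := by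
    rw [Submodule.orthogonal_closure]; exact h5
  have h7 := (Submodule.mem_orthogonal _ _).1 h6 v hv1
  exact inner_self_eq_zero.1 h7

end lipschitz

/-- The rank estimate for two nested pieces. -/
theorem tr_Vs_sub_le (hact : ∀ γ, MeasurePreserving (act γ) P P) (h : IPair D V Y) {A A' R : Ω → Set E}
    (hA : RSet act A) (hA' : RSet act A') (hR : RSet act R)
    (hAR : ∀ ω, A ω ⊆ R ω) (hA'R : ∀ ω, A' ω ⊆ R ω) :
    tr D.toDartRep P (fun ω => pr (Vs D.ψ V (A ω) (R ω \ A ω)))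
      - tr D.toDartRep P (fun ω => pr (Vs D.ψ V (A ω ∪ A' ω) (R ω \ (A ω ∪ A' ω))))
      ≤ tr D.toDartRep P (fun ω => pr (Wsp D.ψ (A' ω \ A ω))) := by
  have gX := good_Vs D h.Vi h.Vc hA (hR.diff hA)
  have gZ := good_Vs D h.Vi h.Vc (hA.union hA') (hR.diff (hA.union hA'))
  have gXc : Good D.toDartRep act (fun ω => pr (Vs D.ψ V (A ω) (R ω \ A ω)).topologicalClosure) := by
    simpa only [pr_topologicalClosure] using gX
  have hle : ∀ ω, Vs D.ψ V (A ω ∪ A' ω) (R ω \ (A ω ∪ A' ω))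
      ≤ (Vs D.ψ V (A ω) (R ω \ A ω)).topologicalClosure := by
    intro ω
    rw [Vs_diff_eq V (Set.union_subset (hAR ω) (hA'R ω)), Vs_diff_eq V (hAR ω)]
    refine le_trans ?_ (Submodule.le_topologicalClosure _)
    exact Submodule.map_mono (Msp_anti V Set.subset_union_left)
  obtain ⟨g1, t1⟩ := good_pr_sub gZ gXc hle (fun _ => Submodule.isClosed_topologicalClosure _)
  have gW := good_Wsp D ((hA'.diff hA))
  have gM : Good D.toDartRep act (fun ω => pr (Msp D.ψ V (A ω))) :=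
    good_pr_inf (fun _ => h.Vc) (fun _ => Submodule.isClosed_orthogonal _) (good_const_pr D h.Vi)
      (good_pr_orthogonal (good_Wsp D hA))
  have gQ := good_Wsp D hR.compl
  have gT := gW.comp (gM.comp gQ)
  have step := tr_le_of_injective (P := P) hact g1 gW gT
    (fun ω x _ => pr_mem _ _)
    (fun ω x hx hx0 => by
      rw [IsClosed.submodule_topologicalClosure_eq (isClosed_inf_orthogonal
        (Submodule.isClosed_topologicalClosure _) _)] at hx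
      exact inj3 D.orth h.Vc (hAR ω) (hA'R ω) hx.1 hx.2 hx0)
  rw [t1 P] at step
  simpa only [pr_topologicalClosure] using step

/-- Integrability of the squared norm of a projection field. -/
theorem integrable_norm_sq_pr {R : DartRep Γ I₀ H} {S : Ω → Submodule ℝ H}
    (hS : Good R act (fun ω => pr (S ω))) (x : H) :
    Integrable (fun ω => ‖pr (S ω) x‖ ^ 2) P := by
  refine Integrable.of_bound (hS.measurable_norm_sq x).aestronglyMeasurable (‖x‖ ^ 2) ?_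
  refine Eventually.of_forall (fun ω => ?_)
  rw [Real.norm_of_nonneg (by positivity)]
  exact pow_le_pow_left₀ (norm_nonneg _) (norm_pr_le _ _) 2

/-- The rank Lipschitz estimate. -/
theorem rank_lipschitz (hact : ∀ γ, MeasurePreserving (act γ) P P) (h : IPair D V Y)
    {A A' R : Ω → Set E} (hA : RSet act A) (hA' : RSet act A') (hR : RSet act R)
    (hAR : ∀ ω, A ω ⊆ R ω) (hA'R : ∀ ω, A' ω ⊆ R ω) :
    ∑ i, (D.c i) ^ 2 * ∫ ω, |pe D.ψ V (A ω) (R ω \ A ω) (D.e₀ i)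
        - pe D.ψ V (A' ω) (R ω \ A' ω) (D.e₀ i)| ∂P
      ≤ ∑ i, (D.c i) ^ 2 * (P {ω | D.e₀ i ∈ symmDiff (A ω) (A' ω)}).toReal := by
  have gX1 := good_Vs D h.Vi h.Vc hA (hR.diff hA)
  have gX2 := good_Vs D h.Vi h.Vc hA' (hR.diff hA')
  have gZ := good_Vs D h.Vi h.Vc (hA.union hA') (hR.diff (hA.union hA'))
  have s1 := tr_Vs_sub_le hact h hA hA' hR hAR hA'R
  have s2 := tr_Vs_sub_le hact h hA' hA hR hA'R hAR
  have eZ : ∀ ω, A' ω ∪ A ω = A ω ∪ A' ω := fun ω => Set.union_comm _ _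
  simp only [eZ] at s2
  have hleW : ∀ (B C : Set E), Vs D.ψ V B C ≤ Wsp D.ψ Set.univ := by
    intro B C
    exact ((Vs D.ψ V B C).le_topologicalClosure).trans ((Vs_le V B C).trans (Wsp_mono _ (Set.subset_univ _)))
  rw [tr_eq_of_le_W (fun ω => hleW _ _), tr_eq_of_le_W (fun ω => hleW _ _), tr_Wsp (hA'.diff hA)] at s1
  rw [tr_eq_of_le_W (fun ω => hleW _ _), tr_eq_of_le_W (fun ω => hleW _ _), tr_Wsp (hA.diff hA')] at s2
  have key : ∀ i, (D.c i) ^ 2 * ∫ ω, |pe D.ψ V (A ω) (R ω \ A ω) (D.e₀ i)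
        - pe D.ψ V (A' ω) (R ω \ A' ω) (D.e₀ i)| ∂P
      ≤ ((D.c i) ^ 2 * ∫ ω, ‖pr (Vs D.ψ V (A ω) (R ω \ A ω)) (D.ψ (D.e₀ i))‖ ^ 2 ∂P
        - (D.c i) ^ 2 * ∫ ω, ‖pr (Vs D.ψ V (A ω ∪ A' ω) (R ω \ (A ω ∪ A' ω))) (D.ψ (D.e₀ i))‖ ^ 2 ∂P)
      + ((D.c i) ^ 2 * ∫ ω, ‖pr (Vs D.ψ V (A' ω) (R ω \ A' ω)) (D.ψ (D.e₀ i))‖ ^ 2 ∂P
        - (D.c i) ^ 2 * ∫ ω, ‖pr (Vs D.ψ V (A ω ∪ A' ω) (R ω \ (A ω ∪ A' ω))) (D.ψ (D.e₀ i))‖ ^ 2 ∂P) := by
    intro i
    rw [← mul_sub, ← mul_sub, ← mul_add]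
    refine mul_le_mul_of_nonneg_left ?_ (sq_nonneg _)
    have i1 := integrable_norm_sq_pr (P := P) gX1 (D.ψ (D.e₀ i))
    have i2 := integrable_norm_sq_pr (P := P) gX2 (D.ψ (D.e₀ i))
    have i3 := integrable_norm_sq_pr (P := P) gZ (D.ψ (D.e₀ i))
    have i13 : Integrable (fun ω => ‖pr (Vs D.ψ V (A ω) (R ω \ A ω)) (D.ψ (D.e₀ i))‖ ^ 2
        - ‖pr (Vs D.ψ V (A ω ∪ A' ω) (R ω \ (A ω ∪ A' ω))) (D.ψ (D.e₀ i))‖ ^ 2) P := i1.sub i3
    have i23 : Integrable (fun ω => ‖pr (Vs D.ψ V (A' ω) (R ω \ A' ω)) (D.ψ (D.e₀ i))‖ ^ 2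
        - ‖pr (Vs D.ψ V (A ω ∪ A' ω) (R ω \ (A ω ∪ A' ω))) (D.ψ (D.e₀ i))‖ ^ 2) P := i2.sub i3
    rw [← integral_sub i1 i3, ← integral_sub i2 i3, ← integral_add i13 i23]
    refine integral_mono_of_nonneg ?_ (i13.add i23) ?_
    · exact Eventually.of_forall (fun ω => abs_nonneg _)
    · refine Eventually.of_forall (fun ω => ?_)
      simp only [Pi.add_apply, Pi.sub_apply]
      unfold pe
      have hZ1 : ‖pr (Vs D.ψ V (A ω ∪ A' ω) (R ω \ (A ω ∪ A' ω))) (D.ψ (D.e₀ i))‖ ^ 2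
          ≤ ‖pr (Vs D.ψ V (A ω) (R ω \ A ω)) (D.ψ (D.e₀ i))‖ ^ 2 := by
        refine pow_le_pow_left₀ (norm_nonneg _) ?_ 2
        have hle : Vs D.ψ V (A ω ∪ A' ω) (R ω \ (A ω ∪ A' ω)) ≤ Vs D.ψ V (A ω) (R ω \ A ω) := by
          rw [Vs_diff_eq V (Set.union_subset (hAR ω) (hA'R ω)), Vs_diff_eq V (hAR ω)]
          exact Submodule.map_mono (Msp_anti V Set.subset_union_left)
        rw [← pr_comp_of_le hle]
        exact norm_pr_le _ _
      have hZ2 : ‖pr (Vs D.ψ V (A ω ∪ A' ω) (R ω \ (A ω ∪ A' ω))) (D.ψ (D.e₀ i))‖ ^ 2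
          ≤ ‖pr (Vs D.ψ V (A' ω) (R ω \ A' ω)) (D.ψ (D.e₀ i))‖ ^ 2 := by
        refine pow_le_pow_left₀ (norm_nonneg _) ?_ 2
        have hle : Vs D.ψ V (A ω ∪ A' ω) (R ω \ (A ω ∪ A' ω)) ≤ Vs D.ψ V (A' ω) (R ω \ A' ω) := by
          rw [Vs_diff_eq V (Set.union_subset (hAR ω) (hA'R ω)), Vs_diff_eq V (hA'R ω)]
          exact Submodule.map_mono (Msp_anti V Set.subset_union_right)
        rw [← pr_comp_of_le hle]
        exact norm_pr_le _ _
      rw [abs_le]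
      constructor <;> linarith
  refine (Finset.sum_le_sum (fun i _ => key i)).trans ?_
  rw [Finset.sum_add_distrib, Finset.sum_sub_distrib, Finset.sum_sub_distrib]
  have e3 : ∑ i, (D.c i) ^ 2 * (P {ω | D.e₀ i ∈ symmDiff (A ω) (A' ω)}).toReal
      = ∑ i, (D.c i) ^ 2 * (P {ω | D.e₀ i ∈ A' ω \ A ω}).toReal
        + ∑ i, (D.c i) ^ 2 * (P {ω | D.e₀ i ∈ A ω \ A' ω}).toReal := by
    rw [← Finset.sum_add_distrib]
    refine Finset.sum_congr rfl (fun i _ => ?_)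
    rw [← mul_add]
    congr 1
    have hd : Disjoint {ω | D.e₀ i ∈ A' ω \ A ω} {ω | D.e₀ i ∈ A ω \ A' ω} := by
      rw [Set.disjoint_left]
      rintro ω ⟨h1, h2⟩ ⟨h3, _⟩
      exact h2 h3
    have hU : {ω | D.e₀ i ∈ symmDiff (A ω) (A' ω)}
        = {ω | D.e₀ i ∈ A' ω \ A ω} ∪ {ω | D.e₀ i ∈ A ω \ A' ω} := by
      ext ω
      simp only [Set.mem_ofPred_eq, Set.mem_union, Set.mem_symmDiff, Set.mem_sdiff]
      tauto
    rw [hU, measure_union hd ((hA.diff hA').meas _),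
      ENNReal.toReal_add (measure_ne_top _ _) (measure_ne_top _ _)]
  rw [e3]
  linarith

end Vale.Agent.Lib.P143
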