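import Vale.Agent.Lib.P143.Defs
import Vale.Agent.Lib.P161.Kernel

/-!
Independent uniform labels on the edges of a Cayley graph, as an equivariant factor of independent
uniform labels on the vertices.
-/

namespace Vale.Agent.Lib.P143

open MeasureTheory unitInterval

/-! ### Mixing two uniform variables symmetrically -/

/-- The class of a point of the unit interval in the circle. -/
noncomputable def lblToC (u : I) : UnitAddCircle := ((u : ℝ) : UnitAddCircle)

/-- The representative in `(0, 1]` of a point of the circle. -/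
noncomputable def lblFromC (c : UnitAddCircle) : I :=
  ⟨((AddCircle.equivIoc (1 : ℝ) 0 c : Set.Ioc (0 : ℝ) (0 + 1)) : ℝ), by
    have h := (AddCircle.equivIoc (1 : ℝ) 0 c).2
    exact ⟨h.1.le, by simpa using h.2⟩⟩

/-- The sum modulo one, with values in `(0, 1]`. -/
noncomputable def lblMix (x y : I) : I := lblFromC (lblToC x + lblToC y)

lemma lblMix_comm (x y : I) : lblMix x y = lblMix y x := by
  unfold lblMix
  rw [add_comm]

lemma measurable_lblMk : Measurable (fun x : ℝ => (x : UnitAddCircle)) :=
  (AddCircle.measurePreserving_mk (1 : ℝ) 0).measurable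

lemma measurable_lblToC : Measurable lblToC :=
  measurable_lblMk.comp measurable_subtype_coe

lemma measurable_lblFromC : Measurable lblFromC := by
  have h : Measurable fun c : UnitAddCircle =>
      ((AddCircle.measurableEquivIoc (1 : ℝ) 0 c : Set.Ioc (0 : ℝ) (0 + 1)) : ℝ) :=
    measurable_subtype_coe.comp (AddCircle.measurableEquivIoc (1 : ℝ) 0).measurable
  exact h.subtype_mk

lemma lblFromC_toC {u : I} (hu : 0 < (u : ℝ)) : lblFromC (lblToC u) = u := by
  apply Subtype.ext
  have h : (u : ℝ) ∈ Set.Ioc (0 : ℝ) (0 + 1) := ⟨hu, by simpa using u.2.2⟩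
  change ((AddCircle.equivIoc (1 : ℝ) 0 ((u : ℝ) : AddCircle (1 : ℝ)) :
    Set.Ioc (0 : ℝ) (0 + 1)) : ℝ) = u
  rw [AddCircle.equivIoc_coe_eq h]

lemma mp_lblToC : MeasurePreserving lblToC (volume : Measure I) (volume : Measure UnitAddCircle) := by
  refine ⟨measurable_lblToC, ?_⟩
  have h1 : Measure.map (Subtype.val : I → ℝ) (volume : Measure I)
      = (volume : Measure ℝ).restrict (Set.Ioc 0 (0 + 1)) := by
    have h2 : (Set.Ioc (0 : ℝ) (0 + 1)) =ᵐ[volume] Set.Icc (0 : ℝ) 1 := by
      simpa using (Ioc_ae_eq_Icc (a := (0 : ℝ)) (b := 1) (μ := volume))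
    rw [Measure.restrict_congr_set h2]
    exact map_comap_subtype_coe measurableSet_Icc _
  have h3 : lblToC = (fun x : ℝ => (x : UnitAddCircle)) ∘ (Subtype.val : I → ℝ) := rfl
  rw [h3, ← Measure.map_map measurable_lblMk measurable_subtype_coe, h1]
  exact (UnitAddCircle.measurePreserving_mk 0).map_eq

lemma mp_lblFromC :
    MeasurePreserving lblFromC (volume : Measure UnitAddCircle) (volume : Measure I) := by
  refine ⟨measurable_lblFromC, ?_⟩
  rw [← mp_lblToC.map_eq, Measure.map_map measurable_lblFromC measurable_lblToC]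
  have h : lblFromC ∘ lblToC =ᵐ[(volume : Measure I)] id := by
    filter_upwards [Vale.Agent.Lib.P161.ker_ae_inn] with u hu
    exact lblFromC_toC hu.1
  rw [Measure.map_congr h, Measure.map_id]

lemma mp_lblMix : MeasurePreserving (fun p : I × I => lblMix p.1 p.2)
    ((volume : Measure I).prod (volume : Measure I)) (volume : Measure I) := by
  have h1 : MeasurePreserving (fun p : I × I => (lblToC p.1, lblToC p.2))
      ((volume : Measure I).prod (volume : Measure I))
      ((volume : Measure UnitAddCircle).prod (volume : Measure UnitAddCircle)) :=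
    mp_lblToC.prod mp_lblToC
  have h2 := measurePreserving_prod_add (volume : Measure UnitAddCircle) (volume : Measure UnitAddCircle)
  haveI : IsProbabilityMeasure (volume : Measure UnitAddCircle) := ⟨UnitAddCircle.measure_univ⟩
  have h3 := measurePreserving_snd (μ := (volume : Measure UnitAddCircle)) (ν := (volume : Measure UnitAddCircle))
  exact (mp_lblFromC.comp h3).comp (h2.comp h1)

lemma mp_lblMix_pi : MeasurePreserving (fun p : Fin 2 → I => lblMix (p 0) (p 1))
    (Measure.infinitePi fun _ : Fin 2 => (volume : Measure I)) (volume : Measure I) := by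
  rw [Measure.infinitePi_eq_pi]
  exact mp_lblMix.comp (measurePreserving_piFinTwo (α := fun _ => I) (fun _ => (volume : Measure I)))

/-! ### Subfamilies of independent families -/

lemma mp_reindex {ι κ : Type*} (φ : κ → ι) (hφ : Function.Injective φ) :
    MeasurePreserving (fun (b : ι → I) (k : κ) => b (φ k))
      (Measure.infinitePi fun _ : ι => (volume : Measure I))
      (Measure.infinitePi fun _ : κ => (volume : Measure I)) := by
  classical
  have hm : Measurable (fun (b : ι → I) (k : κ) => b (φ k)) :=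
    measurable_pi_lambda _ fun k => measurable_pi_apply _
  refine ⟨hm, ?_⟩
  refine Measure.eq_infinitePi _ fun s t ht => ?_
  rw [Measure.map_apply hm (MeasurableSet.pi (Finset.countable_toSet s) fun i _ => ht i)]
  set t' : ι → Set I := Function.extend φ t (fun _ => Set.univ) with ht'
  have ht'φ : ∀ k, t' (φ k) = t k := fun k => hφ.extend_apply _ _ k
  have hset : (fun (b : ι → I) (k : κ) => b (φ k)) ⁻¹' (Set.pi (s : Set κ) t)
      = Set.pi ((s.image φ : Finset ι) : Set ι) t' := by
    ext b
    simp only [Set.mem_preimage, Set.mem_pi, Finset.mem_coe, Finset.mem_image]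
    constructor
    · rintro h _ ⟨k, hk, rfl⟩
      rw [ht'φ]
      exact h k hk
    · intro h k hk
      have := h (φ k) ⟨k, hk, rfl⟩
      rwa [ht'φ] at this
  have hmt' : ∀ i, MeasurableSet (t' i) := by
    intro i
    by_cases hi : ∃ k, φ k = i
    · obtain ⟨k, rfl⟩ := hi
      rw [ht'φ]
      exact ht k
    · rw [ht', Function.extend_apply' _ _ _ hi]
      exact MeasurableSet.univ
  rw [hset, Measure.infinitePi_pi _ (fun i _ => hmt' i), Finset.prod_image (fun a _ b _ h => hφ h)]
  exact Finset.prod_congr rfl fun k _ => by rw [ht'φ]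

variable {Γ : Type*} [Group Γ]

/-- The label on the dart from `g` to `h`. -/
def lblDart (Θ : I → (Γ × Fin 2 → I)) (U : Γ → I) (j : Fin 2) (g h : Γ) : I :=
  Θ (U g) (g⁻¹ * h, j)

/-- The label on an edge: the symmetric mix of the labels of its two darts. -/
noncomputable def lblEdge (S : Set Γ) (Θ : I → (Γ × Fin 2 → I)) (U : Γ → I) (j : Fin 2)
    (e : (cayley S).edgeSet) : I :=
  Sym2.lift ⟨fun g h => lblMix (lblDart Θ U j g h) (lblDart Θ U j h g),
    fun g h => lblMix_comm _ _⟩ e.1

/-- The first end of a chosen orientation of an edge. -/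
noncomputable def lblP (S : Set Γ) (e : (cayley S).edgeSet) : Γ := (Quot.out e.1).1

/-- The second end of a chosen orientation of an edge. -/
noncomputable def lblQ (S : Set Γ) (e : (cayley S).edgeSet) : Γ := (Quot.out e.1).2

lemma lbl_rep (S : Set Γ) (e : (cayley S).edgeSet) : s(lblP S e, lblQ S e) = e.1 :=
  Quot.out_eq e.1

lemma lbl_ne (S : Set Γ) (e : (cayley S).edgeSet) : lblP S e ≠ lblQ S e := by
  have h := e.2
  rw [← lbl_rep S e, SimpleGraph.mem_edgeSet] at h
  exact h.ne

lemma lblEdge_eq (S : Set Γ) (Θ : I → (Γ × Fin 2 → I)) (U : Γ → I) (j : Fin 2)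
    (e : (cayley S).edgeSet) :
    lblEdge S Θ U j e = lblMix (lblDart Θ U j (lblP S e) (lblQ S e))
      (lblDart Θ U j (lblQ S e) (lblP S e)) := by
  unfold lblEdge
  rw [← lbl_rep S e]
  rfl

/-- The darts used by the labels. -/
noncomputable def lblφ (S : Set Γ) (k : (Fin 2 × (cayley S).edgeSet) × Fin 2) : Γ × (Γ × Fin 2) :=
  if k.2 = 0 then (lblP S k.1.2, ((lblP S k.1.2)⁻¹ * lblQ S k.1.2, k.1.1))
  else (lblQ S k.1.2, ((lblQ S k.1.2)⁻¹ * lblP S k.1.2, k.1.1))

lemma lblφ_inj (S : Set Γ) : Function.Injective (lblφ S) := by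
  rintro ⟨⟨j, e⟩, b⟩ ⟨⟨j', e'⟩, b'⟩ h
  have key : ∀ (j : Fin 2) (e : (cayley S).edgeSet) (b : Fin 2),
      s((lblφ S ((j, e), b)).1, (lblφ S ((j, e), b)).1 * (lblφ S ((j, e), b)).2.1) = e.1
        ∧ (lblφ S ((j, e), b)).2.2 = j := by
    intro j e b
    by_cases hb : b = 0
    · simp only [lblφ, hb, if_true, mul_inv_cancel_left]
      exact ⟨lbl_rep S e, trivial⟩
    · simp only [lblφ, hb, if_false, mul_inv_cancel_left]
      exact ⟨by rw [Sym2.eq_swap]; exact lbl_rep S e, trivial⟩
  have h1 := key j e b
  have h2 := key j' e' b'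
  rw [h] at h1
  have he : e = e' := Subtype.ext (h1.1.symm.trans h2.1)
  have hj : j = j' := h1.2.symm.trans h2.2
  subst he hj
  have hb : b = b' := by
    by_contra hne
    have hc : lblP S e = lblQ S e := by
      by_cases hb0 : b = 0
      · have hb1 : b' ≠ 0 := fun h0 => hne (hb0.trans h0.symm)
        simp only [lblφ, hb0, hb1, if_true, if_false, Prod.mk.injEq] at h
        exact h.1
      · have hb1 : b' = 0 := by omega
        simp only [lblφ, hb0, hb1, if_true, if_false, Prod.mk.injEq] at h
        exact h.1.symm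
    exact lbl_ne S e hc
  rw [hb]

variable [Countable Γ]

lemma mp_lblDarts (Θ : I → (Γ × Fin 2 → I)) (hΘ : Measurable Θ)
    (hΘ' : Measure.map Θ (volume : Measure I)
      = Measure.infinitePi fun _ : Γ × Fin 2 => (volume : Measure I)) :
    MeasurePreserving (fun (U : Γ → I) (i : Γ × (Γ × Fin 2)) => Θ (U i.1) i.2)
      (Measure.infinitePi fun _ : Γ => (volume : Measure I))
      (Measure.infinitePi fun _ : Γ × (Γ × Fin 2) => (volume : Measure I)) := by
  refine ⟨?_, ?_⟩
  · exact measurable_pi_lambda _ fun i =>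
      (measurable_pi_apply i.2).comp (hΘ.comp (measurable_pi_apply i.1))
  · have e : (fun (U : Γ → I) (i : Γ × (Γ × Fin 2)) => Θ (U i.1) i.2) =
        (MeasurableEquiv.curry Γ (Γ × Fin 2) I).symm ∘ (fun U v => Θ (U v)) := rfl
    have hm : Measurable (fun (U : Γ → I) (v : Γ) => Θ (U v)) :=
      measurable_pi_lambda _ fun v => hΘ.comp (measurable_pi_apply v)
    rw [e, ← Measure.map_map (MeasurableEquiv.measurable _) hm]
    rw [Measure.infinitePi_map_pi (μ := fun _ : Γ => (volume : Measure I))
      (f := fun _ => Θ) (fun _ => hΘ)]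
    simp only [hΘ']
    exact Measure.infinitePi_map_curry_symm (fun _ _ => (volume : Measure I))

/-- Independent uniform labels (two per edge) as an equivariant factor of independent uniform labels
on the vertices. -/
theorem exists_edge_labels {Γ : Type*} [Group Γ] [Countable Γ] (S : Set Γ) :
    ∃ L : (Γ → unitInterval) → ((cayley S).edgeSet → unitInterval) × ((cayley S).edgeSet → unitInterval),
      Measurable L ∧
      (∀ (γ : Γ) (U : Γ → unitInterval), L (fun v => U (γ⁻¹ * v))
        = (fun e => (L U).1 (γ⁻¹ • e), fun e => (L U).2 (γ⁻¹ • e))) ∧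
      MeasurePreserving L (Measure.infinitePi fun _ : Γ => (volume : Measure unitInterval))
        ((Measure.infinitePi fun _ : (cayley S).edgeSet => (volume : Measure unitInterval)).prod
         (Measure.infinitePi fun _ : (cayley S).edgeSet => (volume : Measure unitInterval))) := by
  obtain ⟨Θ, hΘ, hΘ'⟩ := Vale.Agent.Lib.P161.exists_param
    (Measure.infinitePi fun _ : Γ × Fin 2 => (volume : Measure I))
  let E := (cayley S).edgeSet
  have h1 := mp_lblDarts Θ hΘ hΘ'
  have h2 := mp_reindex (lblφ S) (lblφ_inj S)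
  have h3 : MeasurePreserving (MeasurableEquiv.curry (Fin 2 × E) (Fin 2) I)
      (Measure.infinitePi fun _ : (Fin 2 × E) × Fin 2 => (volume : Measure I))
      (Measure.infinitePi fun _ : Fin 2 × E => Measure.infinitePi fun _ : Fin 2 => (volume : Measure I)) :=
    ⟨(MeasurableEquiv.curry (Fin 2 × E) (Fin 2) I).measurable,
      Measure.infinitePi_map_curry (fun _ _ => (volume : Measure I))⟩
  have h4 : MeasurePreserving
      (fun (x : Fin 2 × E → Fin 2 → I) (k : Fin 2 × E) => lblMix (x k 0) (x k 1))
      (Measure.infinitePi fun _ : Fin 2 × E => Measure.infinitePi fun _ : Fin 2 => (volume : Measure I))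
      (Measure.infinitePi fun _ : Fin 2 × E => (volume : Measure I)) := by
    have hmix : Measurable (fun p : Fin 2 → I => lblMix (p 0) (p 1)) := mp_lblMix_pi.measurable
    refine ⟨measurable_pi_lambda _ fun k => hmix.comp (measurable_pi_apply k), ?_⟩
    have := Measure.infinitePi_map_pi
      (μ := fun _ : Fin 2 × E => Measure.infinitePi fun _ : Fin 2 => (volume : Measure I))
      (f := fun _ (p : Fin 2 → I) => lblMix (p 0) (p 1)) (fun _ => hmix)
    rw [this]
    simp only [mp_lblMix_pi.map_eq]
  have h5 : MeasurePreserving (MeasurableEquiv.curry (Fin 2) E I)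
      (Measure.infinitePi fun _ : Fin 2 × E => (volume : Measure I))
      (Measure.infinitePi fun _ : Fin 2 => Measure.infinitePi fun _ : E => (volume : Measure I)) :=
    ⟨(MeasurableEquiv.curry (Fin 2) E I).measurable,
      Measure.infinitePi_map_curry (fun _ _ => (volume : Measure I))⟩
  have h6 : MeasurePreserving (MeasurableEquiv.piFinTwo fun _ : Fin 2 => (E → I))
      (Measure.infinitePi fun _ : Fin 2 => Measure.infinitePi fun _ : E => (volume : Measure I))
      ((Measure.infinitePi fun _ : E => (volume : Measure I)).prod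
        (Measure.infinitePi fun _ : E => (volume : Measure I))) := by
    rw [Measure.infinitePi_eq_pi]
    exact measurePreserving_piFinTwo (α := fun _ : Fin 2 => (E → I))
      (fun _ => Measure.infinitePi fun _ : E => (volume : Measure I))
  have hall := h6.comp (h5.comp (h4.comp (h3.comp (h2.comp h1))))
  have hL : (fun U : Γ → I => (lblEdge S Θ U 0, lblEdge S Θ U 1))
      = (MeasurableEquiv.piFinTwo fun _ : Fin 2 => (E → I)) ∘ (MeasurableEquiv.curry (Fin 2) E I) ∘
        (fun (x : Fin 2 × E → Fin 2 → I) (k : Fin 2 × E) => lblMix (x k 0) (x k 1)) ∘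
        (MeasurableEquiv.curry (Fin 2 × E) (Fin 2) I) ∘
        (fun (b : Γ × (Γ × Fin 2) → I) (k : (Fin 2 × E) × Fin 2) => b (lblφ S k)) ∘
        (fun (U : Γ → I) (i : Γ × (Γ × Fin 2)) => Θ (U i.1) i.2) := by
    funext U
    refine Prod.ext ?_ ?_
    · funext e
      simp only [lblEdge_eq]
      rfl
    · funext e
      simp only [lblEdge_eq]
      rfl
  refine ⟨fun U => (lblEdge S Θ U 0, lblEdge S Θ U 1), ?_, ?_, ?_⟩
  · rw [hL]
    exact hall.measurable
  · intro γ U
    refine Prod.ext ?_ ?_
    all_goals
      funext e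
      obtain ⟨e, he⟩ := e
      induction e using Sym2.ind with
      | _ g h =>
        have hk : ∀ a b : Γ, (γ⁻¹ * a)⁻¹ * (γ⁻¹ * b) = a⁻¹ * b := fun a b => by group
        change lblMix _ _ = lblMix _ _
        simp only [lblDart, hk, Prod.map_fst, Prod.map_snd]
  · rw [hL]
    exact hall

end Vale.Agent.Lib.P143
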