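import Vale.Agent.Lib.P143.Cond

/-!
Conditioning on one more edge, and the limit of conditional probabilities along an exhaustion.
-/

namespace Vale.Agent.Lib.P143

open MeasureTheory Filter Topology
open scoped RealInnerProductSpace ENNReal Pointwise

variable {H E : Type*} [NormedAddCommGroup H] [InnerProductSpace ℝ H] [CompleteSpace H]
variable {ψ : E → H}

/-- Closed orthogonal complementary subspaces of the edge space on `S`. -/
structure FPair (ψ : E → H) (S : Set E) (V Y : Submodule ℝ H) : Prop where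
  Vc : IsClosed (V : Set H)
  Yc : IsClosed (Y : Set H)
  orth : ∀ x ∈ V, ∀ y ∈ Y, ⟪x, y⟫ = 0
  sum : ∀ x, pr V x + pr Y x = pr (Wsp ψ S) x

theorem FPair.swap {S : Set E} {V Y : Submodule ℝ H} (h : FPair ψ S V Y) : FPair ψ S Y V where
  Vc := h.Yc
  Yc := h.Vc
  orth x hx y hy := by rw [real_inner_comm]; exact h.orth y hy x hx
  sum x := by rw [add_comm]; exact h.sum x

theorem FPair.V_le {S : Set E} {V Y : Submodule ℝ H} (h : FPair ψ S V Y) : V ≤ Wsp ψ S := by
  intro x hx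
  have h0 : pr Y x = 0 := pr_eq_zero_of_orthogonal _ (fun z hz => h.orth x hx z hz)
  have h1 := h.sum x
  rw [pr_eq_self V hx, h0, add_zero] at h1
  have h2 := pr_mem (Wsp ψ S) x
  rwa [Wsp_closure, ← h1] at h2

theorem FPair.Y_le {S : Set E} {V Y : Submodule ℝ H} (h : FPair ψ S V Y) : Y ≤ Wsp ψ S :=
  h.swap.V_le

/-- Gap zero on `S` at `(A, C)`. -/
def GapOn (ψ : E → H) (S : Set E) (V Y : Submodule ℝ H) (A C : Set E) : Prop :=
  ∀ x, pr (Vs ψ V A C) x + pr (Vs ψ Y C A) x = pr (Wsp ψ (S \ (A ∪ C))) x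

theorem GapOn.symm {S : Set E} {V Y : Submodule ℝ H} {A C : Set E} (h : GapOn ψ S V Y A C) :
    GapOn ψ S Y V C A := by
  intro x
  rw [Set.union_comm C A, add_comm]
  exact h x

/-! ### One more edge -/

omit [CompleteSpace H] in
theorem mem_Msp_insert {V : Submodule ℝ H} {A : Set E} {e : E} {v : H} (hv : v ∈ Msp ψ V A)
    (h : ⟪v, ψ e⟫ = 0) : v ∈ Msp ψ V (insert e A) := by
  refine ⟨hv.1, (Submodule.mem_orthogonal _ _).2 (fun u hu => ?_)⟩
  rw [real_inner_comm]
  refine inner_Wsp_zero (u := v) (B := insert e A) (fun f hf => ?_) u hu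
  rcases hf with rfl | hf
  · exact h
  · have := (Submodule.mem_orthogonal _ _).1 hv.2 (ψ f) (mem_Wsp ψ hf)
    rwa [real_inner_comm] at this

omit [CompleteSpace H] in
theorem inner_of_mem_Msp_insert {V : Submodule ℝ H} {A : Set E} {e : E} {v : H}
    (hv : v ∈ Msp ψ V (insert e A)) : ⟪v, ψ e⟫ = 0 := by
  have := (Submodule.mem_orthogonal _ _).1 hv.2 (ψ e) (mem_Wsp ψ (Set.mem_insert _ _))
  rwa [real_inner_comm] at this

/-- Taking one more edge out of the complement does not change the projection of a vector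
orthogonal to that edge. -/
theorem pr_compl_insert (hψ : Orthonormal ℝ ψ) {R : Set E} {e : E} (he : e ∉ R) {v : H}
    (hv : ⟪v, ψ e⟫ = 0) : pr (Wsp ψ (insert e R)ᶜ) v = pr (Wsp ψ Rᶜ) v := by
  have hU : (insert e R)ᶜ ∪ {e} = Rᶜ := by
    ext f
    simp only [Set.mem_union, Set.mem_compl_iff, Set.mem_insert_iff, Set.mem_singleton_iff, not_or]
    constructor
    · rintro (h | rfl)
      · exact h.2
      · exact he
    · intro h
      by_cases hf : f = e
      · exact Or.inr hf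
      · exact Or.inl ⟨hf, h⟩
  have hd : Disjoint (insert e R)ᶜ {e} := by
    rw [Set.disjoint_left]
    rintro f hf rfl
    exact hf (Set.mem_insert _ _)
  rw [← hU, pr_Wsp_union hψ hd]
  have h0 : pr (Wsp ψ {e}) v = 0 := by
    apply pr_eq_zero_of_orthogonal
    refine inner_Wsp_zero (u := v) (B := {e}) (fun f hf => ?_)
    rw [Set.mem_singleton_iff] at hf
    rw [hf]
    exact hv
  rw [h0, add_zero]

theorem inner_pr_compl_self {R : Set E} {e : E} (he : e ∉ R) (v : H) :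
    ⟪pr (Wsp ψ Rᶜ) v, ψ e⟫ = ⟪v, ψ e⟫ := by
  rw [inner_pr_left, pr_Wsp_of_mem _ (Set.mem_compl he)]

/-- A vector of the closure of `Vs ψ V A C` orthogonal to `ψ e` lies in the closure of the subspace
conditioned on one more open edge. -/
theorem mem_closure_Vs_insert (hψ : Orthonormal ℝ ψ) {V : Submodule ℝ H} {A C : Set E} {e : E}
    (he : e ∉ A ∪ C) {u : H} (hu : u ∈ (Vs ψ V A C).topologicalClosure) (hue : ⟪u, ψ e⟫ = 0) :
    u ∈ (Vs ψ V (insert e A) C).topologicalClosure := by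
  have hR' : insert e A ∪ C = insert e (A ∪ C) := Set.insert_union
  by_cases hall : ∀ v ∈ Msp ψ V A, ⟪v, ψ e⟫ = 0
  · have hle : Vs ψ V A C ≤ Vs ψ V (insert e A) C := by
      rintro _ ⟨v, hv, rfl⟩
      refine ⟨v, mem_Msp_insert hv (hall v hv), ?_⟩
      simp only [ContinuousLinearMap.coe_coe]
      rw [hR']
      exact pr_compl_insert hψ he (hall v hv)
    exact Submodule.topologicalClosure_mono hle hu
  · push Not at hall
    obtain ⟨v₀, hv₀, hβ⟩ := hall
    set β : ℝ := ⟪v₀, ψ e⟫ with hβdef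
    set Q : H →L[ℝ] H := pr (Wsp ψ (A ∪ C)ᶜ) with hQ
    let T : H → H := fun w => w - (⟪w, ψ e⟫ / β) • Q v₀
    have hT : Continuous T := by
      simp only [T]
      fun_prop
    have hmaps : Set.MapsTo T (Vs ψ V A C : Set H) (Vs ψ V (insert e A) C : Set H) := by
      rintro _ ⟨v, hv, rfl⟩
      simp only [ContinuousLinearMap.coe_coe]
      have e1 : ⟪Q v, ψ e⟫ = ⟪v, ψ e⟫ := inner_pr_compl_self he v
      set v' : H := v - (⟪v, ψ e⟫ / β) • v₀ with hv'
      have hv'M : v' ∈ Msp ψ V A :=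
        Submodule.sub_mem _ hv (Submodule.smul_mem _ _ hv₀)
      have hv'e : ⟪v', ψ e⟫ = 0 := by
        rw [hv', inner_sub_left, real_inner_smul_left, ← hβdef]
        field_simp
        ring
      refine ⟨v', mem_Msp_insert hv'M hv'e, ?_⟩
      simp only [ContinuousLinearMap.coe_coe]
      rw [hR', pr_compl_insert hψ he hv'e]
      simp only [T]
      rw [e1, hv', map_sub, map_smul]
    have h1 : T u ∈ closure (Vs ψ V (insert e A) C : Set H) :=
      map_mem_closure hT hu hmaps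
    have h2 : T u = u := by
      simp only [T]
      rw [hue]
      simp
    rw [h2] at h1
    exact h1

/-- Conditioning on an open edge: the projection formula. -/
theorem pr_Vs_insert_open (hψ : Orthonormal ℝ ψ) {V : Submodule ℝ H} {A C : Set E} {e : E}
    (he : e ∉ A ∪ C) (ha : pr (Vs ψ V A C) (ψ e) ≠ 0) (x : H) :
    pr (Vs ψ V (insert e A) C) x = pr (Vs ψ V A C) x
      - (⟪pr (Vs ψ V A C) (ψ e), x⟫ / ‖pr (Vs ψ V A C) (ψ e)‖ ^ 2) • pr (Vs ψ V A C) (ψ e) := by
  have hR' : insert e A ∪ C = insert e (A ∪ C) := Set.insert_union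
  set P : H →L[ℝ] H := pr (Vs ψ V A C) with hP
  set a : H := P (ψ e) with ha'
  have hane : ‖a‖ ^ 2 ≠ 0 := pow_ne_zero 2 (norm_ne_zero_iff.2 ha)
  have hae : ⟪a, ψ e⟫ = ‖a‖ ^ 2 := inner_pr_self _ _
  apply pr_eq_of
  · apply mem_closure_Vs_insert hψ he
    · exact Submodule.sub_mem _ (pr_mem _ _) (Submodule.smul_mem _ _ (pr_mem _ _))
    · have h1 : ⟪P x, ψ e⟫ = ⟪x, a⟫ := inner_pr_left _ _ _
      rw [inner_sub_left, real_inner_smul_left, hae, h1, real_inner_comm]
      field_simp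
      ring
  · rintro _ ⟨v, hv, rfl⟩
    simp only [ContinuousLinearMap.coe_coe]
    have hve : ⟪v, ψ e⟫ = 0 := inner_of_mem_Msp_insert hv
    rw [hR', pr_compl_insert hψ he hve]
    set z : H := pr (Wsp ψ (A ∪ C)ᶜ) v with hz
    have hzM : z ∈ Vs ψ V A C := ⟨v, Msp_anti V (Set.subset_insert _ _) hv, rfl⟩
    have hze : ⟪ψ e, z⟫ = 0 := by
      rw [real_inner_comm, hz, inner_pr_compl_self he]
      exact hve
    have h2 : ⟪a, z⟫ = 0 := by
      rw [ha', hP, inner_pr_left, pr_eq_self _ hzM]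
      exact hze
    have h3 : ⟪x - P x, z⟫ = 0 := sub_pr_inner _ _ _ hzM
    have h4 : x - (P x - (⟪a, x⟫ / ‖a‖ ^ 2) • a) = (x - P x) + (⟪a, x⟫ / ‖a‖ ^ 2) • a := by abel
    rw [h4, inner_add_left, h3, real_inner_smul_left, h2]
    simp

/-! ### Gap zero propagates -/

/-- A vector of `Wsp ψ S` is projected to `Wsp ψ (S ∩ B)` by the projection on `Wsp ψ B`. -/
theorem pr_Wsp_of_mem_Wsp (hψ : Orthonormal ℝ ψ) {S B : Set E} {v : H} (hv : v ∈ Wsp ψ S) :
    pr (Wsp ψ B) v = pr (Wsp ψ (S ∩ B)) v := by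
  apply pr_eq_of
  · rw [Wsp_closure]
    have := pr_mem (Wsp ψ (S ∩ B)) v
    rw [Wsp_closure] at this
    exact Wsp_mono ψ Set.inter_subset_right this
  · intro z hz
    have h1 : v = pr (Wsp ψ (S ∩ B)) v + pr (Wsp ψ (S \ B)) v := by
      rw [← pr_Wsp_union hψ (Set.disjoint_left.2 (fun f hf hf' => hf'.2 hf.2)),
        Set.inter_union_sdiff, pr_eq_self _ hv]
    have h2 : v - pr (Wsp ψ (S ∩ B)) v = pr (Wsp ψ (S \ B)) v := by
      nth_rewrite 1 [h1]
      abel
    rw [h2]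
    have h3 := pr_mem (Wsp ψ (S \ B)) v
    rw [Wsp_closure] at h3
    exact Wsp_orth hψ (Set.disjoint_left.2 (fun f hf hf' => hf.2 hf')) _ h3 _ hz

theorem Vs_le_S (hψ : Orthonormal ℝ ψ) {S : Set E} {V : Submodule ℝ H} (hV : V ≤ Wsp ψ S)
    (A C : Set E) : Vs ψ V A C ≤ Wsp ψ (S \ (A ∪ C)) := by
  rintro _ ⟨v, hv, rfl⟩
  simp only [ContinuousLinearMap.coe_coe]
  rw [pr_Wsp_of_mem_Wsp hψ (hV hv.1), ← Set.sdiff_eq]
  have := pr_mem (Wsp ψ (S \ (A ∪ C))) v
  rwa [Wsp_closure] at this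

/-- Orthogonality of the two conditioned subspaces (no disjointness needed). -/
theorem Vs_orth' (hψ : Orthonormal ℝ ψ) {V Y : Submodule ℝ H} (hVY : ∀ x ∈ V, ∀ y ∈ Y, ⟪x, y⟫ = 0)
    (hY : Y ≤ Wsp ψ Set.univ) (A C : Set E) :
    ∀ x ∈ Vs ψ V A C, ∀ y ∈ Vs ψ Y C A, ⟪x, y⟫ = 0 := by
  rintro _ ⟨v, hv, rfl⟩ _ ⟨u, hu, rfl⟩
  simp only [ContinuousLinearMap.coe_coe]
  have h0 : (C ∪ A)ᶜ = (A ∪ C)ᶜ := by rw [Set.union_comm]
  rw [h0, inner_pr_left, pr_idem]
  have h1 := Wsp_univ_eq hψ (A ∪ C) (hY hu.1)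
  have h2 : pr (Wsp ψ (A ∪ C)ᶜ) u = u - pr (Wsp ψ (A ∪ C)) u := eq_sub_of_add_eq' h1
  have hU : A ∪ C = A ∪ (C \ A) := by rw [Set.union_sdiff_self]
  have hd : Disjoint A (C \ A) := Set.disjoint_left.2 (fun f hf hf' => hf'.2 hf)
  rw [h2, hU, pr_Wsp_union hψ hd, inner_sub_right, hVY v hv.1 u hu.1, inner_add_right]
  have h3 : pr (Wsp ψ (C \ A)) u = 0 := by
    apply pr_eq_zero_of_orthogonal
    intro z hz
    rw [real_inner_comm]
    exact (Submodule.mem_orthogonal _ _).1 hu.2 z (Wsp_mono ψ Set.sdiff_subset hz)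
  have h4 : ⟪v, pr (Wsp ψ A) u⟫ = 0 := by
    have := pr_mem (Wsp ψ A) u
    rw [Wsp_closure] at this
    rw [real_inner_comm]
    exact (Submodule.mem_orthogonal _ _).1 hv.2 _ this
  rw [h3, h4]
  simp

/-- Recognising a sum of two orthogonal projections. -/
theorem pr_add_eq {V₁ Y₁ W : Submodule ℝ H} (hW : IsClosed (W : Set H)) (hV : V₁ ≤ W) (hY : Y₁ ≤ W)
    (horth : ∀ x ∈ V₁, ∀ y ∈ Y₁, ⟪x, y⟫ = 0)
    (hcomp : ∀ x ∈ W, (∀ z ∈ V₁, ⟪x, z⟫ = 0) → (∀ z ∈ Y₁, ⟪x, z⟫ = 0) → x = 0) (x : H) :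
    pr V₁ x + pr Y₁ x = pr W x := by
  have hWc : W.topologicalClosure = W := IsClosed.submodule_topologicalClosure_eq hW
  have h1 : pr V₁ x ∈ W :=
    Submodule.topologicalClosure_minimal _ hV hW (pr_mem V₁ x)
  have h2 : pr Y₁ x ∈ W :=
    Submodule.topologicalClosure_minimal _ hY hW (pr_mem Y₁ x)
  have h3 : pr W x ∈ W := by
    have := pr_mem W x
    rwa [hWc] at this
  set w : H := pr W x - (pr V₁ x + pr Y₁ x) with hw
  have hwW : w ∈ W := W.sub_mem h3 (W.add_mem h1 h2)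
  have hw0 : w = 0 := by
    apply hcomp w hwW
    · intro z hz
      have e1 : ⟪pr W x, z⟫ = ⟪x, z⟫ := by rw [inner_pr_left, pr_eq_self W (hV hz)]
      have e2 : ⟪pr V₁ x, z⟫ = ⟪x, z⟫ := by rw [inner_pr_left, pr_eq_self V₁ hz]
      have e3 : ⟪pr Y₁ x, z⟫ = 0 := by
        rw [inner_pr_left, pr_eq_zero_of_orthogonal Y₁ (fun u hu => horth z hz u hu), inner_zero_right]
      rw [hw, inner_sub_left, inner_add_left, e1, e2, e3]
      simp
    · intro z hz
      have e1 : ⟪pr W x, z⟫ = ⟪x, z⟫ := by rw [inner_pr_left, pr_eq_self W (hY hz)]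
      have e2 : ⟪pr Y₁ x, z⟫ = ⟪x, z⟫ := by rw [inner_pr_left, pr_eq_self Y₁ hz]
      have e3 : ⟪pr V₁ x, z⟫ = 0 := by
        rw [inner_pr_left, pr_eq_zero_of_orthogonal V₁
          (fun u hu => by rw [real_inner_comm]; exact horth u hu z hz), inner_zero_right]
      rw [hw, inner_sub_left, inner_add_left, e1, e2, e3]
      simp
  rw [hw] at hw0
  exact (sub_eq_zero.1 hw0).symm

/-- Gap zero propagates when an edge is declared open. -/
theorem GapOn.insert_open (hψ : Orthonormal ℝ ψ) {S : Set E} {V Y : Submodule ℝ H} (hP : FPair ψ S V Y)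
    {A C : Set E} {e : E} (he : e ∈ S) (he' : e ∉ A ∪ C) (hg : GapOn ψ S V Y A C) :
    GapOn ψ S V Y (insert e A) C := by
  have hYu : Y ≤ Wsp ψ Set.univ := hP.Y_le.trans (Wsp_mono ψ (Set.subset_univ _))
  have hR' : insert e A ∪ C = insert e (A ∪ C) := Set.insert_union
  intro x
  refine pr_add_eq (isClosed_Wsp ψ _) (Vs_le_S hψ hP.V_le _ _) ?_ (Vs_orth' hψ hP.orth hYu _ _) ?_ x
  · have := Vs_le_S hψ hP.Y_le C (insert e A)
    rwa [Set.union_comm] at this
  · intro u hu hu1 hu2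
    have hsub : S \ (insert e A ∪ C) ⊆ S \ (A ∪ C) :=
      Set.sdiff_subset_sdiff_right (Set.union_subset_union_left _ (Set.subset_insert _ _))
    have hu' : u ∈ Wsp ψ (S \ (A ∪ C)) := Wsp_mono ψ hsub hu
    have hue : ⟪u, ψ e⟫ = 0 := by
      have hne : ∀ f ∈ S \ (insert e A ∪ C), ⟪ψ e, ψ f⟫ = 0 := fun f hf =>
        hψ.2 (fun h => hf.2 (h ▸ Or.inl (Set.mem_insert _ _)))
      rw [real_inner_comm]
      exact inner_Wsp_zero hne u hu
    have hucompl : u ∈ Wsp ψ (C ∪ insert e A)ᶜ := by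
      refine Wsp_mono ψ (fun f hf => ?_) hu
      rw [Set.union_comm]
      exact hf.2
    have hucompl2 : u ∈ Wsp ψ (C ∪ A)ᶜ := by
      refine Wsp_mono ψ (fun f hf => ?_) hu'
      rw [Set.union_comm]
      exact hf.2
    have h1 : pr (Vs ψ Y C A) u = 0 := by
      apply pr_eq_zero_of_orthogonal
      rintro _ ⟨y, hy, rfl⟩
      simp only [ContinuousLinearMap.coe_coe]
      have e1 : ⟪u, pr (Wsp ψ (C ∪ A)ᶜ) y⟫ = ⟪u, y⟫ := by
        rw [← inner_pr_left, pr_eq_self _ hucompl2]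
      have e2 : ⟪u, pr (Wsp ψ (C ∪ insert e A)ᶜ) y⟫ = ⟪u, y⟫ := by
        rw [← inner_pr_left, pr_eq_self _ hucompl]
      rw [e1, ← e2]
      exact hu2 _ ⟨y, hy, rfl⟩
    have h2 := hg u
    rw [h1, add_zero, pr_eq_self _ hu'] at h2
    have h3 : u ∈ (Vs ψ V A C).topologicalClosure := by
      rw [← h2]
      exact pr_mem _ _
    have h4 := mem_closure_Vs_insert hψ he' h3 hue
    have h5 := pr_eq_self_of_mem_closure _ h4
    rw [pr_eq_zero_of_orthogonal _ hu1] at h5
    exact h5.symm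

omit [CompleteSpace H] in
theorem Msp_empty {V : Submodule ℝ H} : Msp ψ V ∅ = V := by
  apply inf_eq_left.2
  intro v _
  rw [Submodule.mem_orthogonal]
  intro u hu
  rw [real_inner_comm]
  exact inner_Wsp_zero (u := v) (B := ∅) (fun f hf => absurd hf (Set.notMem_empty f)) u hu

theorem Vs_empty {V : Submodule ℝ H} (hV : V ≤ Wsp ψ Set.univ) : Vs ψ V ∅ ∅ = V := by
  have hQ : ∀ v ∈ V, pr (Wsp ψ ((∅ : Set E) ∪ ∅)ᶜ) v = v := by
    intro v hv
    rw [Set.union_empty, Set.compl_empty]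
    exact pr_eq_self _ (hV hv)
  apply le_antisymm
  · rintro _ ⟨v, hv, rfl⟩
    rw [Msp_empty] at hv
    simp only [SetLike.mem_coe] at hv
    simp only [ContinuousLinearMap.coe_coe]
    rw [hQ v hv]
    exact hv
  · intro v hv
    refine ⟨v, ?_, hQ v hv⟩
    rw [Msp_empty]
    exact hv

/-- Gap zero holds for finite patterns. -/
theorem gapOn_finset (hψ : Orthonormal ℝ ψ) {S : Set E} {V Y : Submodule ℝ H} (hP : FPair ψ S V Y)
    (A C : Finset E) (hA : (A : Set E) ⊆ S) (hC : (C : Set E) ⊆ S) (hd : Disjoint A C) :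
    GapOn ψ S V Y A C := by
  classical
  have hu : Wsp ψ S ≤ Wsp ψ Set.univ := Wsp_mono ψ (Set.subset_univ _)
  have base : GapOn ψ S V Y ∅ ∅ := by
    intro x
    rw [Vs_empty (hP.V_le.trans hu), Vs_empty (hP.Y_le.trans hu)]
    simpa using hP.sum x
  have step1 : ∀ A : Finset E, (A : Set E) ⊆ S → GapOn ψ S V Y A ∅ := by
    intro A
    induction A using Finset.induction_on with
    | empty =>
      intro _
      simpa using base
    | insert e A he ih =>
      intro hA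
      rw [Finset.coe_insert] at hA
      have h1 := Set.insert_subset_iff.1 hA
      have h2 := GapOn.insert_open hψ hP (A := A) (C := ∅) h1.1 (by simpa using he) (ih h1.2)
      rw [Finset.coe_insert]
      exact h2
  have step2 : ∀ C : Finset E, (C : Set E) ⊆ S → Disjoint A C → GapOn ψ S V Y A C := by
    intro C
    induction C using Finset.induction_on with
    | empty =>
      intro _ _
      simpa using step1 A hA
    | insert e C he ih =>
      intro hC hd
      rw [Finset.coe_insert] at hC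
      have h1 := Set.insert_subset_iff.1 hC
      have hd' : Disjoint A C := hd.mono_right (Finset.subset_insert _ _)
      have heA : e ∉ A := fun h =>
        (Finset.disjoint_left.1 hd h) (Finset.mem_insert_self _ _)
      have h2 := GapOn.insert_open hψ hP.swap (A := C) (C := A) h1.1
        (by simp [he, heA]) (ih h1.2 hd').symm
      rw [Finset.coe_insert]
      exact h2.symm
  exact step2 C hC hd

/-- The two conditional probabilities add up to one. -/
theorem pe_add_pe (hψ : Orthonormal ℝ ψ) {S : Set E} {V Y : Submodule ℝ H} (hP : FPair ψ S V Y)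
    {A C : Set E} {e : E} (he : e ∈ S) (he' : e ∉ A ∪ C) (hg : GapOn ψ S V Y A C) :
    pe ψ V A C e + pe ψ Y C A e = 1 := by
  have hYu : Y ≤ Wsp ψ Set.univ := hP.Y_le.trans (Wsp_mono ψ (Set.subset_univ _))
  have h1 := hg (ψ e)
  rw [pr_Wsp_of_mem _ (show e ∈ S \ (A ∪ C) from ⟨he, he'⟩)] at h1
  have h2 : ⟪pr (Vs ψ V A C) (ψ e), pr (Vs ψ Y C A) (ψ e)⟫ = 0 := by
    rw [real_inner_comm, inner_pr_left,
      pr_add_pr_of_isOrtho (Vs_orth' hψ hP.orth hYu A C) (ψ e), inner_zero_right]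
  have h3 := norm_add_sq_real (pr (Vs ψ V A C) (ψ e)) (pr (Vs ψ Y C A) (ψ e))
  rw [h1, hψ.1 e, h2] at h3
  unfold pe
  linarith

theorem pr_Wsp_diff (hψ : Orthonormal ℝ ψ) {S R : Set E} (h : R ⊆ S) (x : H) :
    pr (Wsp ψ (S \ R)) x = pr (Wsp ψ S) x - pr (Wsp ψ R) x := by
  have hd : Disjoint (S \ R) R := Set.disjoint_left.2 (fun f hf hf' => hf.2 hf')
  have h1 := pr_Wsp_union hψ hd x
  rw [Set.sdiff_union_of_subset h] at h1
  rw [h1]
  abel

/-! ### The limit along an exhaustion -/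

/-- The standing assumptions of the limit theorem. -/
structure LimData (ψ : E → H) (Sn : ℕ → Set E) (Vn Yn : ℕ → Submodule ℝ H) (V Y : Submodule ℝ H) :
    Prop where
  hψ : Orthonormal ℝ ψ
  hS : Monotone Sn
  hSU : ∀ e, ∃ n, e ∈ Sn n
  hPn : ∀ n, FPair ψ (Sn n) (Vn n) (Yn n)
  hP : FPair ψ Set.univ V Y
  hW : ∀ x, Tendsto (fun n => pr (Wsp ψ (Sn n)) x) atTop (𝓝 (pr (Wsp ψ Set.univ) x))

section lim

variable {Sn : ℕ → Set E} {Vn Yn : ℕ → Submodule ℝ H} {V Y : Submodule ℝ H}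

theorem LimData.swap (D : LimData ψ Sn Vn Yn V Y) : LimData ψ Sn Yn Vn Y V where
  hψ := D.hψ
  hS := D.hS
  hSU := D.hSU
  hPn n := (D.hPn n).swap
  hP := D.hP.swap
  hW := D.hW

theorem LimData.ev (D : LimData ψ Sn Vn Yn V Y) (F : Finset E) :
    ∀ᶠ n in atTop, (F : Set E) ⊆ Sn n := by
  have h : ∀ᶠ n in atTop, ∀ f ∈ F, f ∈ Sn n := by
    rw [Filter.eventually_all_finset]
    intro f _
    obtain ⟨n, hn⟩ := D.hSU f
    filter_upwards [eventually_ge_atTop n] with m hm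
    exact D.hS hm hn
  filter_upwards [h] with n hn f hf
  exact hn f hf

theorem LimData.ev1 (D : LimData ψ Sn Vn Yn V Y) (e : E) : ∀ᶠ n in atTop, e ∈ Sn n := by
  obtain ⟨n, hn⟩ := D.hSU e
  filter_upwards [eventually_ge_atTop n] with m hm
  exact D.hS hm hn

/-- One open edge: strong convergence of both conditioned projections. -/
theorem LimData.step (D : LimData ψ Sn Vn Yn V Y) {A C : Finset E} {e : E} (hd : Disjoint A C)
    (he : e ∉ A) (he' : e ∉ C)
    (hV : ∀ x, Tendsto (fun n => pr (Vs ψ (Vn n) A C) x) atTop (𝓝 (pr (Vs ψ V A C) x)))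
    (ha : pr (Vs ψ V A C) (ψ e) ≠ 0) :
    (∀ x, Tendsto (fun n => pr (Vs ψ (Vn n) (insert e (A : Set E)) C) x) atTop
      (𝓝 (pr (Vs ψ V (insert e (A : Set E)) C) x))) ∧
    (∀ x, Tendsto (fun n => pr (Vs ψ (Yn n) C (insert e (A : Set E))) x) atTop
      (𝓝 (pr (Vs ψ Y C (insert e (A : Set E))) x))) := by
  classical
  have hψ := D.hψ
  have heR : e ∉ (A : Set E) ∪ C := by simpa using ⟨he, he'⟩
  have hfirst : ∀ x, Tendsto (fun n => pr (Vs ψ (Vn n) (insert e (A : Set E)) C) x) atTop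
      (𝓝 (pr (Vs ψ V (insert e (A : Set E)) C) x)) := by
    intro x
    have ha_t := hV (ψ e)
    have hev : ∀ᶠ n in atTop, pr (Vs ψ (Vn n) A C) (ψ e) ≠ 0 := ha_t.eventually_ne ha
    have hn : ‖pr (Vs ψ V A C) (ψ e)‖ ^ 2 ≠ 0 := pow_ne_zero 2 (norm_ne_zero_iff.2 ha)
    have hlim := (hV x).sub
      (((ha_t.inner (tendsto_const_nhds (x := x))).div (ha_t.norm.pow 2) hn).smul ha_t)
    rw [pr_Vs_insert_open hψ heR ha x]
    refine hlim.congr' ?_
    filter_upwards [hev] with n hn'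
    exact (pr_Vs_insert_open hψ heR hn' x).symm
  refine ⟨hfirst, ?_⟩
  intro x
  set R' : Set E := insert e (A : Set E) ∪ C with hR'
  have hF : ((insert e A : Finset E) : Set E) = insert e (A : Set E) := Finset.coe_insert _ _
  have hdF : Disjoint (insert e A) C := by
    rw [Finset.disjoint_insert_left]
    exact ⟨he', hd⟩
  have hlim1 : Tendsto (fun n => pr (Wsp ψ (Sn n)) x - pr (Wsp ψ R') x - pr (Vs ψ (Vn n) (insert e (A : Set E)) C) x)
      atTop (𝓝 (pr (Wsp ψ Set.univ) x - pr (Wsp ψ R') x - pr (Vs ψ V (insert e (A : Set E)) C) x)) :=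
    ((D.hW x).sub tendsto_const_nhds).sub (hfirst x)
  have hg : GapOn ψ Set.univ V Y (insert e (A : Set E)) C := by
    have := gapOn_finset hψ D.hP (insert e A) C (Set.subset_univ _) (Set.subset_univ _) hdF
    rwa [hF] at this
  have hval : pr (Vs ψ Y C (insert e (A : Set E))) x
      = pr (Wsp ψ Set.univ) x - pr (Wsp ψ R') x - pr (Vs ψ V (insert e (A : Set E)) C) x := by
    have h1 := hg x
    rw [pr_Wsp_diff hψ (Set.subset_univ _)] at h1
    rw [← h1]
    abel
  rw [hval]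
  refine hlim1.congr' ?_
  filter_upwards [D.ev (insert e A), D.ev C] with n hn1 hn2
  have hg' : GapOn ψ (Sn n) (Vn n) (Yn n) (insert e (A : Set E)) C := by
    have := gapOn_finset hψ (D.hPn n) (insert e A) C hn1 hn2 hdF
    rwa [hF] at this
  have h1 := hg' x
  have hsub : R' ⊆ Sn n := by
    rw [hF] at hn1
    exact Set.union_subset hn1 hn2
  rw [pr_Wsp_diff hψ hsub] at h1
  rw [← h1]
  abel

/-- The recursion for a sequence of pattern weights, one more factor `pe`. -/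
theorem LimData.step2 (D : LimData ψ Sn Vn Yn V Y) {A C : Finset E} {e : E} (hd : Disjoint A C)
    (he : e ∉ A) (he' : e ∉ C) {σ σ' : ℕ → ℝ} {r : ℝ} (hσ : Tendsto σ atTop (𝓝 r))
    (hs : ∀ᶠ n in atTop, σ' n = σ n * pe ψ (Vn n) A C e)
    (hstr : r ≠ 0 → ∀ x, Tendsto (fun n => pr (Vs ψ (Vn n) A C) x) atTop (𝓝 (pr (Vs ψ V A C) x))) :
    Tendsto σ' atTop (𝓝 (r * pe ψ V A C e)) ∧
    (r * pe ψ V A C e ≠ 0 →
      (∀ x, Tendsto (fun n => pr (Vs ψ (Vn n) (insert e (A : Set E)) C) x) atTop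
        (𝓝 (pr (Vs ψ V (insert e (A : Set E)) C) x))) ∧
      (∀ x, Tendsto (fun n => pr (Vs ψ (Yn n) C (insert e (A : Set E))) x) atTop
        (𝓝 (pr (Vs ψ Y C (insert e (A : Set E))) x)))) := by
  by_cases hr : r = 0
  · subst hr
    refine ⟨?_, fun h => absurd (by simp) h⟩
    rw [zero_mul]
    have h1 : Tendsto (fun n => ‖σ n‖) atTop (𝓝 0) := by simpa using hσ.norm
    refine squeeze_zero_norm' ?_ h1
    filter_upwards [hs] with n hn
    rw [hn, norm_mul]
    have h2 : ‖pe ψ (Vn n) A C e‖ ≤ 1 := by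
      rw [Real.norm_eq_abs, abs_of_nonneg (pe_nonneg _ _ _ _)]
      exact pe_le_one D.hψ _ _ _ _
    exact mul_le_of_le_one_right (norm_nonneg _) h2
  · have h1 : Tendsto (fun n => pe ψ (Vn n) A C e) atTop (𝓝 (pe ψ V A C e)) := by
      unfold pe
      exact ((hstr hr (ψ e)).norm).pow 2
    refine ⟨(hσ.mul h1).congr' ?_, fun h => ?_⟩
    · filter_upwards [hs] with n hn
      exact hn.symm
    · have hp : pe ψ V A C e ≠ 0 := right_ne_zero_of_mul h
      have ha : pr (Vs ψ V A C) (ψ e) ≠ 0 := by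
        intro h0
        apply hp
        unfold pe
        rw [h0]
        simp
      exact D.step hd he he' (hstr hr) ha

end lim

open Classical in
/-- The limit of patterns along an exhaustion. -/
theorem exists_limit_rule (hψ : Orthonormal ℝ ψ) {Sn : ℕ → Set E} (hS : Monotone Sn) (hSU : ∀ e, ∃ n, e ∈ Sn n)
    {Vn Yn : ℕ → Submodule ℝ H} {V Y : Submodule ℝ H} (hPn : ∀ n, FPair ψ (Sn n) (Vn n) (Yn n))
    (hP : FPair ψ Set.univ V Y)
    (hV : ∀ x, Tendsto (fun n => pr (Vn n) x) atTop (𝓝 (pr V x)))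
    (hY : ∀ x, Tendsto (fun n => pr (Yn n) x) atTop (𝓝 (pr Y x)))
    (hW : ∀ x, Tendsto (fun n => pr (Wsp ψ (Sn n)) x) atTop (𝓝 (pr (Wsp ψ Set.univ) x)))
    (ρn : ℕ → Finset E → Finset E → ℝ)
    (h0 : ∀ n, ρn n ∅ ∅ = 1)
    (hopen : ∀ n (A C : Finset E) (e : E), (A : Set E) ⊆ Sn n → (C : Set E) ⊆ Sn n → e ∈ Sn n →
      Disjoint A C → e ∉ A → e ∉ C → ρn n (insert e A) C = ρn n A C * pe ψ (Vn n) A C e)
    (hclosed : ∀ n (A C : Finset E) (e : E), (A : Set E) ⊆ Sn n → (C : Set E) ⊆ Sn n → e ∈ Sn n →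
      Disjoint A C → e ∉ A → e ∉ C → ρn n A (insert e C) = ρn n A C * (1 - pe ψ (Vn n) A C e)) :
    ∃ ρ : Finset E → Finset E → ℝ, ρ ∅ ∅ = 1 ∧
      (∀ A C : Finset E, Disjoint A C → Tendsto (fun n => ρn n A C) atTop (𝓝 (ρ A C))) ∧
      (∀ (A C : Finset E) (e : E), Disjoint A C → e ∉ A → e ∉ C → ρ (insert e A) C = ρ A C * pe ψ V A C e) ∧
      (∀ (A C : Finset E) (e : E), Disjoint A C → e ∉ A → e ∉ C → ρ A (insert e C) = ρ A C * (1 - pe ψ V A C e)) := by
  have D : LimData ψ Sn Vn Yn V Y := ⟨hψ, hS, hSU, hPn, hP, hW⟩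
  -- the convergence statement
  let Conv : Finset E → Finset E → ℝ → Prop := fun A C r =>
    Tendsto (fun n => ρn n A C) atTop (𝓝 r) ∧
      (r ≠ 0 → (∀ x, Tendsto (fun n => pr (Vs ψ (Vn n) A C) x) atTop (𝓝 (pr (Vs ψ V A C) x))) ∧
        (∀ x, Tendsto (fun n => pr (Vs ψ (Yn n) C A) x) atTop (𝓝 (pr (Vs ψ Y C A) x))))
  have hsub : ∀ (A C : Finset E) (e : E), ∀ᶠ n in atTop,
      (A : Set E) ⊆ Sn n ∧ (C : Set E) ⊆ Sn n ∧ e ∈ Sn n := by
    intro A C e
    filter_upwards [D.ev A, D.ev C, D.ev1 e] with n h1 h2 h3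
    exact ⟨h1, h2, h3⟩
  have hO : ∀ (A C : Finset E) (e : E) (r : ℝ), Disjoint A C → e ∉ A → e ∉ C → Conv A C r →
      Conv (insert e A) C (r * pe ψ V A C e) := by
    intro A C e r hd he he' hc
    have hs : ∀ᶠ n in atTop, ρn n (insert e A) C = ρn n A C * pe ψ (Vn n) A C e := by
      filter_upwards [hsub A C e] with n hn
      exact hopen n A C e hn.1 hn.2.1 hn.2.2 hd he he'
    have h := D.step2 hd he he' hc.1 hs (fun hr => (hc.2 hr).1)
    refine ⟨h.1, fun hr => ?_⟩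
    rw [Finset.coe_insert]
    exact h.2 hr
  have hC : ∀ (A C : Finset E) (e : E) (r : ℝ), Disjoint A C → e ∉ A → e ∉ C → Conv A C r →
      Conv A (insert e C) (r * (1 - pe ψ V A C e)) := by
    intro A C e r hd he he' hc
    have hs : ∀ᶠ n in atTop, ρn n A (insert e C) = ρn n A C * pe ψ (Yn n) C A e := by
      filter_upwards [hsub A C e] with n hn
      rw [hclosed n A C e hn.1 hn.2.1 hn.2.2 hd he he']
      have hg := gapOn_finset hψ (hPn n) A C hn.1 hn.2.1 hd
      have heR : e ∉ (A : Set E) ∪ C := by simpa using ⟨he, he'⟩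
      have h1 := pe_add_pe hψ (hPn n) hn.2.2 heR hg
      congr 1
      linarith
    have h := D.swap.step2 hd.symm he' he hc.1 hs (fun hr => (hc.2 hr).2)
    have hp : pe ψ Y C A e = 1 - pe ψ V A C e := by
      have hg := gapOn_finset hψ hP A C (Set.subset_univ _) (Set.subset_univ _) hd
      have heR : e ∉ (A : Set E) ∪ C := by simpa using ⟨he, he'⟩
      have h1 := pe_add_pe hψ hP (Set.mem_univ e) heR hg
      linarith
    rw [hp] at h
    refine ⟨h.1, fun hr => ?_⟩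
    rw [Finset.coe_insert]
    exact ⟨(h.2 hr).2, (h.2 hr).1⟩
  have hu : ∀ n, Wsp ψ (Sn n) ≤ Wsp ψ Set.univ := fun n => Wsp_mono ψ (Set.subset_univ _)
  have hbase : Conv ∅ ∅ 1 := by
    refine ⟨?_, fun _ => ⟨?_, ?_⟩⟩
    · simp only [h0]
      exact tendsto_const_nhds
    · intro x
      simp only [Finset.coe_empty]
      rw [Vs_empty (hP.V_le.trans (Wsp_mono ψ (Set.subset_univ _)))]
      refine (hV x).congr (fun n => ?_)
      rw [Vs_empty ((hPn n).V_le.trans (hu n))]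
    · intro x
      simp only [Finset.coe_empty]
      rw [Vs_empty (hP.Y_le.trans (Wsp_mono ψ (Set.subset_univ _)))]
      refine (hY x).congr (fun n => ?_)
      rw [Vs_empty ((hPn n).Y_le.trans (hu n))]
  -- existence of the limit for all patterns
  have hall : ∀ A C : Finset E, Disjoint A C → ∃ r, Conv A C r := by
    have h1 : ∀ A : Finset E, ∃ r, Conv A ∅ r := by
      intro A
      induction A using Finset.induction_on with
      | empty => exact ⟨1, hbase⟩
      | insert e A he ih =>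
        obtain ⟨r, hr⟩ := ih
        exact ⟨_, hO A ∅ e r (Finset.disjoint_empty_right _) he (by simp) hr⟩
    intro A C
    induction C using Finset.induction_on with
    | empty => exact fun _ => h1 A
    | insert e C he ih =>
      intro hd
      have hd' : Disjoint A C := hd.mono_right (Finset.subset_insert _ _)
      have heA : e ∉ A := fun h => (Finset.disjoint_left.1 hd h) (Finset.mem_insert_self _ _)
      obtain ⟨r, hr⟩ := ih hd'
      exact ⟨_, hC A C e r hd' heA he hr⟩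
  -- the limit
  let ρ : Finset E → Finset E → ℝ := fun A C =>
    if h : Disjoint A C then Classical.choose (hall A C h) else 0
  have hρ : ∀ (A C : Finset E) (h : Disjoint A C), Conv A C (ρ A C) := by
    intro A C h
    simp only [ρ, dif_pos h]
    exact Classical.choose_spec (hall A C h)
  refine ⟨ρ, ?_, fun A C h => (hρ A C h).1, ?_, ?_⟩
  · exact tendsto_nhds_unique (hρ ∅ ∅ (Finset.disjoint_empty_left _)).1 hbase.1
  · intro A C e hd he he'
    have hd2 : Disjoint (insert e A) C := by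
      rw [Finset.disjoint_insert_left]
      exact ⟨he', hd⟩
    exact tendsto_nhds_unique (hρ _ _ hd2).1 (hO A C e _ hd he he' (hρ A C hd)).1
  · intro A C e hd he he'
    have hd2 : Disjoint A (insert e C) := by
      rw [Finset.disjoint_insert_right]
      exact ⟨he, hd⟩
    exact tendsto_nhds_unique (hρ _ _ hd2).1 (hC A C e _ hd he he' (hρ A C hd)).1

end Vale.Agent.Lib.P143
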