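import Vale.Agent.Lib.P143.Cond

/-!
The Picard iteration for the sequential sampling in a random order, and the planted space.
-/

namespace Vale.Agent.Lib.P143

open MeasureTheory Filter Topology
open scoped RealInnerProductSpace ENNReal Pointwise

variable {Γ I₀ H E : Type*} [Group Γ] [MulAction Γ E] [NormedAddCommGroup H]
  [InnerProductSpace ℝ H] [CompleteSpace H] [Fintype I₀] [Countable Γ] [Countable E]

/-- The product of uniform laws on labels. -/
noncomputable def lamE (E : Type*) : Measure (E → unitInterval) :=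
  Measure.infinitePi (fun _ : E => (volume : Measure unitInterval))

instance : IsProbabilityMeasure (lamE E) := by unfold lamE; infer_instance

/-- The edges with label below `s`. -/
def Rs (τ : E → unitInterval) (s : unitInterval) : Set E := {f | τ f < s}

/-- The edges with label below that of `e`. -/
def Re (τ : E → unitInterval) (e : E) : Set E := Rs τ (τ e)

/-- Translation of labels. -/
def tsh (γ : Γ) (τ : E → unitInterval) : E → unitInterval := fun e => τ (γ⁻¹ • e)

/-- The noise: a label and a uniform variable for each edge. -/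
abbrev Noise (E : Type*) := (E → unitInterval) × (E → unitInterval)

/-- Translation of the noise. -/
def actN (γ : Γ) (n : Noise E) : Noise E := (tsh γ n.1, tsh γ n.2)

/-- The planted space: labels, a configuration, and auxiliary uniform variables. -/
abbrev Pl (E : Type*) := (E → unitInterval) × (Set E) × (E → unitInterval)

/-- Translation on the planted space. -/
def actP (γ : Γ) (ω : Pl E) : Pl E := (tsh γ ω.1, γ • ω.2.1, tsh γ ω.2.2)

variable (D : EdgeRep Γ I₀ H E) (V : Submodule ℝ H)

/-- The conditional probability with values in the unit interval. -/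
noncomputable def pI (X R : Set E) (e : E) : unitInterval :=
  ⟨pX D.ψ V X R e, pe_nonneg V _ _ _, pe_le_one D.orth V _ _ _⟩

/-- The Picard iteration. -/
noncomputable def Fk : ℕ → Noise E → Set E
  | 0, _ => ∅
  | k + 1, n => {e | n.2 e < pI D V (Fk k n) (Re n.1 e) e}

/-- Encoding of an open edge. -/
noncomputable def Uon (p ξ : unitInterval) : unitInterval := p * ξ

/-- Encoding of a closed edge. -/
noncomputable def Uoff (p ξ : unitInterval) : unitInterval :=
  unitInterval.symm (unitInterval.symm p * unitInterval.symm ξ)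

open Classical in
/-- The noise read off a planted point. -/
noncomputable def noiseMap (ω : Pl E) : Noise E :=
  (ω.1, fun e => if e ∈ ω.2.1 then Uon (pI D V ω.2.1 (Re ω.1 e) e) (ω.2.2 e)
    else Uoff (pI D V ω.2.1 (Re ω.1 e) e) (ω.2.2 e))

/-- The Picard iterates on the planted space. -/
noncomputable def Yk (k : ℕ) (ω : Pl E) : Set E := Fk D V k (noiseMap D V ω)

variable {D V}

/-! ### Equivariance -/

omit [Fintype I₀] [Countable Γ] [Countable E] in
theorem Rs_tsh (γ : Γ) (τ : E → unitInterval) (s : unitInterval) :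
    Rs (tsh γ τ) s = γ • Rs τ s := by
  ext f
  simp only [Rs, tsh, Set.mem_ofPred_eq, Set.mem_smul_set_iff_inv_smul_mem]

omit [Fintype I₀] [Countable Γ] [Countable E] in
theorem Re_tsh (γ : Γ) (τ : E → unitInterval) (e : E) :
    Re (tsh γ τ) (γ • e) = γ • Re τ e := by
  unfold Re
  rw [Rs_tsh]
  simp [tsh]

theorem pI_smul (hV : ∀ γ x, x ∈ V → D.rep γ x ∈ V) (hVc : IsClosed (V : Set H)) (γ : Γ) (X R : Set E) (e : E) :
    pI D V (γ • X) (γ • R) (γ • e) = pI D V X R e := by
  apply Subtype.ext
  change pe D.ψ V (γ • X ∩ γ • R) (γ • R \ γ • X) (γ • e) = pe D.ψ V (X ∩ R) (R \ X) e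
  rw [← Set.smul_set_inter, ← Set.smul_set_sdiff]
  exact pe_smul hV hVc γ _ _ _

theorem Fk_actN (hV : ∀ γ x, x ∈ V → D.rep γ x ∈ V) (hVc : IsClosed (V : Set H)) (γ : Γ) (k : ℕ) (n : Noise E) :
    Fk D V k (actN γ n) = γ • Fk D V k n := by
  induction k with
  | zero => simp [Fk]
  | succ k ih =>
    ext e
    rw [Set.mem_smul_set_iff_inv_smul_mem]
    simp only [Fk, Set.mem_ofPred_eq]
    have e1 : Re (actN γ n).1 e = γ • Re n.1 (γ⁻¹ • e) := by
      have := Re_tsh γ n.1 (γ⁻¹ • e)
      rw [smul_inv_smul] at this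
      exact this
    have e2 : pI D V (Fk D V k (actN γ n)) (Re (actN γ n).1 e) e
        = pI D V (Fk D V k n) (Re n.1 (γ⁻¹ • e)) (γ⁻¹ • e) := by
      rw [ih, e1]
      have := pI_smul hV hVc γ (Fk D V k n) (Re n.1 (γ⁻¹ • e)) (γ⁻¹ • e)
      rw [smul_inv_smul] at this
      exact this
    rw [e2]
    rfl

open Classical in
theorem noiseMap_actP (hV : ∀ γ x, x ∈ V → D.rep γ x ∈ V) (hVc : IsClosed (V : Set H)) (γ : Γ) (ω : Pl E) :
    noiseMap D V (actP γ ω) = actN γ (noiseMap D V ω) := by
  refine Prod.ext rfl ?_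
  funext e
  have e1 : Re (tsh γ ω.1) e = γ • Re ω.1 (γ⁻¹ • e) := by
    have := Re_tsh γ ω.1 (γ⁻¹ • e)
    rw [smul_inv_smul] at this
    exact this
  have e2 : pI D V (γ • ω.2.1) (Re (tsh γ ω.1) e) e
      = pI D V ω.2.1 (Re ω.1 (γ⁻¹ • e)) (γ⁻¹ • e) := by
    rw [e1]
    have := pI_smul hV hVc γ ω.2.1 (Re ω.1 (γ⁻¹ • e)) (γ⁻¹ • e)
    rw [smul_inv_smul] at this
    exact this
  change (if e ∈ γ • ω.2.1 then Uon (pI D V (γ • ω.2.1) (Re (tsh γ ω.1) e) e) (ω.2.2 (γ⁻¹ • e))
      else Uoff (pI D V (γ • ω.2.1) (Re (tsh γ ω.1) e) e) (ω.2.2 (γ⁻¹ • e))) =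
    if γ⁻¹ • e ∈ ω.2.1 then Uon (pI D V ω.2.1 (Re ω.1 (γ⁻¹ • e)) (γ⁻¹ • e)) (ω.2.2 (γ⁻¹ • e))
    else Uoff (pI D V ω.2.1 (Re ω.1 (γ⁻¹ • e)) (γ⁻¹ • e)) (ω.2.2 (γ⁻¹ • e))
  rw [e2]
  by_cases h : γ⁻¹ • e ∈ ω.2.1
  · rw [if_pos h, if_pos (Set.mem_smul_set_iff_inv_smul_mem.2 h)]
  · rw [if_neg h, if_neg (fun h' => h (Set.mem_smul_set_iff_inv_smul_mem.1 h'))]

theorem Yk_actP (hV : ∀ γ x, x ∈ V → D.rep γ x ∈ V) (hVc : IsClosed (V : Set H)) (γ : Γ) (k : ℕ) (ω : Pl E) :
    Yk D V k (actP γ ω) = γ • Yk D V k ω := by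
  unfold Yk
  rw [noiseMap_actP hV hVc, Fk_actN hV hVc]

/-! ### Measurability -/

theorem measurable_pI (hV : ∀ γ x, x ∈ V → D.rep γ x ∈ V) (hVc : IsClosed (V : Set H)) (e : E) :
    Measurable (fun q : Set E × Set E => pI D V q.1 q.2 e) :=
  Measurable.subtype_mk (measurable_pX hV hVc e)

omit [Fintype I₀] [Countable Γ] in
theorem measurable_Re (e : E) : Measurable (fun τ : E → unitInterval => Re τ e) := by
  refine measurable_set_iff.2 (fun f => ?_)
  exact measurable_to_prop (by
    have : (fun τ : E → unitInterval => f ∈ Re τ e) ⁻¹' {True} = {τ | τ f < τ e} := by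
      ext τ
      simp [Re, Rs]
    rw [this]
    exact measurableSet_lt (measurable_pi_apply f) (measurable_pi_apply e))

omit [Fintype I₀] [Countable Γ] in
theorem measurable_Rs (s : unitInterval) : Measurable (fun τ : E → unitInterval => Rs τ s) := by
  refine measurable_set_iff.2 (fun f => ?_)
  exact measurable_to_prop (by
    have : (fun τ : E → unitInterval => f ∈ Rs τ s) ⁻¹' {True} = {τ | τ f < s} := by
      ext τ
      simp [Rs]
    rw [this]
    exact measurableSet_lt (measurable_pi_apply f) measurable_const)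

theorem measurable_Fk (hV : ∀ γ x, x ∈ V → D.rep γ x ∈ V) (hVc : IsClosed (V : Set H)) (k : ℕ) :
    Measurable (Fk D V k) := by
  induction k with
  | zero =>
    have : Fk D V 0 = fun _ => (∅ : Set E) := rfl
    rw [this]
    exact measurable_const
  | succ k ih =>
    refine measurable_set_iff.2 (fun e => ?_)
    refine measurable_to_prop ?_
    have : (fun n : Noise E => e ∈ Fk D V (k + 1) n) ⁻¹' {True}
        = {n : Noise E | n.2 e < pI D V (Fk D V k n) (Re n.1 e) e} := by
      ext n
      simp [Fk]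
    rw [this]
    refine measurableSet_lt ((measurable_pi_apply e).comp measurable_snd) ?_
    have h1 : Measurable (fun n : Noise E => ((Fk D V k n, Re n.1 e) : Set E × Set E)) :=
      ih.prodMk ((measurable_Re e).comp measurable_fst)
    have h2 := (measurable_pI hV hVc e).comp h1
    exact h2

omit [Fintype I₀] [Countable Γ] in
theorem measurable_Uon : Measurable (fun q : unitInterval × unitInterval => Uon q.1 q.2) :=
  (continuous_fst.mul continuous_snd).measurable

omit [Fintype I₀] [Countable Γ] in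
theorem measurable_Uoff : Measurable (fun q : unitInterval × unitInterval => Uoff q.1 q.2) := by
  unfold Uoff
  have h : Continuous (fun q : unitInterval × unitInterval =>
      unitInterval.symm (unitInterval.symm q.1 * unitInterval.symm q.2)) := by
    fun_prop
  exact h.measurable

theorem measurable_noiseMap (hV : ∀ γ x, x ∈ V → D.rep γ x ∈ V) (hVc : IsClosed (V : Set H)) :
    Measurable (noiseMap D V) := by
  classical
  refine measurable_fst.prodMk (measurable_pi_lambda _ (fun e => ?_))
  have h1 : Measurable (fun ω : Pl E => pI D V ω.2.1 (Re ω.1 e) e) := by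
    have h0 : Measurable (fun ω : Pl E => ((ω.2.1, Re ω.1 e) : Set E × Set E)) :=
      (measurable_fst.comp measurable_snd).prodMk ((measurable_Re e).comp measurable_fst)
    have h2 := (measurable_pI hV hVc e).comp h0
    exact h2
  have h2 : Measurable (fun ω : Pl E => ω.2.2 e) :=
    (measurable_pi_apply e).comp (measurable_snd.comp measurable_snd)
  have h3 : MeasurableSet {ω : Pl E | e ∈ ω.2.1} :=
    (measurableSet_mem_set e).preimage (measurable_fst.comp measurable_snd)
  exact Measurable.ite h3 (measurable_Uon.comp (h1.prodMk h2)) (measurable_Uoff.comp (h1.prodMk h2))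

theorem measurable_Yk (hV : ∀ γ x, x ∈ V → D.rep γ x ∈ V) (hVc : IsClosed (V : Set H)) (k : ℕ) :
    Measurable (Yk D V k) :=
  (measurable_Fk hV hVc k).comp (measurable_noiseMap hV hVc)

end Vale.Agent.Lib.P143
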