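import Vale.Agent.Lib.P143.Basic

/-!
Random operator fields with a covariance property, and their trace (a finite von Neumann trace on the
crossed product algebra).  `act` is a family of maps on the probability space.
-/

namespace Vale.Agent.Lib.P143

open MeasureTheory Filter Topology
open scoped RealInnerProductSpace ENNReal

/-- A Hilbert space with a basis on which the group acts freely by left translation on the first factor. -/
structure DartRep (Γ I₀ H : Type*) [Group Γ] [NormedAddCommGroup H] [InnerProductSpace ℝ H] where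
  /-- the basis -/
  b : HilbertBasis (Γ × I₀) ℝ H
  /-- the representation -/
  rep : Γ → H ≃ₗᵢ[ℝ] H
  rep_b : ∀ γ g i, rep γ (b (g, i)) = b (γ * g, i)

variable {Γ I₀ H Ω : Type*} [Group Γ] [NormedAddCommGroup H] [InnerProductSpace ℝ H]

namespace DartRep

variable (R : DartRep Γ I₀ H)

/-- A continuous linear map is determined by its values on the Hilbert basis. -/
theorem clm_ext_b {T S : H →L[ℝ] H} (h : ∀ d, T (R.b d) = S (R.b d)) : T = S := by
  have hd : Dense (Submodule.span ℝ (Set.range R.b) : Set H) := by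
    have := R.b.dense_span
    exact Submodule.dense_iff_topologicalClosure_eq_top.2 this
  apply ContinuousLinearMap.ext_on hd
  rintro _ ⟨d, rfl⟩
  exact h d

theorem rep_inv_apply (γ : Γ) (x : H) : R.rep γ⁻¹ x = (R.rep γ).symm x := by
  have h : (R.rep γ⁻¹).toContinuousLinearEquiv.toContinuousLinearMap
      = (R.rep γ).symm.toContinuousLinearEquiv.toContinuousLinearMap := by
    apply R.clm_ext_b
    rintro ⟨g, i⟩
    simp only [ContinuousLinearEquiv.coe_coe, LinearIsometryEquiv.coe_toContinuousLinearEquiv]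
    rw [R.rep_b]
    rw [LinearIsometryEquiv.eq_symm_apply, R.rep_b, mul_inv_cancel_left]
  exact congrArg (fun T : H →L[ℝ] H => T x) h

theorem rep_rep_inv (γ : Γ) (x : H) : R.rep γ (R.rep γ⁻¹ x) = x := by
  rw [rep_inv_apply, LinearIsometryEquiv.apply_symm_apply]

theorem rep_inv_rep (γ : Γ) (x : H) : R.rep γ⁻¹ (R.rep γ x) = x := by
  rw [rep_inv_apply, LinearIsometryEquiv.symm_apply_apply]

end DartRep

variable [MeasurableSpace Ω]

/-- Covariant, bounded, weakly measurable fields of operators. -/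
structure Good (R : DartRep Γ I₀ H) (act : Γ → Ω → Ω) (T : Ω → H →L[ℝ] H) : Prop where
  meas : ∀ x y, Measurable fun ω => ⟪T ω x, y⟫
  bdd : ∃ C, ∀ ω, ‖T ω‖ ≤ C
  equiv : ∀ γ ω x, T (act γ ω) x = R.rep γ (T ω (R.rep γ⁻¹ x))

/-- The trace of a field. -/
noncomputable def tr [Fintype I₀] (R : DartRep Γ I₀ H) (P : Measure Ω) (T : Ω → H →L[ℝ] H) : ℝ :=
  ∑ i : I₀, ∫ ω, ⟪T ω (R.b (1, i)), R.b (1, i)⟫ ∂P

theorem measurable_of_hasSum' {ι : Type*} [Countable ι] {f : ι → Ω → ℝ} {g : Ω → ℝ}
    (hf : ∀ i, Measurable (f i)) (h : ∀ ω, HasSum (fun i => f i ω) (g ω)) : Measurable g := by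
  have hlim : Tendsto (fun (s : Finset ι) ω => ∑ i ∈ s, f i ω) atTop (𝓝 g) :=
    tendsto_pi_nhds.2 h
  exact measurable_of_tendsto_metrizable' atTop
    (fun s => Finset.measurable_fun_sum s (fun i _ => hf i)) hlim

variable {R : DartRep Γ I₀ H} {act : Γ → Ω → Ω}

namespace Good

theorem add {S T : Ω → H →L[ℝ] H} (hS : Good R act S) (hT : Good R act T) :
    Good R act (fun ω => S ω + T ω) where
  meas x y := by
    simp only [add_apply, inner_add_left]
    exact (hS.meas x y).add (hT.meas x y)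
  bdd := by
    obtain ⟨C, hC⟩ := hS.bdd
    obtain ⟨D, hD⟩ := hT.bdd
    exact ⟨C + D, fun ω => (norm_add_le _ _).trans (add_le_add (hC ω) (hD ω))⟩
  equiv γ ω x := by
    simp only [add_apply, hS.equiv, hT.equiv, map_add]

theorem smul {T : Ω → H →L[ℝ] H} (c : ℝ) (hT : Good R act T) :
    Good R act (fun ω => c • T ω) where
  meas x y := by
    simp only [smul_apply, inner_smul_left]
    exact (hT.meas x y).const_mul _
  bdd := by
    obtain ⟨D, hD⟩ := hT.bdd
    refine ⟨|c| * D, fun ω => ?_⟩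
    rw [norm_smul, Real.norm_eq_abs]
    exact mul_le_mul_of_nonneg_left (hD ω) (abs_nonneg _)
  equiv γ ω x := by
    simp only [smul_apply, hT.equiv, map_smul]

theorem sub {S T : Ω → H →L[ℝ] H} (hS : Good R act S) (hT : Good R act T) :
    Good R act (fun ω => S ω - T ω) := by
  have := hS.add (hT.smul (-1))
  simpa [sub_eq_add_neg] using this

theorem const {T : H →L[ℝ] H} (h : ∀ γ x, T (R.rep γ x) = R.rep γ (T x)) :
    Good R act (fun _ => T) where
  meas _ _ := measurable_const
  bdd := ⟨‖T‖, fun _ => le_rfl⟩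
  equiv γ ω x := by
    rw [h, R.rep_rep_inv]

variable [Countable Γ] [Countable I₀] [CompleteSpace H]

theorem comp {S T : Ω → H →L[ℝ] H} (hS : Good R act S) (hT : Good R act T) :
    Good R act (fun ω => S ω ∘L T ω) where
  meas x y := by
    have hs : ∀ ω, HasSum (fun d => ⟪T ω x, R.b d⟫ * ⟪S ω (R.b d), y⟫) ⟪S ω (T ω x), y⟫ := by
      intro ω
      have h := R.b.hasSum_inner_mul_inner (T ω x) ((ContinuousLinearMap.adjoint (S ω)) y)
      simp only [ContinuousLinearMap.adjoint_inner_right] at h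
      simpa using h
    have : Measurable fun ω => ⟪S ω (T ω x), y⟫ := by
      refine measurable_of_hasSum' (fun d => ?_) hs
      refine Measurable.mul ?_ (hS.meas _ _)
      exact hT.meas _ _
    simpa using this
  bdd := by
    obtain ⟨C, hC⟩ := hS.bdd
    obtain ⟨D, hD⟩ := hT.bdd
    refine ⟨C * D, fun ω => (ContinuousLinearMap.opNorm_comp_le _ _).trans ?_⟩
    exact mul_le_mul (hC ω) (hD ω) (norm_nonneg _) ((norm_nonneg _).trans (hC ω))
  equiv γ ω x := by
    simp only [ContinuousLinearMap.comp_apply, hS.equiv, hT.equiv, R.rep_inv_rep]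

theorem adjoint {T : Ω → H →L[ℝ] H} (hT : Good R act T) :
    Good R act (fun ω => ContinuousLinearMap.adjoint (T ω)) where
  meas x y := by
    have : (fun ω => ⟪ContinuousLinearMap.adjoint (T ω) x, y⟫) = fun ω => ⟪T ω y, x⟫ := by
      funext ω
      rw [ContinuousLinearMap.adjoint_inner_left, real_inner_comm]
    rw [this]
    exact hT.meas y x
  bdd := by
    obtain ⟨C, hC⟩ := hT.bdd
    exact ⟨C, fun ω => by simpa using hC ω⟩
  equiv γ ω x := by
    apply ext_inner_right ℝ
    intro y
    rw [ContinuousLinearMap.adjoint_inner_left, hT.equiv]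
    have h1 : ⟪x, R.rep γ (T ω (R.rep γ⁻¹ y))⟫ = ⟪R.rep γ⁻¹ x, T ω (R.rep γ⁻¹ y)⟫ := by
      conv_lhs => rw [← R.rep_rep_inv γ x]
      exact LinearIsometryEquiv.inner_map_map _ _ _
    have h2 : ⟪R.rep γ (ContinuousLinearMap.adjoint (T ω) (R.rep γ⁻¹ x)), y⟫
        = ⟪ContinuousLinearMap.adjoint (T ω) (R.rep γ⁻¹ x), R.rep γ⁻¹ y⟫ := by
      conv_lhs => rw [← R.rep_rep_inv γ y]
      exact LinearIsometryEquiv.inner_map_map _ _ _
    rw [h1, h2, ContinuousLinearMap.adjoint_inner_left]

theorem pow {T : Ω → H →L[ℝ] H} (hT : Good R act T) (n : ℕ) :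
    Good R act (fun ω => (T ω) ^ n) := by
  induction n with
  | zero =>
    have : Good R act (fun _ : Ω => (1 : H →L[ℝ] H)) := Good.const (fun γ x => rfl)
    simpa using this
  | succ n ih =>
    have := hT.comp ih
    convert this using 2 with ω
    rw [pow_succ']
    rfl

omit [Countable Γ] [Countable I₀] [CompleteSpace H] in
/-- Strong limits of uniformly bounded good fields are good. -/
theorem of_tendsto {T : ℕ → Ω → H →L[ℝ] H} {L : Ω → H →L[ℝ] H} (hT : ∀ n, Good R act (T n))
    (hb : ∃ C, ∀ n ω, ‖T n ω‖ ≤ C)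
    (hL : ∀ ω x, Tendsto (fun n => T n ω x) atTop (𝓝 (L ω x))) : Good R act L where
  meas x y := by
    refine measurable_of_tendsto_metrizable (fun n => (hT n).meas x y) ?_
    refine tendsto_pi_nhds.2 (fun ω => ?_)
    exact ((hL ω x).inner tendsto_const_nhds)
  bdd := by
    obtain ⟨C, hC⟩ := hb
    refine ⟨max C 0, fun ω => ?_⟩
    refine ContinuousLinearMap.opNorm_le_bound _ (le_max_right _ _) (fun x => ?_)
    refine le_of_tendsto (hL ω x).norm (Eventually.of_forall fun n => ?_)
    exact ((T n ω).le_opNorm x).trans (mul_le_mul_of_nonneg_right ((hC n ω).trans (le_max_left _ _))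
      (norm_nonneg _))
  equiv γ ω x := by
    have h1 := hL (act γ ω) x
    have h2 : Tendsto (fun n => R.rep γ (T n ω (R.rep γ⁻¹ x))) atTop
        (𝓝 (R.rep γ (L ω (R.rep γ⁻¹ x)))) :=
      (R.rep γ).continuous.continuousAt.tendsto.comp (hL ω _)
    refine tendsto_nhds_unique h1 ?_
    refine h2.congr (fun n => ?_)
    rw [(hT n).equiv]

end Good

end Vale.Agent.Lib.P143
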