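import Vale.Agent.Lib.P143.Cond

/-!
Sequential sampling: a consistent family of pattern weights comes from a probability measure.
-/

namespace Vale.Agent.Lib.P143

open MeasureTheory Filter Topology
open scoped ENNReal

variable {E : Type*}

section Seq

variable [DecidableEq E] (g : ℕ → Option E) (p : Set E → Set E → E → ℝ)

/-- The edges treated in the first `n` steps. -/
def seqW : ℕ → Finset E
  | 0 => ∅
  | n + 1 =>
    match g n with
    | none => seqW n
    | some f => insert f (seqW n)

/-- The edges retained in the first `n` steps. -/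
noncomputable def seqX (U : ℕ → unitInterval) : ℕ → Finset E
  | 0 => ∅
  | n + 1 =>
    match g n with
    | none => seqX U n
    | some f =>
      if (U n : ℝ) < p ((seqX U n : Finset E) : Set E) ((seqW g n \ seqX U n : Finset E) : Set E) f
      then insert f (seqX U n) else seqX U n

theorem seqW_zero : seqW g 0 = ∅ := rfl

theorem seqW_none {n : ℕ} (h : g n = none) : seqW g (n + 1) = seqW g n := by
  simp [seqW, h]

theorem seqW_some {n : ℕ} {f : E} (h : g n = some f) : seqW g (n + 1) = insert f (seqW g n) := by
  simp [seqW, h]

theorem seqX_zero (U : ℕ → unitInterval) : seqX g p U 0 = ∅ := rfl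

theorem seqX_none (U : ℕ → unitInterval) {n : ℕ} (h : g n = none) :
    seqX g p U (n + 1) = seqX g p U n := by
  simp [seqX, h]

theorem seqX_some (U : ℕ → unitInterval) {n : ℕ} {f : E} (h : g n = some f) :
    seqX g p U (n + 1) =
      if (U n : ℝ) < p ((seqX g p U n : Finset E) : Set E)
        ((seqW g n \ seqX g p U n : Finset E) : Set E) f
      then insert f (seqX g p U n) else seqX g p U n := by
  simp [seqX, h]

theorem seqX_subset (U : ℕ → unitInterval) (n : ℕ) : seqX g p U n ⊆ seqW g n := by
  induction n with
  | zero => simp [seqX_zero]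
  | succ n ih =>
    cases h : g n with
    | none => rw [seqX_none g p U h, seqW_none g h]; exact ih
    | some f =>
      rw [seqX_some g p U h, seqW_some g h]
      split_ifs
      · exact Finset.insert_subset_insert _ ih
      · exact ih.trans (Finset.subset_insert _ _)

/-- The enumeration is injective in the sense that each edge is treated only once. -/
structure GoodEnum (g : ℕ → Option E) (enc : E → ℕ) : Prop where
  iff : ∀ f n, g n = some f ↔ enc f = n

theorem mem_seqW {enc : E → ℕ} (hg : GoodEnum g enc) (f : E) (n : ℕ) :
    f ∈ seqW g n ↔ enc f < n := by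
  induction n with
  | zero => simp [seqW_zero]
  | succ n ih =>
    cases h : g n with
    | none =>
      rw [seqW_none g h, ih]
      constructor
      · intro h'; omega
      · intro h'
        have : enc f ≠ n := by
          intro he
          have := (hg.iff f n).2 he
          rw [h] at this
          exact absurd this (by simp)
        omega
    | some f₀ =>
      rw [seqW_some g h, Finset.mem_insert, ih]
      have h₀ := (hg.iff f₀ n).1 h
      constructor
      · rintro (rfl | h')
        · omega
        · omega
      · intro h'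
        by_cases he : enc f = n
        · left
          have := (hg.iff f n).2 he
          rw [h] at this
          exact (Option.some.inj this).symm
        · right; omega

theorem not_mem_seqW {enc : E → ℕ} (hg : GoodEnum g enc) {n : ℕ} {f : E} (h : g n = some f) :
    f ∉ seqW g n := by
  rw [mem_seqW g hg]
  have := (hg.iff f n).1 h
  omega

theorem measurableSet_lt_coe (t : ℝ) : MeasurableSet {u : unitInterval | (u : ℝ) < t} :=
  measurableSet_lt measurable_subtype_coe measurable_const

theorem volume_lt_coe {t : ℝ} (h0 : 0 ≤ t) (h1 : t ≤ 1) :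
    (volume : Measure unitInterval) {u : unitInterval | (u : ℝ) < t} = ENNReal.ofReal t := by
  have : {u : unitInterval | (u : ℝ) < t} = Set.Iio (⟨t, h0, h1⟩ : unitInterval) := by
    ext u
    exact Iff.rfl
  rw [this, unitInterval.volume_Iio]

theorem volume_not_lt_coe {t : ℝ} (h0 : 0 ≤ t) (h1 : t ≤ 1) :
    (volume : Measure unitInterval) {u : unitInterval | ¬ (u : ℝ) < t} = ENNReal.ofReal (1 - t) := by
  have : {u : unitInterval | ¬ (u : ℝ) < t} = Set.Ici (⟨t, h0, h1⟩ : unitInterval) := by
    ext u
    exact not_lt
  rw [this, unitInterval.volume_Ici]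

variable (ρ : Finset E → Finset E → ℝ)

theorem seq_box {enc : E → ℕ} (hg : GoodEnum g enc)
    (hp0 : ∀ A C e, 0 ≤ p A C e) (hp1 : ∀ A C e, p A C e ≤ 1) (h0 : ρ ∅ ∅ = 1)
    (hopen : ∀ (A C : Finset E) (e : E), Disjoint A C → e ∉ A → e ∉ C →
      ρ (insert e A) C = ρ A C * p A C e)
    (hclosed : ∀ (A C : Finset E) (e : E), Disjoint A C → e ∉ A → e ∉ C →
      ρ A (insert e C) = ρ A C * (1 - p A C e))
    (n : ℕ) (A : Finset E) (hA : A ⊆ seqW g n) :
    ∃ I : ℕ → Set unitInterval, (∀ i, MeasurableSet (I i)) ∧
      (∀ U : ℕ → unitInterval, seqX g p U n = A ↔ ∀ i ∈ Finset.range n, U i ∈ I i) ∧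
      ∏ i ∈ Finset.range n, (volume : Measure unitInterval) (I i)
        = ENNReal.ofReal (ρ A (seqW g n \ A)) := by
  induction n generalizing A with
  | zero =>
    have hA0 : A = ∅ := by simpa [seqW_zero] using hA
    subst hA0
    refine ⟨fun _ => Set.univ, fun _ => MeasurableSet.univ, fun U => ?_, ?_⟩
    · simp [seqX_zero]
    · simp [seqW_zero, h0]
  | succ n ih =>
    cases h : g n with
    | none =>
      rw [seqW_none g h] at hA
      obtain ⟨I, hI, hU, hV⟩ := ih A hA
      refine ⟨Function.update I n Set.univ, fun i => ?_, fun U => ?_, ?_⟩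
      · by_cases hi : i = n
        · subst hi; simp
        · simpa [Function.update_of_ne hi] using hI i
      · rw [seqX_none g p U h, hU U]
        constructor
        · intro h' i hi
          rw [Finset.mem_range] at hi
          by_cases hin : i = n
          · subst hin; simp
          · rw [Function.update_of_ne hin]
            exact h' i (Finset.mem_range.2 (by omega))
        · intro h' i hi
          rw [Finset.mem_range] at hi
          have := h' i (Finset.mem_range.2 (by omega))
          rwa [Function.update_of_ne (by omega)] at this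
      · rw [Finset.prod_range_succ, seqW_none g h, ← hV]
        simp only [Function.update_self]
        have : (volume : Measure unitInterval) Set.univ = 1 := measure_univ
        rw [this, mul_one]
        refine Finset.prod_congr rfl fun i hi => ?_
        rw [Finset.mem_range] at hi
        rw [Function.update_of_ne (by omega)]
    | some f =>
      have hfW := not_mem_seqW g hg h
      rw [seqW_some g h] at hA ⊢
      by_cases hfA : f ∈ A
      · -- the edge is retained
        set A₀ := A.erase f with hA₀
        have hA₀sub : A₀ ⊆ seqW g n := by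
          intro x hx
          have hx' := Finset.mem_erase.1 hx
          exact (Finset.mem_insert.1 (hA hx'.2)).resolve_left hx'.1
        have hAins : insert f A₀ = A := Finset.insert_erase hfA
        have hfA₀ : f ∉ A₀ := Finset.notMem_erase _ _
        obtain ⟨I, hI, hU, hV⟩ := ih A₀ hA₀sub
        set t := p (A₀ : Set E) ((seqW g n \ A₀ : Finset E) : Set E) f with ht
        refine ⟨Function.update I n {u | (u : ℝ) < t}, fun i => ?_, fun U => ?_, ?_⟩
        · by_cases hi : i = n
          · subst hi; simpa using measurableSet_lt_coe t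
          · simpa [Function.update_of_ne hi] using hI i
        · rw [seqX_some g p U h]
          have hXsub := seqX_subset g p U n
          have hfX : f ∉ seqX g p U n := fun hx => hfW (hXsub hx)
          constructor
          · intro hE
            split_ifs at hE with hlt
            · have hXA : seqX g p U n = A₀ := by
                rw [hA₀, ← hE, Finset.erase_insert hfX]
              intro i hi
              rw [Finset.mem_range] at hi
              by_cases hin : i = n
              · subst hin
                simp only [Function.update_self, Set.mem_ofPred_eq]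
                rw [hXA] at hlt
                exact hlt
              · rw [Function.update_of_ne hin]
                exact (hU U).1 hXA i (Finset.mem_range.2 (by omega))
            · exact absurd (hE ▸ hfA) hfX
          · intro hall
            have hXA : seqX g p U n = A₀ := by
              rw [hU U]
              intro i hi
              have hi' := Finset.mem_range.1 hi
              have := hall i (Finset.mem_range.2 (by omega))
              rwa [Function.update_of_ne (by omega)] at this
            have hlt := hall n (Finset.mem_range.2 (by omega))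
            simp only [Function.update_self, Set.mem_ofPred_eq] at hlt
            rw [hXA, if_pos hlt, hAins]
        · rw [Finset.prod_range_succ]
          simp only [Function.update_self]
          rw [volume_lt_coe (hp0 _ _ _) (hp1 _ _ _)]
          have hprod : ∏ x ∈ Finset.range n,
              (volume : Measure unitInterval) (Function.update I n {u : unitInterval | (u : ℝ) < t} x)
              = ENNReal.ofReal (ρ A₀ (seqW g n \ A₀)) := by
            rw [← hV]
            refine Finset.prod_congr rfl fun i hi => ?_
            rw [Finset.mem_range] at hi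
            rw [Function.update_of_ne (by omega)]
          rw [hprod, ← ENNReal.ofReal_mul' (hp0 _ _ _)]
          congr 1
          have hdiff : insert f (seqW g n) \ A = seqW g n \ A₀ := by
            ext x
            simp only [Finset.mem_sdiff, Finset.mem_insert, hA₀, Finset.mem_erase, not_and]
            constructor
            · rintro ⟨rfl | hx, hxA⟩
              · exact absurd hfA hxA
              · exact ⟨hx, fun _ => hxA⟩
            · rintro ⟨hx, hxA⟩
              refine ⟨Or.inr hx, ?_⟩
              have : x ≠ f := fun hxf => hfW (hxf ▸ hx)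
              exact hxA this
          rw [hdiff, ← hAins]
          have hfD : f ∉ seqW g n \ A₀ := fun hx => hfW (Finset.mem_sdiff.1 hx).1
          rw [hopen A₀ (seqW g n \ A₀) f Finset.disjoint_sdiff hfA₀ hfD]
      · -- the edge is discarded
        have hAsub : A ⊆ seqW g n := by
          intro x hx
          refine (Finset.mem_insert.1 (hA hx)).resolve_left ?_
          rintro rfl
          exact hfA hx
        obtain ⟨I, hI, hU, hV⟩ := ih A hAsub
        set t := p (A : Set E) ((seqW g n \ A : Finset E) : Set E) f with ht
        refine ⟨Function.update I n {u | ¬ (u : ℝ) < t}, fun i => ?_, fun U => ?_, ?_⟩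
        · by_cases hi : i = n
          · subst hi; rw [Function.update_self]; exact (measurableSet_lt_coe t).compl
          · simpa [Function.update_of_ne hi] using hI i
        · rw [seqX_some g p U h]
          have hXsub := seqX_subset g p U n
          have hfX : f ∉ seqX g p U n := fun hx => hfW (hXsub hx)
          constructor
          · intro hE
            split_ifs at hE with hlt
            · exact absurd (hE ▸ Finset.mem_insert_self f _) hfA
            · intro i hi
              rw [Finset.mem_range] at hi
              by_cases hin : i = n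
              · subst hin
                simp only [Function.update_self, Set.mem_ofPred_eq]
                rw [hE] at hlt
                exact hlt
              · rw [Function.update_of_ne hin]
                exact (hU U).1 hE i (Finset.mem_range.2 (by omega))
          · intro hall
            have hXA : seqX g p U n = A := by
              rw [hU U]
              intro i hi
              have hi' := Finset.mem_range.1 hi
              have := hall i (Finset.mem_range.2 (by omega))
              rwa [Function.update_of_ne (by omega)] at this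
            have hlt := hall n (Finset.mem_range.2 (by omega))
            simp only [Function.update_self, Set.mem_ofPred_eq] at hlt
            rw [hXA, if_neg hlt]
        · rw [Finset.prod_range_succ]
          simp only [Function.update_self]
          rw [volume_not_lt_coe (hp0 _ _ _) (hp1 _ _ _)]
          have hprod : ∏ x ∈ Finset.range n,
              (volume : Measure unitInterval) (Function.update I n {u : unitInterval | ¬ (u : ℝ) < t} x)
              = ENNReal.ofReal (ρ A (seqW g n \ A)) := by
            rw [← hV]
            refine Finset.prod_congr rfl fun i hi => ?_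
            rw [Finset.mem_range] at hi
            rw [Function.update_of_ne (by omega)]
          rw [hprod, ← ENNReal.ofReal_mul' (by have := hp1 (A : Set E) ((seqW g n \ A : Finset E) : Set E) f; linarith)]
          congr 1
          have hdiff : insert f (seqW g n) \ A = insert f (seqW g n \ A) := Finset.insert_sdiff_of_notMem _ hfA
          have hfD : f ∉ seqW g n \ A := fun hx => hfW (Finset.mem_sdiff.1 hx).1
          rw [hdiff, hclosed A (seqW g n \ A) f Finset.disjoint_sdiff hfA hfD]

omit [DecidableEq E] in
theorem rho_nonneg [DecidableEq E] (p : Set E → Set E → E → ℝ) (ρ : Finset E → Finset E → ℝ)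
    (hp0 : ∀ A C e, 0 ≤ p A C e) (hp1 : ∀ A C e, p A C e ≤ 1) (h0 : ρ ∅ ∅ = 1)
    (hopen : ∀ (A C : Finset E) (e : E), Disjoint A C → e ∉ A → e ∉ C →
      ρ (insert e A) C = ρ A C * p A C e)
    (hclosed : ∀ (A C : Finset E) (e : E), Disjoint A C → e ∉ A → e ∉ C →
      ρ A (insert e C) = ρ A C * (1 - p A C e)) (A C : Finset E) (hd : Disjoint A C) :
    0 ≤ ρ A C := by
  induction A using Finset.induction_on with
  | empty =>
    induction C using Finset.induction_on with
    | empty => rw [h0]; exact zero_le_one
    | insert e C he ih =>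
      rw [hclosed ∅ C e (Finset.disjoint_empty_left _) (by simp) he]
      exact mul_nonneg (ih (Finset.disjoint_empty_left _)) (by have := hp1 ((∅ : Finset E) : Set E) (C : Set E) e; linarith)
  | insert e A he ih =>
    rw [Finset.disjoint_insert_left] at hd
    rw [hopen A C e hd.2 he hd.1]
    exact mul_nonneg (ih hd.2) (hp0 _ _ _)

variable {g p}

theorem measurableSet_seqX_eq {enc : E → ℕ} (hg : GoodEnum g enc)
    (hp0 : ∀ A C e, 0 ≤ p A C e) (hp1 : ∀ A C e, p A C e ≤ 1) (h0 : ρ ∅ ∅ = 1)
    (hopen : ∀ (A C : Finset E) (e : E), Disjoint A C → e ∉ A → e ∉ C →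
      ρ (insert e A) C = ρ A C * p A C e)
    (hclosed : ∀ (A C : Finset E) (e : E), Disjoint A C → e ∉ A → e ∉ C →
      ρ A (insert e C) = ρ A C * (1 - p A C e)) (n : ℕ) (A : Finset E) :
    MeasurableSet {U : ℕ → unitInterval | seqX g p U n = A} := by
  by_cases hA : A ⊆ seqW g n
  · obtain ⟨I, hI, hU, -⟩ := seq_box g p ρ hg hp0 hp1 h0 hopen hclosed n A hA
    have : {U : ℕ → unitInterval | seqX g p U n = A} = Set.pi (Finset.range n : Set ℕ) I := by
      ext U
      simp only [Set.mem_ofPred_eq, Set.mem_pi, Finset.mem_coe]
      exact hU U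
    rw [this]
    exact MeasurableSet.pi (Finset.range n).countable_toSet (fun i _ => hI i)
  · have : {U : ℕ → unitInterval | seqX g p U n = A} = ∅ := by
      ext U
      simp only [Set.mem_ofPred_eq, Set.mem_empty_iff_false, iff_false]
      rintro rfl
      exact hA (seqX_subset g p U n)
    rw [this]
    exact MeasurableSet.empty

theorem volume_seqX_eq {enc : E → ℕ} (hg : GoodEnum g enc)
    (hp0 : ∀ A C e, 0 ≤ p A C e) (hp1 : ∀ A C e, p A C e ≤ 1) (h0 : ρ ∅ ∅ = 1)
    (hopen : ∀ (A C : Finset E) (e : E), Disjoint A C → e ∉ A → e ∉ C →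
      ρ (insert e A) C = ρ A C * p A C e)
    (hclosed : ∀ (A C : Finset E) (e : E), Disjoint A C → e ∉ A → e ∉ C →
      ρ A (insert e C) = ρ A C * (1 - p A C e)) (n : ℕ) (A : Finset E) (hA : A ⊆ seqW g n) :
    Measure.infinitePi (fun _ : ℕ => (volume : Measure unitInterval))
      {U : ℕ → unitInterval | seqX g p U n = A} = ENNReal.ofReal (ρ A (seqW g n \ A)) := by
  obtain ⟨I, hI, hU, hV⟩ := seq_box g p ρ hg hp0 hp1 h0 hopen hclosed n A hA
  have : {U : ℕ → unitInterval | seqX g p U n = A} = Set.pi (Finset.range n : Set ℕ) I := by
    ext U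
    simp only [Set.mem_ofPred_eq, Set.mem_pi, Finset.mem_coe]
    exact hU U
  rw [this, Measure.infinitePi_pi _ (fun i _ => hI i), hV]

theorem measurableSet_seqX_pat {enc : E → ℕ} (hg : GoodEnum g enc)
    (hp0 : ∀ A C e, 0 ≤ p A C e) (hp1 : ∀ A C e, p A C e ≤ 1) (h0 : ρ ∅ ∅ = 1)
    (hopen : ∀ (A C : Finset E) (e : E), Disjoint A C → e ∉ A → e ∉ C →
      ρ (insert e A) C = ρ A C * p A C e)
    (hclosed : ∀ (A C : Finset E) (e : E), Disjoint A C → e ∉ A → e ∉ C →
      ρ A (insert e C) = ρ A C * (1 - p A C e)) (n : ℕ) (A C : Finset E) :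
    MeasurableSet {U : ℕ → unitInterval | A ⊆ seqX g p U n ∧ Disjoint C (seqX g p U n)} := by
  have : {U : ℕ → unitInterval | A ⊆ seqX g p U n ∧ Disjoint C (seqX g p U n)}
      = ⋃ B ∈ (seqW g n).powerset.filter (fun B => A ⊆ B ∧ Disjoint C B),
          {U : ℕ → unitInterval | seqX g p U n = B} := by
    ext U
    simp only [Set.mem_ofPred_eq, Set.mem_iUnion, Finset.mem_filter, Finset.mem_powerset, exists_prop]
    constructor
    · intro h
      exact ⟨_, ⟨seqX_subset g p U n, h⟩, rfl⟩
    · rintro ⟨B, ⟨-, h⟩, rfl⟩
      exact h
  rw [this]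
  exact Finset.measurableSet_biUnion _
    (fun B _ => measurableSet_seqX_eq ρ hg hp0 hp1 h0 hopen hclosed n B)

theorem volume_seqX_pat {enc : E → ℕ} (hg : GoodEnum g enc)
    (hp0 : ∀ A C e, 0 ≤ p A C e) (hp1 : ∀ A C e, p A C e ≤ 1) (h0 : ρ ∅ ∅ = 1)
    (hopen : ∀ (A C : Finset E) (e : E), Disjoint A C → e ∉ A → e ∉ C →
      ρ (insert e A) C = ρ A C * p A C e)
    (hclosed : ∀ (A C : Finset E) (e : E), Disjoint A C → e ∉ A → e ∉ C →
      ρ A (insert e C) = ρ A C * (1 - p A C e)) (n k : ℕ) (A C : Finset E)
    (hd : Disjoint A C) (hA : A ⊆ seqW g n) (hC : C ⊆ seqW g n)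
    (hk : (seqW g n \ (A ∪ C)).card = k) :
    Measure.infinitePi (fun _ : ℕ => (volume : Measure unitInterval))
      {U : ℕ → unitInterval | A ⊆ seqX g p U n ∧ Disjoint C (seqX g p U n)}
      = ENNReal.ofReal (ρ A C) := by
  induction k generalizing A C with
  | zero =>
    have hem : seqW g n \ (A ∪ C) = ∅ := Finset.card_eq_zero.1 hk
    have hW : seqW g n ⊆ A ∪ C := Finset.sdiff_eq_empty_iff_subset.1 hem
    have hCeq : seqW g n \ A = C := by
      ext x
      simp only [Finset.mem_sdiff]
      constructor
      · rintro ⟨hx, hxA⟩
        exact (Finset.mem_union.1 (hW hx)).resolve_left hxA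
      · intro hx
        exact ⟨hC hx, Finset.disjoint_right.1 hd hx⟩
    have : {U : ℕ → unitInterval | A ⊆ seqX g p U n ∧ Disjoint C (seqX g p U n)}
        = {U : ℕ → unitInterval | seqX g p U n = A} := by
      ext U
      simp only [Set.mem_ofPred_eq]
      constructor
      · rintro ⟨h1, h2⟩
        refine Finset.Subset.antisymm ?_ h1
        intro x hx
        refine (Finset.mem_union.1 (hW (seqX_subset g p U n hx))).resolve_right ?_
        intro hxC
        exact Finset.disjoint_left.1 h2 hxC hx
      · rintro rfl
        exact ⟨Finset.Subset.refl _, hd.symm⟩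
    rw [this, volume_seqX_eq ρ hg hp0 hp1 h0 hopen hclosed n A hA, hCeq]
  | succ k ih =>
    have hne : (seqW g n \ (A ∪ C)).Nonempty := by
      rw [← Finset.card_pos]; omega
    obtain ⟨f, hf⟩ := hne
    have hfW := (Finset.mem_sdiff.1 hf).1
    have hfAC := (Finset.mem_sdiff.1 hf).2
    have hfA : f ∉ A := fun h => hfAC (Finset.mem_union_left _ h)
    have hfC : f ∉ C := fun h => hfAC (Finset.mem_union_right _ h)
    have hcard1 : (seqW g n \ (insert f A ∪ C)).card = k := by
      have : seqW g n \ (insert f A ∪ C) = (seqW g n \ (A ∪ C)).erase f := by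
        ext x
        simp only [Finset.mem_sdiff, Finset.mem_union, Finset.mem_insert, Finset.mem_erase]
        tauto
      rw [this, Finset.card_erase_of_mem hf, hk]
      rfl
    have hcard2 : (seqW g n \ (A ∪ insert f C)).card = k := by
      have : seqW g n \ (A ∪ insert f C) = (seqW g n \ (A ∪ C)).erase f := by
        ext x
        simp only [Finset.mem_sdiff, Finset.mem_union, Finset.mem_insert, Finset.mem_erase]
        tauto
      rw [this, Finset.card_erase_of_mem hf, hk]
      rfl
    have hd1 : Disjoint (insert f A) C := by
      rw [Finset.disjoint_insert_left]; exact ⟨hfC, hd⟩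
    have hd2 : Disjoint A (insert f C) := by
      rw [Finset.disjoint_insert_right]; exact ⟨hfA, hd⟩
    have h1 := ih (insert f A) C hd1 (Finset.insert_subset hfW hA) hC hcard1
    have h2 := ih A (insert f C) hd2 hA (Finset.insert_subset hfW hC) hcard2
    have hsplit : {U : ℕ → unitInterval | A ⊆ seqX g p U n ∧ Disjoint C (seqX g p U n)}
        = {U : ℕ → unitInterval | insert f A ⊆ seqX g p U n ∧ Disjoint C (seqX g p U n)}
          ∪ {U : ℕ → unitInterval | A ⊆ seqX g p U n ∧ Disjoint (insert f C) (seqX g p U n)} := by
      ext U
      simp only [Set.mem_ofPred_eq, Set.mem_union, Finset.insert_subset_iff, Finset.disjoint_insert_left]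
      tauto
    have hdisj : Disjoint
        {U : ℕ → unitInterval | insert f A ⊆ seqX g p U n ∧ Disjoint C (seqX g p U n)}
        {U : ℕ → unitInterval | A ⊆ seqX g p U n ∧ Disjoint (insert f C) (seqX g p U n)} := by
      rw [Set.disjoint_left]
      rintro U ⟨h1, -⟩ ⟨-, h2⟩
      rw [Finset.insert_subset_iff] at h1
      rw [Finset.disjoint_insert_left] at h2
      exact h2.1 h1.1
    rw [hsplit, measure_union hdisj (measurableSet_seqX_pat ρ hg hp0 hp1 h0 hopen hclosed n _ _), h1, h2,
      hopen A C f hd hfA hfC, hclosed A C f hd hfA hfC]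
    have hρ : 0 ≤ ρ A C := rho_nonneg p ρ hp0 hp1 h0 hopen hclosed A C hd
    have hq0 := hp0 (A : Set E) (C : Set E) f
    have hq1 := hp1 (A : Set E) (C : Set E) f
    rw [← ENNReal.ofReal_add (mul_nonneg hρ hq0) (mul_nonneg hρ (by linarith))]
    congr 1
    ring

/-- The limiting configuration. -/
def seqLim (g : ℕ → Option E) (p : Set E → Set E → E → ℝ) (U : ℕ → unitInterval) : Set E :=
  {f | ∃ n, f ∈ seqX g p U n}

theorem seqX_succ_iff {enc : E → ℕ} (hg : GoodEnum g enc) (U : ℕ → unitInterval) {n : ℕ} {f : E}
    (hf : f ∈ seqW g n) : f ∈ seqX g p U (n + 1) ↔ f ∈ seqX g p U n := by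
  cases h : g n with
  | none => rw [seqX_none g p U h]
  | some f₀ =>
    rw [seqX_some g p U h]
    split_ifs
    · rw [Finset.mem_insert]
      constructor
      · rintro (rfl | hx)
        · exact absurd hf (not_mem_seqW g hg h)
        · exact hx
      · exact Or.inr
    · exact Iff.rfl

theorem seqX_add_iff {enc : E → ℕ} (hg : GoodEnum g enc) (U : ℕ → unitInterval) {n : ℕ} {f : E}
    (hf : f ∈ seqW g n) (m : ℕ) : f ∈ seqX g p U (n + m) ↔ f ∈ seqX g p U n := by
  induction m with
  | zero => rfl
  | succ m ih =>
    have hf' : f ∈ seqW g (n + m) := by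
      rw [mem_seqW g hg] at hf ⊢
      omega
    rw [← Nat.add_assoc, seqX_succ_iff hg U hf', ih]

theorem mem_seqLim_iff {enc : E → ℕ} (hg : GoodEnum g enc) (U : ℕ → unitInterval) {n : ℕ} {f : E}
    (hf : f ∈ seqW g n) : f ∈ seqLim g p U ↔ f ∈ seqX g p U n := by
  constructor
  · rintro ⟨m, hm⟩
    have hm' : f ∈ seqW g m := seqX_subset g p U m hm
    by_cases hnm : n ≤ m
    · obtain ⟨k, rfl⟩ := Nat.exists_eq_add_of_le hnm
      exact (seqX_add_iff hg U hf k).1 hm
    · have hnm := Nat.lt_of_not_le hnm
      obtain ⟨k, rfl⟩ := Nat.exists_eq_add_of_le hnm.le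
      exact (seqX_add_iff hg U hm' k).2 hm
  · intro h
    exact ⟨n, h⟩

end Seq

/-- Sequential sampling: a consistent family of pattern weights comes from a probability measure. -/
theorem exists_measure_of_rule [Countable E] (p : Set E → Set E → E → ℝ)
    (hp0 : ∀ A C e, 0 ≤ p A C e) (hp1 : ∀ A C e, p A C e ≤ 1)
    (_hpm : ∀ e, Measurable (fun q : Set E × Set E => p q.1 q.2 e))
    (ρ : Finset E → Finset E → ℝ) (h0 : ρ ∅ ∅ = 1) [DecidableEq E]
    (hopen : ∀ (A C : Finset E) (e : E), Disjoint A C → e ∉ A → e ∉ C →
      ρ (insert e A) C = ρ A C * p A C e)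
    (hclosed : ∀ (A C : Finset E) (e : E), Disjoint A C → e ∉ A → e ∉ C →
      ρ A (insert e C) = ρ A C * (1 - p A C e)) :
    ∃ μ : Measure (Set E), IsProbabilityMeasure μ ∧
      ∀ A C : Finset E, Disjoint A C → μ (pat (A : Set E) (C : Set E)) = ENNReal.ofReal (ρ A C) := by
  obtain ⟨enc, henc⟩ := exists_injective_nat E
  classical
  let g : ℕ → Option E := fun n => if h : ∃ f, enc f = n then some h.choose else none
  have hg : GoodEnum g enc := by
    refine ⟨fun f n => ?_⟩
    simp only [g]
    constructor
    · intro h
      by_cases hex : ∃ f, enc f = n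
      · rw [dif_pos hex] at h
        have := Option.some.inj h
        rw [← this]
        exact hex.choose_spec
      · rw [dif_neg hex] at h
        exact absurd h (by simp)
    · intro he
      have hex : ∃ f, enc f = n := ⟨f, he⟩
      rw [dif_pos hex]
      exact congrArg some (henc (hex.choose_spec.trans he.symm))
  have hmem : ∀ (U : ℕ → unitInterval) (f : E), f ∈ seqLim g p U ↔ f ∈ seqX g p U (enc f + 1) := by
    intro U f
    exact mem_seqLim_iff hg U ((mem_seqW g hg f _).2 (Nat.lt_succ_self _))
  have hX : Measurable (seqLim g p) := by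
    refine measurable_set_iff.2 fun f => measurableSet_setOfPred.1 ?_
    have : {U : ℕ → unitInterval | f ∈ seqLim g p U}
        = {U : ℕ → unitInterval | ({f} : Finset E) ⊆ seqX g p U (enc f + 1) ∧
            Disjoint (∅ : Finset E) (seqX g p U (enc f + 1))} := by
      ext U
      simp only [Set.mem_ofPred_eq, Finset.singleton_subset_iff, Finset.disjoint_empty_left, and_true]
      exact hmem U f
    rw [this]
    exact measurableSet_seqX_pat ρ hg hp0 hp1 h0 hopen hclosed _ _ _
  refine ⟨(Measure.infinitePi (fun _ : ℕ => (volume : Measure unitInterval))).map (seqLim g p),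
    Measure.isProbabilityMeasure_map hX.aemeasurable, fun A C hd => ?_⟩
  rw [Measure.map_apply hX (measurableSet_pat A C)]
  set n := (A ∪ C).sup (fun f => enc f + 1) with hn
  have hsub : ∀ f ∈ A ∪ C, f ∈ seqW g n := by
    intro f hf
    rw [mem_seqW g hg]
    have : enc f + 1 ≤ n := Finset.le_sup (f := fun f => enc f + 1) hf
    omega
  have hA : A ⊆ seqW g n := fun f hf => hsub f (Finset.mem_union_left _ hf)
  have hC : C ⊆ seqW g n := fun f hf => hsub f (Finset.mem_union_right _ hf)
  have hset : seqLim g p ⁻¹' pat (A : Set E) (C : Set E)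
      = {U : ℕ → unitInterval | A ⊆ seqX g p U n ∧ Disjoint C (seqX g p U n)} := by
    ext U
    simp only [Set.mem_preimage, pat, Set.mem_ofPred_eq]
    constructor
    · rintro ⟨h1, h2⟩
      refine ⟨fun a ha => (mem_seqLim_iff hg U (hA ha)).1 (h1 ha), ?_⟩
      rw [Finset.disjoint_left]
      intro c hc hx
      exact Set.disjoint_left.1 h2 hc ((mem_seqLim_iff hg U (hC hc)).2 hx)
    · rintro ⟨h1, h2⟩
      refine ⟨fun a ha => (mem_seqLim_iff hg U (hA ha)).2 (h1 ha), ?_⟩
      rw [Set.disjoint_left]
      intro c hc hx
      exact Finset.disjoint_left.1 h2 hc ((mem_seqLim_iff hg U (hC hc)).1 hx)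
  rw [hset]
  exact volume_seqX_pat ρ hg hp0 hp1 h0 hopen hclosed n _ A C hd hA hC rfl

end Vale.Agent.Lib.P143
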