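import Vale.Agent.Lib.P143.Picard
import Vale.Agent.Lib.P143.Labels

/-!
Resampling one coordinate of the iid labels, and translation invariance.
-/

namespace Vale.Agent.Lib.P143

open MeasureTheory
open scoped ENNReal

variable {E : Type*}

/-- Reset coordinate `e` to `1`. -/
def rst [DecidableEq E] (e : E) (τ : E → unitInterval) : E → unitInterval := Function.update τ e 1

/-- Replacing a coordinate by an independent uniform variable keeps the law. -/
theorem mp_update [DecidableEq E] (e : E) :
    MeasurePreserving (fun p : unitInterval × (E → unitInterval) => Function.update p.2 e p.1)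
      ((volume : Measure unitInterval).prod (lamE E)) (lamE E) := by
  have hm : Measurable (fun p : unitInterval × (E → unitInterval) => Function.update p.2 e p.1) :=
    measurable_update'.comp measurable_swap
  refine ⟨hm, ?_⟩
  refine Measure.eq_infinitePi _ fun s t ht => ?_
  rw [Measure.map_apply hm (MeasurableSet.pi (Finset.countable_toSet s) fun i _ => ht i)]
  have hset : (fun p : unitInterval × (E → unitInterval) => Function.update p.2 e p.1) ⁻¹'
      (Set.pi (s : Set E) t) =
      (if e ∈ s then t e else Set.univ) ×ˢ Set.pi ((s.erase e : Finset E) : Set E) t := by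
    ext ⟨a, τ⟩
    simp only [Set.mem_preimage, Set.mem_pi, Finset.mem_coe, Set.mem_prod, Finset.mem_erase]
    constructor
    · intro h
      refine ⟨?_, fun f hf => ?_⟩
      · split_ifs with he
        · have := h e he
          simpa using this
        · trivial
      · have := h f hf.2
        rwa [Function.update_of_ne hf.1] at this
    · rintro ⟨h1, h2⟩ f hf
      by_cases hfe : f = e
      · subst hfe
        rw [if_pos hf] at h1
        simpa using h1
      · rw [Function.update_of_ne hfe]
        exact h2 f ⟨hfe, hf⟩
  rw [hset, Measure.prod_prod]
  unfold lamE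
  rw [Measure.infinitePi_pi _ (fun i _ => ht i)]
  by_cases he : e ∈ s
  · rw [if_pos he, Finset.mul_prod_erase s (fun i => (volume : Measure unitInterval) (t i)) he]
  · rw [if_neg he, Finset.erase_eq_of_notMem he]
    simp

/-- Independence of one coordinate from the others. -/
theorem lintegral_rst [DecidableEq E] (e : E) (f : unitInterval → (E → unitInterval) → ℝ≥0∞)
    (hf : Measurable (Function.uncurry f)) :
    ∫⁻ τ, f (τ e) (rst e τ) ∂(lamE E)
      = ∫⁻ s, ∫⁻ τ, f s (rst e τ) ∂(lamE E) ∂(volume : Measure unitInterval) := by
  have hr : Measurable (rst e : (E → unitInterval) → (E → unitInterval)) :=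
    measurable_update_left
  have hF : Measurable (fun τ : E → unitInterval => f (τ e) (rst e τ)) :=
    hf.comp ((measurable_pi_apply e).prodMk hr)
  have key : ∫⁻ τ, f (τ e) (rst e τ) ∂(lamE E)
      = ∫⁻ p, f (Function.update p.2 e p.1 e) (rst e (Function.update p.2 e p.1))
          ∂((volume : Measure unitInterval).prod (lamE E)) := by
    conv_lhs => rw [← (mp_update e).map_eq]
    rw [lintegral_map hF (mp_update e).measurable]
  have hG : Measurable (fun p : unitInterval × (E → unitInterval) =>
      f (Function.update p.2 e p.1 e) (rst e (Function.update p.2 e p.1))) :=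
    hF.comp (mp_update e).measurable
  rw [key, lintegral_prod _ hG.aemeasurable]
  refine lintegral_congr fun s => lintegral_congr fun τ => ?_
  simp only [Function.update_self, rst, Function.update_idem]

theorem mp_tsh {Γ : Type*} [Group Γ] [MulAction Γ E] (γ : Γ) :
    MeasurePreserving (tsh γ : (E → unitInterval) → (E → unitInterval)) (lamE E) (lamE E) :=
  mp_reindex (fun e : E => γ⁻¹ • e) (MulAction.injective γ⁻¹)

theorem lamE_eq_zero_of_ne (e f : E) (h : e ≠ f) : lamE E {τ | τ e = τ f} = 0 := by
  classical
  have hS : MeasurableSet {τ : E → unitInterval | τ e = τ f} :=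
    measurableSet_eq_fun (measurable_pi_apply e) (measurable_pi_apply f)
  rw [← (mp_update e).map_eq, Measure.map_apply (mp_update e).measurable hS]
  have hS' := (mp_update e).measurable hS
  rw [Measure.prod_apply_symm hS']
  have h0 : ∀ τ : E → unitInterval, (volume : Measure unitInterval)
      ((fun x => (x, τ)) ⁻¹' ((fun p : unitInterval × (E → unitInterval) =>
        Function.update p.2 e p.1) ⁻¹' {τ | τ e = τ f})) = 0 := by
    intro τ
    have : (fun x => (x, τ)) ⁻¹' ((fun p : unitInterval × (E → unitInterval) =>
        Function.update p.2 e p.1) ⁻¹' {τ | τ e = τ f}) = {τ f} := by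
      ext x
      simp [Function.update_of_ne h.symm]
    rw [this]
    exact measure_singleton _
  rw [lintegral_congr h0]
  simp

/-- The product measure is invariant: coordinates at a fixed level. -/
theorem lamE_lt (e : E) (s : unitInterval) : lamE E {τ | τ e < s} = ENNReal.ofReal s := by
  have h := measurePreserving_eval_infinitePi (fun _ : E => (volume : Measure unitInterval)) e
  have hS : MeasurableSet (Set.Iio s) := measurableSet_Iio
  have := h.measure_preimage hS.nullMeasurableSet
  unfold lamE
  change (Measure.infinitePi fun _ : E => (volume : Measure unitInterval))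
    ((Function.eval e) ⁻¹' Set.Iio s) = _
  rw [this, unitInterval.volume_Iio]

theorem lamE_gt (e : E) (s : unitInterval) : lamE E {τ | s < τ e} = ENNReal.ofReal (1 - s) := by
  have h := measurePreserving_eval_infinitePi (fun _ : E => (volume : Measure unitInterval)) e
  have hS : MeasurableSet (Set.Ioi s) := measurableSet_Ioi
  have := h.measure_preimage hS.nullMeasurableSet
  unfold lamE
  change (Measure.infinitePi fun _ : E => (volume : Measure unitInterval))
    ((Function.eval e) ⁻¹' Set.Ioi s) = _
  rw [this, unitInterval.volume_Ioi]

end Vale.Agent.Lib.P143
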