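import Vale.Agent.Lib.P143.Rep

/-!
The trace of good fields: additivity, the trace property (mass transport), bounded convergence.
-/

namespace Vale.Agent.Lib.P143

open MeasureTheory Filter Topology
open scoped RealInnerProductSpace ENNReal

variable {Γ I₀ H Ω : Type*} [Group Γ] [NormedAddCommGroup H] [InnerProductSpace ℝ H]
variable [MeasurableSpace Ω] {R : DartRep Γ I₀ H} {act : Γ → Ω → Ω}
variable {P : Measure Ω} [IsProbabilityMeasure P]

omit [IsProbabilityMeasure P] in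
theorem Good.integrable_inner [IsFiniteMeasure P] {T : Ω → H →L[ℝ] H} (hT : Good R act T) (x y : H) :
    Integrable (fun ω => ⟪T ω x, y⟫) P := by
  obtain ⟨C, hC⟩ := hT.bdd
  refine Integrable.of_bound (hT.meas x y).aestronglyMeasurable (C * ‖x‖ * ‖y‖) ?_
  refine Eventually.of_forall (fun ω => ?_)
  rw [Real.norm_eq_abs]
  refine (abs_real_inner_le_norm _ _).trans ?_
  refine mul_le_mul_of_nonneg_right ?_ (norm_nonneg _)
  exact ((T ω).le_opNorm x).trans (mul_le_mul_of_nonneg_right (hC ω) (norm_nonneg _))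

variable [Fintype I₀]

theorem tr_add {S T : Ω → H →L[ℝ] H} (hS : Good R act S) (hT : Good R act T) :
    tr R P (fun ω => S ω + T ω) = tr R P S + tr R P T := by
  unfold tr
  rw [← Finset.sum_add_distrib]
  refine Finset.sum_congr rfl (fun i _ => ?_)
  simp only [add_apply, inner_add_left]
  exact integral_add (hS.integrable_inner _ _) (hT.integrable_inner _ _)

theorem tr_sub {S T : Ω → H →L[ℝ] H} (hS : Good R act S) (hT : Good R act T) :
    tr R P (fun ω => S ω - T ω) = tr R P S - tr R P T := by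
  unfold tr
  rw [← Finset.sum_sub_distrib]
  refine Finset.sum_congr rfl (fun i _ => ?_)
  simp only [sub_apply, inner_sub_left]
  exact integral_sub (hS.integrable_inner _ _) (hT.integrable_inner _ _)

theorem tr_smul (c : ℝ) (T : Ω → H →L[ℝ] H) :
    tr R P (fun ω => c • T ω) = c * tr R P T := by
  unfold tr
  rw [Finset.mul_sum]
  refine Finset.sum_congr rfl (fun i _ => ?_)
  simp only [smul_apply, inner_smul_left]
  exact integral_const_mul _ _

/-- Bounded convergence for the trace. -/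
theorem tr_tendsto {T : ℕ → Ω → H →L[ℝ] H} {L : Ω → H →L[ℝ] H} (hT : ∀ n, Good R act (T n))
    (hb : ∃ C, ∀ n ω, ‖T n ω‖ ≤ C)
    (hL : ∀ ω x, Tendsto (fun n => T n ω x) atTop (𝓝 (L ω x))) :
    Tendsto (fun n => tr R P (T n)) atTop (𝓝 (tr R P L)) := by
  unfold tr
  refine tendsto_finsetSum _ (fun i _ => ?_)
  obtain ⟨C, hC⟩ := hb
  refine tendsto_integral_of_dominated_convergence (fun _ => C * ‖R.b (1, i)‖ * ‖R.b (1, i)‖) ?_ ?_ ?_ ?_
  · exact fun n => ((hT n).meas _ _).aestronglyMeasurable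
  · exact integrable_const _
  · intro n
    refine Eventually.of_forall (fun ω => ?_)
    rw [Real.norm_eq_abs]
    refine (abs_real_inner_le_norm _ _).trans ?_
    refine mul_le_mul_of_nonneg_right ?_ (norm_nonneg _)
    exact ((T n ω).le_opNorm _).trans (mul_le_mul_of_nonneg_right (hC n ω) (norm_nonneg _))
  · exact Eventually.of_forall (fun ω => (hL ω _).inner tendsto_const_nhds)

variable [Countable Γ] [CompleteSpace H]

omit [Countable Γ] [MeasurableSpace Ω] [Group Γ] [Fintype I₀] [CompleteSpace H] in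
theorem hasSum_sq_b (b : HilbertBasis (Γ × I₀) ℝ H) (y : H) :
    HasSum (fun d => ⟪y, b d⟫ ^ 2) (‖y‖ ^ 2) := by
  have h := b.hasSum_inner_mul_inner y y
  rw [real_inner_self_eq_norm_sq] at h
  have e : (fun d => ⟪y, b d⟫ ^ 2) = fun d => ⟪y, b d⟫ * ⟪b d, y⟫ := by
    funext d
    rw [real_inner_comm y (b d), sq]
  rw [e]
  exact h

omit [IsProbabilityMeasure P] in
/-- Measurability of the squared norm of `T ω x`. -/
theorem Good.measurable_norm_sq {T : Ω → H →L[ℝ] H} (hT : Good R act T) (x : H) :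
    Measurable (fun ω => ‖T ω x‖ ^ 2) :=
  measurable_of_hasSum' (f := fun d ω => ⟪T ω x, R.b d⟫ ^ 2) (fun _ => (hT.meas _ _).pow_const 2)
    (fun ω => hasSum_sq_b R.b (T ω x))

/-- One term of the expansion of the trace of a product. -/
theorem hasSum_integral_comp {S T : Ω → H →L[ℝ] H} (hS : Good R act S) (hT : Good R act T) (x : H) :
    HasSum (fun d => ∫ ω, ⟪T ω x, R.b d⟫ * ⟪S ω (R.b d), x⟫ ∂P) (∫ ω, ⟪S ω (T ω x), x⟫ ∂P) := by
  have hadj : Good R act (fun ω => ContinuousLinearMap.adjoint (S ω)) := hS.adjoint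
  obtain ⟨C, hC⟩ := hT.bdd
  obtain ⟨D, hD⟩ := hadj.bdd
  have hsum : ∀ ω, HasSum (fun d => ⟪T ω x, R.b d⟫ * ⟪S ω (R.b d), x⟫) ⟪S ω (T ω x), x⟫ := by
    intro ω
    have h := R.b.hasSum_inner_mul_inner (T ω x) ((ContinuousLinearMap.adjoint (S ω)) x)
    simp only [ContinuousLinearMap.adjoint_inner_right] at h
    simpa using h
  have hsq1 : ∀ ω, HasSum (fun d => ⟪T ω x, R.b d⟫ ^ 2) (‖T ω x‖ ^ 2) :=
    fun ω => hasSum_sq_b R.b (T ω x)
  have hsq2 : ∀ ω, HasSum (fun d => ⟪S ω (R.b d), x⟫ ^ 2)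
      (‖ContinuousLinearMap.adjoint (S ω) x‖ ^ 2) := by
    intro ω
    have h := hasSum_sq_b R.b (ContinuousLinearMap.adjoint (S ω) x)
    have e : (fun d => ⟪S ω (R.b d), x⟫ ^ 2) = fun d => ⟪ContinuousLinearMap.adjoint (S ω) x, R.b d⟫ ^ 2 := by
      funext d
      rw [ContinuousLinearMap.adjoint_inner_left, real_inner_comm]
    rw [e]
    exact h
  have hbound : ∀ ω, HasSum (fun d => (⟪T ω x, R.b d⟫ ^ 2 + ⟪S ω (R.b d), x⟫ ^ 2))
      (‖T ω x‖ ^ 2 + ‖ContinuousLinearMap.adjoint (S ω) x‖ ^ 2) :=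
    fun ω => (hsq1 ω).add (hsq2 ω)
  refine MeasureTheory.hasSum_integral_of_dominated_convergence
    (fun d ω => (⟪T ω x, R.b d⟫ ^ 2 + ⟪S ω (R.b d), x⟫ ^ 2)) ?_ ?_ ?_ ?_ ?_
  · intro d
    exact ((hT.meas _ _).mul (hS.meas _ _)).aestronglyMeasurable
  · intro d
    refine Eventually.of_forall (fun ω => ?_)
    rw [Real.norm_eq_abs, abs_mul]
    nlinarith [sq_abs ⟪T ω x, R.b d⟫, sq_abs ⟪S ω (R.b d), x⟫, sq_nonneg (|⟪T ω x, R.b d⟫| - |⟪S ω (R.b d), x⟫|),
      abs_nonneg ⟪T ω x, R.b d⟫, abs_nonneg ⟪S ω (R.b d), x⟫]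
  · exact Eventually.of_forall (fun ω => (hbound ω).summable)
  · have hint : (fun ω => ∑' d, (⟪T ω x, R.b d⟫ ^ 2 + ⟪S ω (R.b d), x⟫ ^ 2))
        = fun ω => ‖T ω x‖ ^ 2 + ‖ContinuousLinearMap.adjoint (S ω) x‖ ^ 2 := by
      funext ω
      exact (hbound ω).tsum_eq
    rw [hint]
    refine Integrable.of_bound (((hT.measurable_norm_sq x).add
      (hadj.measurable_norm_sq x)).aestronglyMeasurable) ((C * ‖x‖) ^ 2 + (D * ‖x‖) ^ 2) ?_
    refine Eventually.of_forall (fun ω => ?_)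
    rw [Real.norm_of_nonneg (by positivity)]
    have h1 : ‖T ω x‖ ≤ C * ‖x‖ :=
      ((T ω).le_opNorm x).trans (mul_le_mul_of_nonneg_right (hC ω) (norm_nonneg _))
    have h2 : ‖ContinuousLinearMap.adjoint (S ω) x‖ ≤ D * ‖x‖ :=
      ((ContinuousLinearMap.adjoint (S ω)).le_opNorm x).trans
        (mul_le_mul_of_nonneg_right (hD ω) (norm_nonneg _))
    gcongr
  · exact Eventually.of_forall hsum

omit [MeasurableSpace Ω] [CompleteSpace H] in
/-- Sums over a product with a finite factor. -/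
theorem tsum_prod_fintype (u : Γ × I₀ → ℝ) (hu : Summable u) : ∑' d, u d = ∑' g, ∑ j, u (g, j) := by
  rw [hu.tsum_prod]
  exact tsum_congr (fun g => tsum_fintype _)

omit [MeasurableSpace Ω] [CompleteSpace H] in
theorem summable_prod_fintype (u : Γ × I₀ → ℝ) (hu : Summable u) :
    Summable (fun g => ∑ j, u (g, j)) := by
  have : (fun g => ∑ j, u (g, j)) = fun g => ∑' j, u (g, j) := by
    funext g
    exact (tsum_fintype _).symm
  rw [this]
  exact hu.prod

omit [MeasurableSpace Ω] [CompleteSpace H] in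
/-- The bookkeeping behind the trace property. -/
theorem double_sum_swap (f f' : I₀ → Γ → I₀ → ℝ) (key : ∀ i g j, f i g j = f' j g⁻¹ i)
    (A B : I₀ → ℝ) (h1 : ∀ i, HasSum (fun d : Γ × I₀ => f i d.1 d.2) (A i))
    (h2 : ∀ j, HasSum (fun d : Γ × I₀ => f' j d.1 d.2) (B j)) : ∑ i, A i = ∑ j, B j := by
  have hA : ∀ i, A i = ∑' g, ∑ j, f i g j := by
    intro i
    rw [← (h1 i).tsum_eq]
    exact tsum_prod_fintype (fun d : Γ × I₀ => f i d.1 d.2) (h1 i).summable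
  have hB : ∀ j, B j = ∑' g, ∑ i, f' j g i := by
    intro j
    rw [← (h2 j).tsum_eq]
    exact tsum_prod_fintype (fun d : Γ × I₀ => f' j d.1 d.2) (h2 j).summable
  have hL : ∑ i, A i = ∑' g, ∑ i, ∑ j, f i g j := by
    simp_rw [hA]
    rw [Summable.tsum_finsetSum]
    exact fun i _ => summable_prod_fintype (fun d : Γ × I₀ => f i d.1 d.2) (h1 i).summable
  have hR : ∑ j, B j = ∑' g, ∑ j, ∑ i, f' j g i := by
    simp_rw [hB]
    rw [Summable.tsum_finsetSum]
    exact fun j _ => summable_prod_fintype (fun d : Γ × I₀ => f' j d.1 d.2) (h2 j).summable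
  rw [hL, hR, ← (Equiv.inv Γ).tsum_eq]
  refine tsum_congr (fun g => ?_)
  rw [Finset.sum_comm]
  refine Finset.sum_congr rfl (fun j _ => Finset.sum_congr rfl (fun i _ => ?_))
  simp only [Equiv.inv_apply]
  rw [key i g⁻¹ j, inv_inv]

/-- The trace property. -/
theorem tr_comm (hact : ∀ γ, MeasurePreserving (act γ) P P) {S T : Ω → H →L[ℝ] H}
    (hS : Good R act S) (hT : Good R act T) :
    tr R P (fun ω => S ω ∘L T ω) = tr R P (fun ω => T ω ∘L S ω) := by
  have key : ∀ (i : I₀) (g : Γ) (j : I₀),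
      (∫ ω, ⟪T ω (R.b (1, i)), R.b (g, j)⟫ * ⟪S ω (R.b (g, j)), R.b (1, i)⟫ ∂P)
      = ∫ ω, ⟪S ω (R.b (1, j)), R.b (g⁻¹, i)⟫ * ⟪T ω (R.b (g⁻¹, i)), R.b (1, j)⟫ ∂P := by
    intro i g j
    have hm : Measurable (fun ω => ⟪S ω (R.b (1, j)), R.b (g⁻¹, i)⟫ * ⟪T ω (R.b (g⁻¹, i)), R.b (1, j)⟫) :=
      (hS.meas _ _).mul (hT.meas _ _)
    have h := integral_map (μ := P) (hact g⁻¹).measurable.aemeasurable hm.aestronglyMeasurable
    rw [(hact g⁻¹).map_eq] at h
    rw [h]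
    refine integral_congr_ae (Eventually.of_forall (fun ω => ?_))
    simp only
    have e1 : ⟪S (act g⁻¹ ω) (R.b (1, j)), R.b (g⁻¹, i)⟫ = ⟪S ω (R.b (g, j)), R.b (1, i)⟫ := by
      rw [hS.equiv, inv_inv, R.rep_b, mul_one]
      have h3 : R.b (g⁻¹, i) = R.rep g⁻¹ (R.b (1, i)) := by rw [R.rep_b, mul_one]
      rw [h3]
      exact (R.rep g⁻¹).inner_map_map _ _
    have e2 : ⟪T (act g⁻¹ ω) (R.b (g⁻¹, i)), R.b (1, j)⟫ = ⟪T ω (R.b (1, i)), R.b (g, j)⟫ := by
      rw [hT.equiv, inv_inv, R.rep_b, mul_inv_cancel]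
      have h3 : R.b (1, j) = R.rep g⁻¹ (R.b (g, j)) := by rw [R.rep_b, inv_mul_cancel]
      rw [h3]
      exact (R.rep g⁻¹).inner_map_map _ _
    rw [e1, e2, mul_comm]
  unfold tr
  simp only [ContinuousLinearMap.comp_apply]
  exact double_sum_swap
    (fun i g j => ∫ ω, ⟪T ω (R.b (1, i)), R.b (g, j)⟫ * ⟪S ω (R.b (g, j)), R.b (1, i)⟫ ∂P)
    (fun j g i => ∫ ω, ⟪S ω (R.b (1, j)), R.b (g, i)⟫ * ⟪T ω (R.b (g, i)), R.b (1, j)⟫ ∂P) key
    (fun i => ∫ ω, ⟪S ω (T ω (R.b (1, i))), R.b (1, i)⟫ ∂P)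
    (fun j => ∫ ω, ⟪T ω (S ω (R.b (1, j))), R.b (1, j)⟫ ∂P)
    (fun i => hasSum_integral_comp hS hT (R.b (1, i)))
    (fun j => hasSum_integral_comp hT hS (R.b (1, j)))

end Vale.Agent.Lib.P143
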