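import Vale.Agent.Lib.P143.CB

/-!
The reduced incidence matrix: the squared determinant of a square part detects connectedness.
-/

namespace Vale.Agent.Lib.P143

open scoped Matrix

set_option linter.unusedSectionVars false

variable {F : Type*} [Fintype F] [DecidableEq F]

/-- The reduced incidence matrix. -/
noncomputable def incM {V : Type*} [DecidableEq V] (head tail : F → V) (r : V) : Matrix {v : V // v ≠ r} F ℝ :=
  fun v f => (if v.1 = head f then 1 else 0) - (if v.1 = tail f then 1 else 0)

/-- The graph with edge set `T`. -/
def gOf {V : Type*} (head tail : F → V) (T : Finset F) : SimpleGraph V :=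
  SimpleGraph.fromEdgeSet ((fun f => s(head f, tail f)) '' (T : Set F))

/-- An integer version of the incidence matrix with columns indexed through `c`. -/
def incZ {V m : Type*} [DecidableEq V] (head tail : F → V) (r : V) (c : m → F) :
    Matrix {v : V // v ≠ r} m ℤ :=
  fun v j => (if v.1 = head (c j) then 1 else 0) - (if v.1 = tail (c j) then 1 else 0)

/-- The adjacency in `gOf`. -/
theorem gOf_adj {V : Type*} [DecidableEq V] (head tail : F → V) (T : Finset F) {v w : V}
    (h : (gOf head tail T).Adj v w) :
    ∃ f ∈ T, (head f = v ∧ tail f = w) ∨ (head f = w ∧ tail f = v) := by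
  rw [gOf, SimpleGraph.fromEdgeSet_adj] at h
  obtain ⟨⟨f, hf, hfe⟩, _⟩ := h
  refine ⟨f, Finset.mem_coe.1 hf, ?_⟩
  simpa [Sym2.eq_iff] using hfe

/-- Each edge of `T` joins adjacent vertices. -/
theorem gOf_adj_of_mem {V : Type*} [DecidableEq V] (head tail : F → V) (T : Finset F)
    (hne : ∀ f, head f ≠ tail f) {f : F} (hf : f ∈ T) : (gOf head tail T).Adj (head f) (tail f) := by
  rw [gOf, SimpleGraph.fromEdgeSet_adj]
  exact ⟨⟨f, Finset.mem_coe.2 hf, rfl⟩, hne f⟩

/-- A right inverse column by column, along a path from the root. -/
theorem exists_col_of_reachable {V m : Type*} [DecidableEq V] [Fintype m] [DecidableEq m]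
    (head tail : F → V) (r : V) (c : m → F) (T : Finset F)
    (hc : ∀ f ∈ T, ∃ j, c j = f) {v : V} (hv : (gOf head tail T).Reachable r v) :
    ∃ x : m → ℤ, ∀ u : {w : V // w ≠ r}, ∑ j, incZ head tail r c u j * x j = if u.1 = v then 1 else 0 := by
  rw [SimpleGraph.reachable_iff_reflTransGen] at hv
  induction hv with
  | refl =>
    refine ⟨0, fun u => ?_⟩
    simp [u.2]
  | @tail b d _ hadj ih =>
    obtain ⟨x, hx⟩ := ih
    obtain ⟨f, hfT, hf⟩ := gOf_adj head tail T hadj
    obtain ⟨j₀, rfl⟩ := hc f hfT
    rcases hf with ⟨h1, h2⟩ | ⟨h1, h2⟩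
    · -- head = b, tail = d
      refine ⟨fun j => x j - (if j = j₀ then 1 else 0), fun u => ?_⟩
      have : ∑ j, incZ head tail r c u j * (x j - (if j = j₀ then 1 else 0))
          = ∑ j, incZ head tail r c u j * x j - incZ head tail r c u j₀ := by
        simp_rw [mul_sub]
        rw [Finset.sum_sub_distrib]
        simp
      rw [this, hx u]
      simp only [incZ, h1, h2]
      ring
    · refine ⟨fun j => x j + (if j = j₀ then 1 else 0), fun u => ?_⟩
      have : ∑ j, incZ head tail r c u j * (x j + (if j = j₀ then 1 else 0))
          = ∑ j, incZ head tail r c u j * x j + incZ head tail r c u j₀ := by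
        simp_rw [mul_add]
        rw [Finset.sum_add_distrib]
        simp
      rw [this, hx u]
      simp only [incZ, h1, h2]
      ring

open Classical in
/-- The determinant squared of a square part of the reduced incidence matrix detects connectedness. -/
theorem dW_incM {V : Type*} [Fintype V] [DecidableEq V] (head tail : F → V) (r : V)
    (hne : ∀ f, head f ≠ tail f) (T : Finset F) (hT : T.card = Fintype.card {v : V // v ≠ r}) :
    dW (incM head tail r) T = if (gOf head tail T).Connected then 1 else 0 := by
  rw [dW_of_card _ hT]
  set c : {v : V // v ≠ r} → F := fun i => (eT T hT i : F) with hc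
  have hcT : ∀ f ∈ T, ∃ j, c j = f := fun f hf => ⟨(eT T hT).symm ⟨f, hf⟩, by simp [hc]⟩
  have hcmem : ∀ j, c j ∈ T := fun j => (eT T hT j).2
  have hN : (incM head tail r).submatrix id c = (incZ head tail r c).map (Int.castRingHom ℝ) := by
    ext v j
    simp [incM, incZ]
  by_cases hconn : (gOf head tail T).Connected
  · rw [if_pos hconn, hN]
    choose X hX using fun v : {w : V // w ≠ r} =>
      exists_col_of_reachable head tail r c T hcT (hconn.preconnected r v.1)
    have hmul : incZ head tail r c * Matrix.of (fun j v => X v j) = 1 := by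
      ext u v
      rw [Matrix.mul_apply, Matrix.one_apply]
      simp only [Matrix.of_apply]
      rw [hX v u]
      simp [Subtype.ext_iff]
    have hdet := congrArg Matrix.det hmul
    rw [Matrix.det_mul, Matrix.det_one] at hdet
    have hu : IsUnit (incZ head tail r c).det := IsUnit.of_mul_eq_one _ hdet
    have hmap : ((incZ head tail r c).map (Int.castRingHom ℝ)).det
        = ((incZ head tail r c).det : ℝ) := by
      have := (Int.castRingHom ℝ).map_det (incZ head tail r c)
      simpa using this.symm
    rw [hmap]
    rcases Int.isUnit_iff.1 hu with h | h <;> simp [h]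
  · rw [if_neg hconn]
    have : ¬ ∀ x, (gOf head tail T).Reachable r x := by
      intro hall
      apply hconn
      exact (SimpleGraph.connected_iff _).2 ⟨fun u v => (hall u).symm.trans (hall v), ⟨r⟩⟩
    obtain ⟨x, hx⟩ := not_forall.1 this
    -- the characteristic vector of the component of `x`
    let w : {v : V // v ≠ r} → ℝ := fun v => if (gOf head tail T).Reachable x v.1 then 1 else 0
    have hxr : x ≠ r := by
      rintro rfl
      exact hx (SimpleGraph.Reachable.refl _)
    have hw : w ≠ 0 := by
      intro h0
      have := congrFun h0 ⟨x, hxr⟩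
      simp [w] at this
    have hone : ∀ y : V, ∑ v : {v : V // v ≠ r}, w v * (if v.1 = y then 1 else 0)
        = if (gOf head tail T).Reachable x y then 1 else 0 := by
      intro y
      by_cases hy : y = r
      · subst hy
        rw [if_neg (fun h => hx h.symm)]
        refine Finset.sum_eq_zero (fun v _ => ?_)
        rw [if_neg v.2, mul_zero]
      · rw [Finset.sum_eq_single (⟨y, hy⟩ : {v : V // v ≠ r})]
        · simp [w]
        · intro v _ hv
          have : v.1 ≠ y := fun h => hv (Subtype.ext h)
          rw [if_neg this, mul_zero]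
        · intro h
          exact absurd (Finset.mem_univ _) h
    have hz : w ᵥ* ((incM head tail r).submatrix id c) = 0 := by
      funext j
      simp only [Matrix.vecMul, dotProduct, Pi.zero_apply, Matrix.submatrix_apply, id, incM]
      simp_rw [mul_sub]
      rw [Finset.sum_sub_distrib, hone, hone]
      have hadj := gOf_adj_of_mem head tail T hne (hcmem j)
      have hiff : (gOf head tail T).Reachable x (head (c j)) ↔ (gOf head tail T).Reachable x (tail (c j)) :=
        ⟨fun h => h.trans hadj.reachable, fun h => h.trans hadj.symm.reachable⟩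
      by_cases h1 : (gOf head tail T).Reachable x (head (c j))
      · rw [if_pos h1, if_pos (hiff.1 h1), sub_self]
      · rw [if_neg h1, if_neg (fun h => h1 (hiff.2 h)), sub_self]
    have hdet0 := Matrix.exists_vecMul_eq_zero_iff.1 ⟨w, hw, hz⟩
    rw [hdet0]
    simp

end Vale.Agent.Lib.P143
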